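import Crest.Agent.R46.Defs

/-! Row 46: a Boolean puzzle becomes a bipartite 3-colouring puzzle.

Vertices. Side `false`: `o₀, K₁, K₂`, `r σ i` (`σ : Fin n → Bool`, `i : Fin n`). Side `true`: `o₁`,
variables `b x` (`x : Fin n`), `s σ i` (`i : Fin (n+1)`). Let `ψ true = 1`, `ψ false = 2`.
Edges: `K₁ o₁`, `K₂ o₁`, `o₀ (b x)`, and only for `σ ∉ Ω`: `K₁ (s σ 0)`, `K₂ (s σ 0)`,
`(r σ i) (s σ i.castSucc)`, `(r σ i) (b i)`, `(r σ i) (s σ i.succ)`, `K_{ψ (σ i)} (s σ i.succ)`,
`o₀ (s σ (last n))`.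
Invariances: `(o₀,0,true)`, `(o₁,0,true)` (anchors), `(K₁,(1,0),false)`, `(K₁,(0,1),false)`,
`(K₂,(1,0),true)`, `(K₂,(0,1),false)`, and `(b x, (2 h₁, h₂), s)` for `(x,h,s) ∈ Inv`.
* Strong solution from a Boolean solution `β`: at `j` put `β' = β (j₁ / 2, j₂)` (floor division),
  `o₀ = o₁ = 0`, `K₁ = 1`, `b x = ψ (β' x)`. If `j₁` is even: `K₂ = 2`; with
  `agree i := ∀ k < i, β' k = σ k`: `s σ i = 0` if `agree i` else `-ψ (σ (i-1))`;
  `r σ i = -ψ (σ i)` if `agree (i+1)`, `ψ (σ i)` if `agree i` only, else `0`. If `j₁` is odd: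
  `K₂ = 1`, all `s = 2`, all `r = 0`.
* Weak solution `π` ⟹ Boolean solution: `π o₀ = π o₁ = 1`, so `π K₁, π K₂, π (b x)` are fixed-point
  free, i.e. `e ↦ e ± 1`, with inverse `e ↦ e ∓ 1`. `δ = π j K₁ 0` is independent of `j`; choose
  `j* ∈ {0, (1,0)}` with `π j* K₂ 0 = -δ`; this persists on `j* + (2 j₁, j₂)`. There
  `c u = δ * π j u 0` is a proper colouring with `o₀ = 0, K₁ = 1, K₂ = 2`; put
  `β j x = decide (c (b x) = 1)`. If `β j = σ ∉ Ω` then inductively `c (s σ i) = 0`, contradicting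
  the last edge. A period `k` of `π` is a period of `β`. -/

set_option autoImplicit false

namespace Crest.Agent.R46

namespace Col

/-- vertices of the gadget (`K true = K₁`, `K false = K₂`) -/
inductive CV (n : ℕ) : Type
  | o0 | o1
  | K (t : Bool)
  | b (x : Fin n)
  | r (σ : Fin n → Bool) (i : Fin n)
  | s (σ : Fin n → Bool) (i : Fin (n + 1))
  deriving DecidableEq, Fintype

open CV

variable {n : ℕ}

/-- the side of a vertex -/
def ty : CV n → Bool
  | o0 => false
  | o1 => true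
  | K _ => false
  | b _ => true
  | r _ _ => false
  | s _ _ => true

/-- edges of the gadget -/
inductive CE (Ω : Set (Fin n → Bool)) : CV n → CV n → Prop
  | Ko (t : Bool) : CE Ω (K t) o1
  | ob (x : Fin n) : CE Ω o0 (b x)
  | Ks0 (σ : Fin n → Bool) (h : σ ∉ Ω) (t : Bool) : CE Ω (K t) (s σ 0)
  | rs (σ : Fin n → Bool) (h : σ ∉ Ω) (i : Fin n) : CE Ω (r σ i) (s σ i.castSucc)
  | rb (σ : Fin n → Bool) (h : σ ∉ Ω) (i : Fin n) : CE Ω (r σ i) (b i)
  | rs' (σ : Fin n → Bool) (h : σ ∉ Ω) (i : Fin n) : CE Ω (r σ i) (s σ i.succ)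
  | Ks (σ : Fin n → Bool) (h : σ ∉ Ω) (i : Fin n) : CE Ω (K (σ i)) (s σ i.succ)
  | os (σ : Fin n → Bool) (h : σ ∉ Ω) : CE Ω o0 (s σ (Fin.last n))

/-- invariances of the gadget -/
def inv (Inv : Finset (Fin n × (ℤ × ℤ) × Bool)) : Finset (CV n × (ℤ × ℤ) × Bool) :=
  {(o0, 0, true), (o1, 0, true), (K true, (1, 0), false), (K true, (0, 1), false),
    (K false, (1, 0), true), (K false, (0, 1), false)} ∪
    Inv.image fun e => (b e.1, (2 * e.2.1.1, e.2.1.2), e.2.2)

/-- the colour of a Boolean value -/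
def ψ : Bool → ZMod 3
  | true => 1
  | false => 2

/-- agreement below `i` -/
def Agree (β σ : Fin n → Bool) (i : ℕ) : Prop := ∀ k : Fin n, k.val < i → β k = σ k

open Classical in
/-- colouring of an even cell -/
noncomputable def ev (β : Fin n → Bool) : CV n → ZMod 3
  | o0 => 0
  | o1 => 0
  | K t => ψ t
  | b x => ψ (β x)
  | r σ i => if Agree β σ (i + 1) then -ψ (σ i) else if Agree β σ i then ψ (σ i) else 0
  | s σ i => Fin.cases 0 (fun i => if Agree β σ (i + 1) then 0 else -ψ (σ i)) i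

/-- colouring of an odd cell -/
def od (β : Fin n → Bool) : CV n → ZMod 3
  | o0 => 0
  | o1 => 0
  | K _ => 1
  | b x => ψ (β x)
  | r _ _ => 0
  | s _ _ => 2

lemma ψ_ne (t : Bool) : ψ t ≠ 0 := by cases t <;> decide

lemma ψ_ne_neg (t : Bool) : ψ t ≠ -ψ t := by cases t <;> decide

lemma ψ_inj {t t' : Bool} (h : ψ t = ψ t') : t = t' := by
  revert h
  cases t <;> cases t' <;> decide

lemma ev_s_eq_zero (β σ : Fin n → Bool) (i : Fin (n + 1)) :
    ev β (s σ i) = 0 ↔ Agree β σ i := by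
  induction i using Fin.cases with
  | zero => simp [ev, Agree]
  | succ i =>
    simp only [ev, Fin.cases_succ, Fin.val_succ]
    split_ifs with h
    · simp [h]
    · simp [h, ψ_ne]

lemma ev_proper {Ω : Set (Fin n → Bool)} {β : Fin n → Bool} (hβ : β ∈ Ω) {u w : CV n}
    (h : CE Ω u w) : ev β u ≠ ev β w := by
  cases h with
  | Ko t => exact ψ_ne t
  | ob x => exact (ψ_ne _).symm
  | Ks0 σ h t => exact ψ_ne t
  | rs σ h i =>
    have h1 := ev_s_eq_zero β σ i.castSucc
    rw [Fin.val_castSucc] at h1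
    by_cases h2 : Agree β σ i
    · rw [h1.2 h2]
      simp only [ev, if_pos h2]
      split_ifs
      · exact neg_ne_zero.2 (ψ_ne _)
      · exact ψ_ne _
    · have h3 : ¬ Agree β σ (i + 1) := fun h => h2 fun k hk => h k (by omega)
      have : ev β (r σ i) = 0 := by simp only [ev, if_neg h2, if_neg h3]
      rw [this]
      exact fun h => h2 (h1.1 h.symm)
  | rb σ h i =>
    simp only [ev]
    split_ifs with h1 h2
    · rw [h1 i (Nat.lt_succ_self _)]
      exact (ψ_ne_neg _).symm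
    · refine fun h => h1 fun k hk => ?_
      rcases Nat.lt_succ_iff_lt_or_eq.1 hk with hk | hk
      · exact h2 k hk
      · rw [Fin.ext hk]
        exact (ψ_inj h).symm
    · exact (ψ_ne _).symm
  | rs' σ h i =>
    simp only [ev, Fin.cases_succ]
    split_ifs
    · exact neg_ne_zero.2 (ψ_ne _)
    · exact ψ_ne_neg _
    · exact (neg_ne_zero.2 (ψ_ne _)).symm
  | Ks σ h i =>
    simp only [ev, Fin.cases_succ]
    split_ifs
    · exact ψ_ne _
    · exact ψ_ne_neg _
  | os σ h =>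
    intro h1
    have h2 := (ev_s_eq_zero β σ _).1 h1.symm
    obtain rfl : β = σ := funext fun k => h2 k k.2
    exact h hβ

lemma od_proper {Ω : Set (Fin n → Bool)} (β : Fin n → Bool) {u w : CV n}
    (h : CE Ω u w) : od β u ≠ od β w := by
  cases h <;> first | exact (ψ_ne _).symm | (simp only [od]; decide)

lemma strong {Ω : Set (Fin n → Bool)} {Inv : Finset (Fin n × (ℤ × ℤ) × Bool)}
    {β : ℤ × ℤ → Fin n → Bool} (hβ : BoolSol Ω Inv β) :
    ColSol (CE Ω) (inv Inv) fun j =>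
      if j.1 % 2 = 0 then ev (β (j.1 / 2, j.2)) else od (β (j.1 / 2, j.2)) := by
  refine ⟨fun j u w h => ?_, fun u h t hu j => ?_⟩
  · dsimp only
    split_ifs
    · exact ev_proper (hβ.1 _) h
    · exact od_proper _ h
  · simp only [inv, Finset.mem_union, Finset.mem_insert, Finset.mem_singleton, Finset.mem_image,
      Prod.mk.injEq] at hu
    have hb : ∀ (j : ℤ × ℤ) x, (if j.1 % 2 = 0 then ev (β (j.1 / 2, j.2))
        else od (β (j.1 / 2, j.2))) (b x) = ψ (β (j.1 / 2, j.2) x) := fun j x => by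
      split_ifs <;> rfl
    have hK : ∀ j : ℤ × ℤ, (if j.1 % 2 = 0 then ev (β (j.1 / 2, j.2))
        else od (β (j.1 / 2, j.2))) (K true) = 1 := fun j => by
      split_ifs <;> rfl
    have hK' : ∀ j : ℤ × ℤ, (if j.1 % 2 = 0 then ev (β (j.1 / 2, j.2))
        else od (β (j.1 / 2, j.2))) (K false) = if j.1 % 2 = 0 then 2 else 1 := fun j => by
      split_ifs <;> rfl
    rcases hu with (⟨rfl, rfl, rfl⟩ | ⟨rfl, rfl, rfl⟩ | ⟨rfl, rfl, rfl⟩ | ⟨rfl, rfl, rfl⟩ |
      ⟨rfl, rfl, rfl⟩ | ⟨rfl, rfl, rfl⟩) | ⟨⟨x, h', t'⟩, he, rfl, rfl, rfl⟩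
    · simp only [add_zero, if_true]
      split_ifs <;> exact neg_zero.symm
    · simp only [add_zero, if_true]
      split_ifs <;> exact neg_zero.symm
    · simp only [hK, Bool.false_eq_true, if_false]
    · simp only [hK, Bool.false_eq_true, if_false]
    · simp only [hK']
      simp only [if_true, Prod.fst_add]
      split_ifs <;> first | rfl | omega
    · simp only [hK']
      simp only [Bool.false_eq_true, if_false, Prod.fst_add, add_zero]
    · simp only [hb]
      simp only [Prod.fst_add, Prod.snd_add]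
      have e : ((j.1 + 2 * h'.1) / 2, j.2 + h'.2) = (j.1 / 2, j.2) + h' :=
        Prod.ext (by simp only [Prod.fst_add]; omega) rfl
      rw [e, hβ.2 x h' t' he]
      cases β (j.1 / 2, j.2) x <;> cases t' <;> rfl

lemma perm_inv (p : Equiv.Perm (ZMod 3)) (h : ∀ e, p e ≠ e) : p⁻¹ 0 = -p 0 := by
  have key : ∀ a b c : ZMod 3, a ≠ b → a ≠ c → b ≠ c → a ≠ 0 → b ≠ 1 → c ≠ 2 →
      (-a = 2 ∧ c = 0) ∨ (-a = 1 ∧ b = 0) := by decide
  rw [Equiv.Perm.inv_eq_iff_eq]
  rcases key (p 0) (p 1) (p 2) (p.injective.ne (by decide)) (p.injective.ne (by decide))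
    (p.injective.ne (by decide)) (h 0) (h 1) (h 2) with ⟨h1, h2⟩ | ⟨h1, h2⟩ <;> rw [h1, h2]

lemma const_of_inv {α : Type} {g : ℤ × ℤ → α} (h1 : ∀ j, g (j + (1, 0)) = g j)
    (h2 : ∀ j, g (j + (0, 1)) = g j) (j : ℤ × ℤ) : g j = g 0 := by
  have e : j = 0 + j.1 • ((1, 0) : ℤ × ℤ) + j.2 • ((0, 1) : ℤ × ℤ) := by ext <;> simp
  rw [e, Function.Periodic.zsmul h2 j.2, Function.Periodic.zsmul h1 j.1]

/-- a proper colouring with the standard anchors yields an element of `Ω` -/
lemma mem_of_proper {Ω : Set (Fin n → Bool)} {c : CV n → ZMod 3}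
    (hc : ∀ u w, CE Ω u w → c u ≠ c w) (h0 : c o0 = 0) (hK : ∀ t, c (K t) = ψ t) :
    (fun x => decide (c (b x) = 1)) ∈ Ω := by
  by_contra hσ
  set σ := fun x => decide (c (b x) = 1) with hσd
  have hb : ∀ x, c (b x) = ψ (σ x) := fun x => by
    have := hc _ _ (CE.ob x)
    rw [h0] at this
    simp only [hσd]
    revert this
    generalize c (b x) = a
    revert a
    decide
  have hs : ∀ i, c (s σ i) = 0 := fun i => by
    induction i using Fin.induction with
    | zero =>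
      have h1 := hc _ _ (CE.Ks0 σ hσ true)
      have h2 := hc _ _ (CE.Ks0 σ hσ false)
      rw [hK] at h1 h2
      revert h1 h2
      generalize c (s σ 0) = a
      revert a
      decide
    | succ i ih =>
      have h1 := hc _ _ (CE.rs σ hσ i)
      have h2 := hc _ _ (CE.rb σ hσ i)
      have h3 := hc _ _ (CE.rs' σ hσ i)
      have h4 := hc _ _ (CE.Ks σ hσ i)
      rw [ih] at h1
      rw [hb] at h2
      rw [hK] at h4
      revert h1 h2 h3 h4
      generalize c (s σ i.succ) = a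
      generalize c (r σ i) = a'
      generalize σ i = t
      revert a a' t
      decide
  exact hc _ _ (CE.os σ hσ) (h0.trans (hs _).symm)

lemma weak {Ω : Set (Fin n → Bool)} {Inv : Finset (Fin n × (ℤ × ℤ) × Bool)}
    {π : ℤ × ℤ → CV n → Equiv.Perm (ZMod 3)} (hπ : PermSol (CE Ω) (inv Inv) π) (hp : Per π) :
    ∃ β, BoolSol Ω Inv β ∧ Per β := by
  obtain ⟨h1, h2, h3⟩ := hπ
  have ho0 := h3 o0 (by simp [inv])
  have ho1 := h3 o1 (by simp [inv])
  have hK : ∀ j t e, π j (K t) e ≠ e := fun j t e => by simpa [ho1] using h1 j _ _ (CE.Ko t) e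
  have hb : ∀ j x e, π j (b x) e ≠ e := fun j x e => by
    simpa [ho0, eq_comm] using h1 j _ _ (CE.ob x) e
  have k1 : ∀ j, π j (K true) = π 0 (K true) := const_of_inv (g := fun j => π j (K true))
    (fun j => h2 _ _ false (by simp [inv]) j) fun j => h2 _ _ false (by simp [inv]) j
  have k2 : ∀ j, π (j + (1, 0)) (K false) = (π j (K false))⁻¹ := fun j =>
    h2 _ _ true (by simp [inv]) j
  have k3 : ∀ j, π (j + (0, 1)) (K false) = π j (K false) := fun j =>
    h2 _ _ false (by simp [inv]) j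
  obtain ⟨j₀, hj₀⟩ : ∃ j₀, π j₀ (K false) 0 = -π 0 (K true) 0 := by
    by_cases h : π 0 (K false) 0 = -π 0 (K true) 0
    · exact ⟨0, h⟩
    · refine ⟨0 + (1, 0), ?_⟩
      rw [k2, perm_inv _ (hK 0 false), neg_inj]
      have a1 := hK 0 false 0
      have a2 := hK 0 true 0
      revert h a1 a2
      generalize π 0 (K false) 0 = a
      generalize π 0 (K true) 0 = a'
      revert a a'
      decide
  let T : ℤ × ℤ → ℤ × ℤ := fun j => j₀ + (2 * j.1, j.2)
  have hT : ∀ j h, T (j + h) = T j + (2 * h.1, h.2) := fun j h => by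
    ext <;> simp [T] <;> ring
  have k4 : ∀ j, π (T j) (K false) = π j₀ (K false) := fun j => by
    have := const_of_inv (g := fun j => π (T j) (K false)) (fun j => by
      have e : T (j + (1, 0)) = T j + (1, 0) + (1, 0) := by rw [hT]; ext <;> simp [add_assoc]
      rw [e, k2, k2, inv_inv]) (fun j => by rw [hT]; exact k3 _) j
    have e : T 0 = j₀ := by ext <;> simp [T]
    rwa [e] at this
  have hδ := hK 0 true 0
  generalize hδd : π 0 (K true) 0 = δ at hδ hj₀
  refine ⟨fun j x => decide (δ * π (T j) (b x) 0 = 1), ⟨fun j => ?_, fun x h t he j => ?_⟩, ?_⟩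
  · refine mem_of_proper (c := fun u => δ * π (T j) u 0)
      (fun u w h e => h1 (T j) u w h 0 ?_) (by simp [ho0]) fun t => ?_
    · revert e hδ
      generalize π (T j) u 0 = a
      generalize π (T j) w 0 = a'
      clear hδd hj₀
      revert a a' δ
      decide
    · cases t
      · rw [k4, hj₀]
        clear hδd hj₀
        revert δ
        decide
      · rw [k1, hδd]
        clear hδd hj₀
        revert δ
        decide
  · have e := h2 (b x) (2 * h.1, h.2) t
      (Finset.mem_union_right _ (Finset.mem_image.2 ⟨(x, h, t), he, rfl⟩)) (T j)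
    dsimp only
    rw [hT, e]
    cases t
    · simp
    · rw [if_pos rfl, perm_inv _ (hb _ x)]
      have a1 := hb (T j) x 0
      revert a1
      generalize π (T j) (b x) 0 = a
      clear hδd hj₀
      revert a δ
      decide
  · obtain ⟨k, hk, hper⟩ := hp
    refine ⟨k, hk, fun j h => ?_⟩
    have e : T (j + k • h) = T j + k • (2 * h.1, h.2) := by
      rw [hT]
      ext <;> simp
      ring
    simp only [e, hper]

end Col

theorem colour_of_bool {n : ℕ} {Ω : Set (Fin n → Bool)} {Inv : Finset (Fin n × (ℤ × ℤ) × Bool)}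
    (hex : ∃ β, BoolSol Ω Inv β) (hap : ∀ β, BoolSol Ω Inv β → ¬ Per β) :
    ∃ (V : Type) (_ : Fintype V) (ty : V → Bool) (E : V → V → Prop)
      (Inv' : Finset (V × (ℤ × ℤ) × Bool)), (∀ u w, E u w → ty u = false ∧ ty w = true) ∧
      (∃ ε, ColSol E Inv' ε) ∧ ∀ π, PermSol E Inv' π → ¬ Per π := by
  refine ⟨Col.CV n, inferInstance, Col.ty, Col.CE Ω, Col.inv Inv, fun u w h => ?_, ?_,
    fun π hπ hp => ?_⟩
  · cases h <;> exact ⟨rfl, rfl⟩
  · obtain ⟨β, hβ⟩ := hex
    exact ⟨_, Col.strong hβ⟩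
  · obtain ⟨β, hβ, hp'⟩ := Col.weak hπ hp
    exact hap β hβ hp'

end Crest.Agent.R46
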