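import Crest.Prelude.Def_Tiling

/-! # Row 46 (S0065): shared definitions

Pipeline: `Sudoku` (Boolean puzzle on ℤ² without periodic solution) → `Colour` (bipartite
3-colouring puzzle) → `Table*` (system of tiling equations in ℤ² × Φ) → `Expr` (lift to ℤ³) →
`Merge` (one rigid tile) → `Real` (the Euclidean half). -/

set_option autoImplicit false

namespace Crest.Agent.R46

open Crest.CombinatoricsR.Tiling

/-- `Expr A₀ P`: some finite system of tiles is solved by `A₀` and all its solutions satisfy `P`. -/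
def Expr {G : Type*} [AddCommGroup G] (A₀ : Set G) (P : Set G → Prop) : Prop :=
  ∃ 𝓕 : Finset (Finset G), (∀ F ∈ 𝓕, IsTilingBy F A₀) ∧
    ∀ A : Set G, (∀ F ∈ 𝓕, IsTilingBy F A) → P A

/-- `A + U` is invariant under translation by `g`. -/
def InvBy {G : Type*} [AddCommGroup G] (A : Set G) (U : Finset G) (g : G) : Prop :=
  ∀ x : G, (∃ a ∈ A, ∃ u ∈ U, a + u = x) ↔ (∃ a ∈ A, ∃ u ∈ U, a + u + g = x)

/-- a function on ℤ² is periodic under `k ℤ²` for some `k > 0`. -/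
def Per {α : Type*} (f : ℤ × ℤ → α) : Prop :=
  ∃ k : ℤ, 0 < k ∧ ∀ j h : ℤ × ℤ, f (j + k • h) = f j

/-- a subset of ℤ² × Φ is mapped into itself by `k ℤ² × 0` for some `k > 0`. -/
def PerSet {Φ : Type*} (A : Set ((ℤ × ℤ) × Φ)) : Prop :=
  ∃ k : ℤ, 0 < k ∧ ∀ r ∈ A, ∀ h : ℤ × ℤ, (r.1 + k • h, r.2) ∈ A

/-- solution of a Boolean puzzle: a pointwise relation `Ω` and invariances/flips `Inv`. -/
def BoolSol {n : ℕ} (Ω : Set (Fin n → Bool)) (Inv : Finset (Fin n × (ℤ × ℤ) × Bool))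
    (β : ℤ × ℤ → Fin n → Bool) : Prop :=
  (∀ j, β j ∈ Ω) ∧ ∀ x h s, (x, h, s) ∈ Inv → ∀ j, β (j + h) x = xor (β j x) s

/-- (strong) solution of a colouring puzzle: proper 3-colourings with invariances/sign flips. -/
def ColSol {V : Type} (E : V → V → Prop) (Inv : Finset (V × (ℤ × ℤ) × Bool))
    (ε : ℤ × ℤ → V → ZMod 3) : Prop :=
  (∀ j u w, E u w → ε j u ≠ ε j w) ∧
    ∀ u h s, (u, h, s) ∈ Inv → ∀ j, ε (j + h) u = if s then -ε j u else ε j u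

/-- (weak) solution of a colouring puzzle: what a tiling yields. -/
def PermSol {V : Type} (E : V → V → Prop) (Inv : Finset (V × (ℤ × ℤ) × Bool))
    (π : ℤ × ℤ → V → Equiv.Perm (ZMod 3)) : Prop :=
  (∀ j u w, E u w → ∀ e, π j u e ≠ π j w e) ∧
    (∀ u h s, (u, h, s) ∈ Inv → ∀ j, π (j + h) u = if s then (π j u)⁻¹ else π j u) ∧
    ∀ u, (u, (0 : ℤ × ℤ), true) ∈ Inv → ∀ j, π j u = 1

/-- The semantic content of a "key" `(kX ∘ ρ, kΦ)` for a set `A` of rows in ℤ² × Φ;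
`ι` parametrises the kernel of `ρ`. -/
structure KeyProp {X Φ Q₁ Q₂ : Type} [AddCommGroup X] [AddCommGroup Φ] [AddCommGroup Q₁]
    [AddCommGroup Q₂] (ρ : ℤ × ℤ →+ X) (ι : ℤ × ℤ →+ ℤ × ℤ) (kX : X →+ Q₁) (kΦ : Φ →+ Q₂)
    (A : Set ((ℤ × ℤ) × Φ)) : Prop where
  ex : ∀ (x : X) (φ : Φ), ∃ r ∈ A, kX (ρ r.1) = kX x ∧ kΦ r.2 = kΦ φ
  uniq₁ : ∀ r ∈ A, ∀ r' ∈ A, kX (ρ r.1) = kX (ρ r'.1) → kΦ r.2 = kΦ r'.2 → ρ r.1 = ρ r'.1
  uniq₂ : ∀ r ∈ A, ∀ r' ∈ A, r.1 = r'.1 → kΦ r.2 = kΦ r'.2 → r = r'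
  per : ∀ r ∈ A, ∀ h : ℤ × ℤ, ∃ r' ∈ A, r'.1 = r.1 + ι h ∧ kΦ r'.2 = kΦ r.2

/-- The semantic content of the invariance of the marginal `(wX ∘ ρ, wΦ)` under `(ι h, η)`. -/
def InvProp {X Φ Q₁ Q₂ : Type} [AddCommGroup X] [AddCommGroup Φ] [AddCommGroup Q₁]
    [AddCommGroup Q₂] (ρ : ℤ × ℤ →+ X) (ι : ℤ × ℤ →+ ℤ × ℤ) (wX : X →+ Q₁) (wΦ : Φ →+ Q₂)
    (h : ℤ × ℤ) (η : Φ) (A : Set ((ℤ × ℤ) × Φ)) : Prop :=
  ∀ r ∈ A, ∃ r' ∈ A, wX (ρ r'.1) = wX (ρ r.1) ∧ wΦ r'.2 = wΦ (r.2 + η) ∧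
    (ρ r'.1 = ρ r.1 → r'.1 = r.1 + ι h)

/-- Data of an intended solution: `ρ : ℤ² → X` onto with kernel the image of the injective `ι`;
rows indexed by `I` with position class `pos i` and fibre value `fib p i` depending on a
parameter `p` (a proper colouring) which is `ε j` on the `j`-th period cell. -/
structure Setup (X Φ I P : Type) [AddCommGroup X] [AddCommGroup Φ] where
  ρ : ℤ × ℤ →+ X
  ι : ℤ × ℤ →+ ℤ × ℤ
  ρ_surj : Function.Surjective ρ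
  ι_inj : Function.Injective ι
  ker : ∀ x, ρ x = 0 ↔ ∃ h, ι h = x
  pos : I → X
  fib : P → I → Φ
  ε : ℤ × ℤ → P

namespace Setup

variable {X Φ I P : Type} [AddCommGroup X] [AddCommGroup Φ] (S : Setup X Φ I P)

open Classical in
/-- a section of `ρ` with `lift 0 = 0`. -/
noncomputable def lift (s : X) : ℤ × ℤ := if s = 0 then 0 else (S.ρ_surj s).choose

theorem ρ_lift (s : X) : S.ρ (S.lift s) = s := by
  unfold lift
  split_ifs with h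
  · simp [h]
  · exact (S.ρ_surj s).choose_spec

theorem lift_zero : S.lift 0 = 0 := by simp [lift]

theorem exists_J (x : ℤ × ℤ) : ∃ h, S.ι h = x - S.lift (S.ρ x) :=
  (S.ker _).1 (by simp [ρ_lift])

/-- the period cell of a position. -/
noncomputable def J (x : ℤ × ℤ) : ℤ × ℤ := (S.exists_J x).choose

theorem ι_J (x : ℤ × ℤ) : S.ι (S.J x) = x - S.lift (S.ρ x) := (S.exists_J x).choose_spec

theorem ρ_ι (h : ℤ × ℤ) : S.ρ (S.ι h) = 0 := (S.ker _).2 ⟨h, rfl⟩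

theorem J_add (x h : ℤ × ℤ) : S.J (x + S.ι h) = S.J x + h := by
  apply S.ι_inj
  rw [map_add, ι_J, ι_J, map_add, ρ_ι, add_zero]
  abel

/-- the intended solution. -/
def A₀ : Set ((ℤ × ℤ) × Φ) := {r | ∃ i, S.ρ r.1 = S.pos i ∧ r.2 = S.fib (S.ε (S.J r.1)) i}

/-- finite conditions making `(kX, kΦ)` a key of the intended solution. -/
structure IsKey {Q₁ Q₂ : Type} [AddCommGroup Q₁] [AddCommGroup Q₂] (kX : X →+ Q₁)
    (kΦ : Φ →+ Q₂) : Prop where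
  inj : ∀ p i i', kX (S.pos i) = kX (S.pos i') → kΦ (S.fib p i) = kΦ (S.fib p i') → i = i'
  surj : ∀ p (x : X) (φ : Φ), ∃ i, kX (S.pos i) = kX x ∧ kΦ (S.fib p i) = kΦ φ
  indep : ∀ p p' i, ∃ i', S.pos i' = S.pos i ∧ kΦ (S.fib p' i') = kΦ (S.fib p i)

/-- finite condition for one inclusion of the invariance of a marginal under `(ι h, η)`. -/
def Cond {Q₁ Q₂ : Type} [AddCommGroup Q₁] [AddCommGroup Q₂] (wX : X →+ Q₁) (wΦ : Φ →+ Q₂)
    (h : ℤ × ℤ) (η : Φ) : Prop :=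
  ∀ j i, (∃ i', S.pos i' = S.pos i ∧ wΦ (S.fib (S.ε (j + h)) i') = wΦ (S.fib (S.ε j) i + η)) ∨
    (∃ i', wX (S.pos i') = wX (S.pos i) ∧ ∀ p, wΦ (S.fib p i') = wΦ (S.fib (S.ε j) i + η))

end Setup

end Crest.Agent.R46
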