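import Crest.Agent.R46.Defs

/-! Row 46: closure properties of `Expr`, the "move a subset" trick, lifting along a quotient. -/

set_option autoImplicit false

namespace Crest.Agent.R46

open Crest.CombinatoricsR.Tiling

variable {G : Type*} [AddCommGroup G]

theorem tiling_ex {F : Finset G} {A : Set G} (h : IsTilingBy F A) (x : G) :
    ∃ a ∈ A, ∃ t ∈ F, a + t = x := by
  obtain ⟨p, ⟨h1, h2, h3⟩, -⟩ := h x
  exact ⟨p.1, h1, p.2, h2, h3⟩

theorem tiling_uniq {F : Finset G} {A : Set G} (h : IsTilingBy F A) {a a' t t' : G} (ha : a ∈ A)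
    (ht : t ∈ F) (ha' : a' ∈ A) (ht' : t' ∈ F) (e : a + t = a' + t') : a = a' ∧ t = t' := by
  have := (h (a' + t')).unique (y₁ := (a, t)) (y₂ := (a', t')) ⟨ha, ht, e⟩ ⟨ha', ht', rfl⟩
  exact Prod.mk.inj this

theorem tiling_mk {F : Finset G} {A : Set G} (h1 : ∀ x, ∃ a ∈ A, ∃ t ∈ F, a + t = x)
    (h2 : ∀ a ∈ A, ∀ t ∈ F, ∀ a' ∈ A, ∀ t' ∈ F, a + t = a' + t' → a = a') : IsTilingBy F A := by
  intro x
  obtain ⟨a, ha, t, ht, e⟩ := h1 x
  refine ⟨(a, t), ⟨ha, ht, e⟩, ?_⟩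
  rintro ⟨a', t'⟩ ⟨ha', ht', e'⟩
  have e2 : a' + t' = a + t := e'.trans e.symm
  obtain rfl := h2 a' ha' t' ht' a ha t ht e2
  rw [add_left_cancel e2]

theorem Expr.mono {A₀ : Set G} {P Q : Set G → Prop} (h : Expr A₀ P) (hPQ : ∀ A, P A → Q A) :
    Expr A₀ Q := by
  obtain ⟨𝓕, h1, h2⟩ := h
  exact ⟨𝓕, h1, fun A hA => hPQ A (h2 A hA)⟩

theorem Expr.and {A₀ : Set G} {P Q : Set G → Prop} (h : Expr A₀ P) (h' : Expr A₀ Q) :
    Expr A₀ (fun A => P A ∧ Q A) := by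
  classical
  obtain ⟨𝓕, h1, h2⟩ := h
  obtain ⟨𝓖, h3, h4⟩ := h'
  refine ⟨𝓕 ∪ 𝓖, fun F hF => (Finset.mem_union.1 hF).elim (h1 F) (h3 F), fun A hA =>
    ⟨h2 A fun F hF => hA F (Finset.mem_union_left _ hF),
      h4 A fun F hF => hA F (Finset.mem_union_right _ hF)⟩⟩

/-- union of finitely many systems (`Finset.biUnion` over `Finset.univ`, classical). -/
theorem Expr.forall_finite {A₀ : Set G} {ι : Type*} [Finite ι] {P : ι → Set G → Prop}
    (h : ∀ i, Expr A₀ (P i)) : Expr A₀ (fun A => ∀ i, P i A) := by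
  classical
  have := Fintype.ofFinite ι
  choose 𝓕 h1 h2 using h
  refine ⟨Finset.univ.biUnion 𝓕, fun F hF => ?_, fun A hA i => h2 i A fun F hF =>
    hA F (Finset.mem_biUnion.2 ⟨i, Finset.mem_univ _, hF⟩)⟩
  obtain ⟨i, -, hi⟩ := Finset.mem_biUnion.1 hF
  exact h1 i F hi

theorem Expr.tile {A₀ : Set G} {F : Finset G} (h : IsTilingBy F A₀) :
    Expr A₀ (fun A => IsTilingBy F A) :=
  ⟨{F}, fun F' hF' => by rwa [Finset.mem_singleton.1 hF'],
    fun A hA => hA F (Finset.mem_singleton_self F)⟩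

/-- System `{F, F*}` with `F* = (U + g) ∪ (F \ U)`. Since `A₀ ≠ ∅` tiles with `F` and
`A₀ + U + g = A₀ + U`, the sets `U + g` and `F \ U` are disjoint and `A₀` tiles with `F*`
(uniqueness inside `U + g` comes from uniqueness for `F` at `x - g`). If `A` tiles with both then
`A + U` and `A + U + g` are both the complement of `A + (F \ U)`. -/
theorem Expr.invBy {A₀ : Set G} {F U : Finset G} {g : G} (hF : IsTilingBy F A₀) (hU : U ⊆ F)
    (h : InvBy A₀ U g) : Expr A₀ (fun A => InvBy A U g) := by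
  classical
  have hm : ∀ t, t ∈ U.image (· + g) ∪ (F \ U) ↔ (∃ u ∈ U, u + g = t) ∨ (t ∈ F ∧ t ∉ U) := by
    intro t; simp only [Finset.mem_union, Finset.mem_image, Finset.mem_sdiff]
  have hcross : ∀ a ∈ A₀, ∀ u ∈ U, ∀ a' ∈ A₀, ∀ t ∈ F, a + (u + g) = a' + t → t ∈ U := by
    intro a ha u hu a' ha' t ht e
    obtain ⟨b, hb, v, hv, e'⟩ := (h (a' + t)).2 ⟨a, ha, u, hu, by rw [← e, add_assoc]⟩
    rw [← (tiling_uniq hF hb (hU hv) ha' ht e').2]; exact hv
  have hF' : IsTilingBy (U.image (· + g) ∪ (F \ U)) A₀ := by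
    refine tiling_mk (fun x => ?_) fun a ha t ht a' ha' t' ht' e => ?_
    · obtain ⟨a, ha, t, ht, e⟩ := tiling_ex hF x
      by_cases htU : t ∈ U
      · obtain ⟨b, hb, v, hv, e'⟩ := (h x).1 ⟨a, ha, t, htU, e⟩
        exact ⟨b, hb, v + g, (hm _).2 (Or.inl ⟨v, hv, rfl⟩), by rw [← e', add_assoc]⟩
      · exact ⟨a, ha, t, (hm _).2 (Or.inr ⟨ht, htU⟩), e⟩
    · rcases (hm _).1 ht with ⟨u, hu, rfl⟩ | ⟨h1, h2⟩ <;>
        rcases (hm _).1 ht' with ⟨u', hu', rfl⟩ | ⟨h1', h2'⟩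
      · rw [← add_assoc, ← add_assoc] at e
        exact (tiling_uniq hF ha (hU hu) ha' (hU hu') (add_right_cancel e)).1
      · exact absurd (hcross a ha u hu a' ha' t' h1' e) h2'
      · exact absurd (hcross a' ha' u' hu' a ha t h1 e.symm) h2
      · exact (tiling_uniq hF ha h1 ha' h1' e).1
  refine ((Expr.tile hF).and (Expr.tile hF')).mono ?_
  rintro A ⟨hA, hA'⟩ x
  constructor
  · rintro ⟨a, ha, u, hu, e⟩
    obtain ⟨b, hb, t, ht, e'⟩ := tiling_ex hA' x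
    rcases (hm _).1 ht with ⟨v, hv, rfl⟩ | ⟨h1, h2⟩
    · exact ⟨b, hb, v, hv, by rw [← e', add_assoc]⟩
    · exact absurd ((tiling_uniq hA ha (hU hu) hb h1 (e.trans e'.symm)).2 ▸ hu) h2
  · rintro ⟨a, ha, u, hu, e⟩
    obtain ⟨b, hb, t, ht, e'⟩ := tiling_ex hA x
    by_cases htU : t ∈ U
    · exact ⟨b, hb, t, htU, e'⟩
    · have e2 := (tiling_uniq hA' ha ((hm _).2 (Or.inl ⟨u, hu, rfl⟩)) hb
        ((hm _).2 (Or.inr ⟨ht, htU⟩)) (by rw [← add_assoc, e, e'])).2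
      obtain ⟨a₀, ha₀, -⟩ := tiling_ex hF 0
      exact absurd (hcross a₀ ha₀ u hu a₀ ha₀ t ht (by rw [e2])) htU

/-- Lifting along a surjection with cyclic kernel. Take a section `s` of `π`, the tiles
`F.image s` for `F` in the system together with `F₀`, and (by `Expr.invBy` with `U = {s f}`,
`g = n₀`, `f ∈ F₀`) the property `A + n₀ = A`; then `A = π ⁻¹' (π '' A)` and `π '' A` solves
the system downstairs. -/
theorem Expr.lift {G' : Type*} [AddCommGroup G'] (π : G →+ G') (hπ : Function.Surjective π)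
    (n₀ : G) (hker : ∀ x, π x = 0 ↔ ∃ k : ℤ, x = k • n₀) {A₀ : Set G'} {P : Set G' → Prop}
    {F₀ : Finset G'} (hF₀ : IsTilingBy F₀ A₀) (h : Expr A₀ P) :
    Expr (π ⁻¹' A₀) (fun A => P (π '' A)) := by
  classical
  obtain ⟨s, hs⟩ := hπ.hasRightInverse
  have up : ∀ F : Finset G', IsTilingBy F A₀ → IsTilingBy (F.image s) (π ⁻¹' A₀) := by
    intro F hF
    refine tiling_mk (fun x => ?_) fun a ha t ht a' ha' t' ht' e => ?_
    · obtain ⟨a, ha, t, ht, e⟩ := tiling_ex hF (π x)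
      refine ⟨x - s t, ?_, s t, Finset.mem_image_of_mem _ ht, sub_add_cancel _ _⟩
      rw [Set.mem_preimage, map_sub, hs t, ← e, add_sub_cancel_right]
      exact ha
    · obtain ⟨u, hu, rfl⟩ := Finset.mem_image.1 ht
      obtain ⟨u', hu', rfl⟩ := Finset.mem_image.1 ht'
      have e' := congrArg π e
      rw [map_add, map_add, hs u, hs u'] at e'
      obtain rfl := (tiling_uniq hF ha hu ha' hu' e').2
      exact add_right_cancel e
  obtain ⟨-, -, f, hf, -⟩ := tiling_ex hF₀ 0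
  have hn : π n₀ = 0 := (hker _).2 ⟨1, (one_smul _ _).symm⟩
  have hinv : Expr (π ⁻¹' A₀) (fun A => InvBy A {s f} n₀) := by
    refine Expr.invBy (up F₀ hF₀) (Finset.singleton_subset_iff.2 (Finset.mem_image_of_mem _ hf))
      fun x => ⟨?_, ?_⟩
    · rintro ⟨a, ha, u, hu, rfl⟩
      refine ⟨a - n₀, ?_, u, hu, by abel⟩
      rw [Set.mem_preimage, map_sub, hn, sub_zero]; exact ha
    · rintro ⟨a, ha, u, hu, rfl⟩
      refine ⟨a + n₀, ?_, u, hu, by abel⟩
      rw [Set.mem_preimage, map_add, hn, add_zero]; exact ha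
  obtain ⟨𝓕, h1, h2⟩ := h
  have hsys : Expr (π ⁻¹' A₀) (fun A => ∀ F ∈ 𝓕, IsTilingBy (F.image s) A) :=
    ⟨𝓕.image fun F => F.image s, fun F hF => by
      obtain ⟨F', hF', rfl⟩ := Finset.mem_image.1 hF
      exact up F' (h1 F' hF'), fun A hA F hF => hA _ (Finset.mem_image_of_mem _ hF)⟩
  refine (hinv.and hsys).mono ?_
  rintro A ⟨hA, hA'⟩
  have hk : ∀ k : ℤ, ∀ a ∈ A, a + k • n₀ ∈ A := by
    intro k
    induction k using Int.induction_on with
    | zero => simp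
    | succ k ih =>
      intro a ha
      obtain ⟨b, hb, u, hu, e⟩ := (hA _).2 ⟨_, ih a ha, s f, Finset.mem_singleton_self _, rfl⟩
      rw [Finset.mem_singleton.1 hu, add_right_comm] at e
      rw [add_smul, one_smul, ← add_assoc, ← add_right_cancel e]
      exact hb
    | pred k ih =>
      intro a ha
      obtain ⟨b, hb, u, hu, e⟩ := (hA _).1 ⟨_, ih a ha, s f, Finset.mem_singleton_self _, rfl⟩
      rw [Finset.mem_singleton.1 hu, add_right_comm] at e
      rw [sub_smul, one_smul, ← add_sub_assoc, ← add_right_cancel e, add_sub_cancel_right]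
      exact hb
  refine h2 _ fun F hF => tiling_mk (fun x => ?_) ?_
  · obtain ⟨a, ha, t, ht, e⟩ := tiling_ex (hA' F hF) (s x)
    obtain ⟨u, hu, rfl⟩ := Finset.mem_image.1 ht
    refine ⟨π a, ⟨a, ha, rfl⟩, u, hu, ?_⟩
    rw [← hs x, ← e, map_add, hs u]
  · rintro _ ⟨a, ha, rfl⟩ t ht _ ⟨a', ha', rfl⟩ t' ht' e
    obtain ⟨k, hk'⟩ := (hker (a + s t - (a' + s t'))).1 (by
      rw [map_sub, map_add, map_add, hs t, hs t', e, sub_self])
    have e2 : a + s t = a' + k • n₀ + s t' := by rw [← hk']; abel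
    rw [(tiling_uniq (hA' F hF) ha (Finset.mem_image_of_mem _ ht) (hk k a' ha')
      (Finset.mem_image_of_mem _ ht') e2).1, map_add, map_zsmul, hn, smul_zero, add_zero]

end Crest.Agent.R46
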