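import Crest.Agent.R46.Expr

/-! Row 46: keys and invariances are expressible.

For homs `kX, kΦ` let `box kX kΦ = {(lift s, ψ) : kX s = 0, kΦ ψ = 0}` (a finset, `X, Φ` finite). -/

set_option autoImplicit false

namespace Crest.Agent.R46

open Crest.CombinatoricsR.Tiling

namespace Setup

variable {X Φ I P : Type} [AddCommGroup X] [AddCommGroup Φ] [Finite X] [Finite Φ]
  (S : Setup X Φ I P)

theorem finite_box {Q₁ Q₂ : Type} [AddCommGroup Q₁] [AddCommGroup Q₂] (kX : X →+ Q₁)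
    (kΦ : Φ →+ Q₂) :
    {r : (ℤ × ℤ) × Φ | ∃ s, kX s = 0 ∧ r.1 = S.lift s ∧ kΦ r.2 = 0}.Finite := by
  refine (Set.finite_range fun p : X × Φ => (S.lift p.1, p.2)).subset ?_
  rintro ⟨x, φ⟩ ⟨s, -, h, -⟩
  exact ⟨(s, φ), Prod.ext h.symm rfl⟩

/-- the tile of a key -/
noncomputable def box {Q₁ Q₂ : Type} [AddCommGroup Q₁] [AddCommGroup Q₂] (kX : X →+ Q₁)
    (kΦ : Φ →+ Q₂) : Finset ((ℤ × ℤ) × Φ) := (S.finite_box kX kΦ).toFinset

theorem mem_box {Q₁ Q₂ : Type} [AddCommGroup Q₁] [AddCommGroup Q₂] {kX : X →+ Q₁}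
    {kΦ : Φ →+ Q₂} {r : (ℤ × ℤ) × Φ} :
    r ∈ S.box kX kΦ ↔ ∃ s, kX s = 0 ∧ r.1 = S.lift s ∧ kΦ r.2 = 0 := by
  simp [box]

theorem zero_mem_box {Q₁ Q₂ : Type} [AddCommGroup Q₁] [AddCommGroup Q₂] (kX : X →+ Q₁)
    (kΦ : Φ →+ Q₂) : 0 ∈ S.box kX kΦ :=
  S.mem_box.2 ⟨0, map_zero _, S.lift_zero.symm, map_zero _⟩

theorem tile_box {Q₁ Q₂ : Type} [AddCommGroup Q₁] [AddCommGroup Q₂] {kX : X →+ Q₁}
    {kΦ : Φ →+ Q₂} (hk : S.IsKey kX kΦ) : IsTilingBy (S.box kX kΦ) S.A₀ := by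
  refine tiling_mk ?_ ?_
  · rintro ⟨x, φ⟩
    obtain ⟨i, h1, h2⟩ := hk.surj (S.ε 0) (S.ρ x) φ
    obtain ⟨i', h3, h4⟩ := hk.indep (S.ε 0) (S.ε (S.J (x - S.lift (S.ρ x - S.pos i)))) i
    refine ⟨(x - S.lift (S.ρ x - S.pos i), S.fib (S.ε (S.J (x - S.lift (S.ρ x - S.pos i)))) i'),
      ⟨i', ?_, rfl⟩,
      (S.lift (S.ρ x - S.pos i), φ - S.fib (S.ε (S.J (x - S.lift (S.ρ x - S.pos i)))) i'),
      S.mem_box.2 ⟨_, ?_, rfl, ?_⟩, by simp⟩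
    · simp [S.ρ_lift, h3]
    · rw [map_sub, h1, sub_self]
    · rw [map_sub, h4, h2, sub_self]
  · rintro ⟨x, φ⟩ ⟨i, hx, hφ⟩ ⟨t, ψ⟩ ht ⟨x', φ'⟩ ⟨i', hx', hφ'⟩ ⟨t', ψ'⟩ ht' e
    obtain ⟨s, hs, e1, hψ⟩ := S.mem_box.1 ht
    obtain ⟨s', hs', e1', hψ'⟩ := S.mem_box.1 ht'
    dsimp only at hx hφ hx' hφ' e1 e1' hψ hψ'
    subst e1 e1'
    obtain ⟨e2, e3⟩ : x + S.lift s = x' + S.lift s' ∧ φ + ψ = φ' + ψ' := Prod.mk.inj e
    have e4 : S.pos i + s = S.pos i' + s' := by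
      have := congrArg S.ρ e2
      rwa [map_add, map_add, S.ρ_lift, S.ρ_lift, hx, hx'] at this
    have e5 : kX (S.pos i) = kX (S.pos i') := by
      have := congrArg kX e4
      rwa [map_add, map_add, hs, hs', add_zero, add_zero] at this
    have e6 : kΦ φ = kΦ φ' := by
      have := congrArg kΦ e3
      rwa [map_add, map_add, hψ, hψ', add_zero, add_zero] at this
    obtain ⟨i'', h3, h4⟩ := hk.indep (S.ε (S.J x')) (S.ε (S.J x)) i'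
    obtain rfl : i = i'' := hk.inj (S.ε (S.J x)) i i'' (by rw [h3, e5]) (by rw [h4, ← hφ, ← hφ', e6])
    rw [h3] at e4
    obtain rfl := add_left_cancel e4
    obtain rfl := add_right_cancel e2
    obtain rfl : i = i' := hk.inj (S.ε (S.J x)) i i' e5 h4
    rw [hφ, hφ']

theorem cond_move {Q₃ Q₄ : Type} [AddCommGroup Q₃] [AddCommGroup Q₄] {wX : X →+ Q₃}
    {wΦ : Φ →+ Q₄} {h : ℤ × ℤ} {η : Φ} (h₁ : S.Cond wX wΦ h η) {a u : (ℤ × ℤ) × Φ}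
    (ha : a ∈ S.A₀) (hu : u ∈ S.box wX wΦ) :
    ∃ a' ∈ S.A₀, ∃ u' ∈ S.box wX wΦ, a' + u' = a + u + (S.ι h, η) := by
  obtain ⟨y, φ⟩ := a
  obtain ⟨t, ψ⟩ := u
  obtain ⟨i, hy, hφ⟩ := ha
  obtain ⟨s, hs, e1, hψ⟩ := S.mem_box.1 hu
  dsimp only at hy hφ e1 hψ
  subst e1
  rcases h₁ (S.J y) i with ⟨i', h3, h4⟩ | ⟨i', h3, h4⟩
  · refine ⟨(y + S.ι h, S.fib (S.ε (S.J y + h)) i'), ⟨i', ?_, by rw [S.J_add]⟩,
      (S.lift s, φ + ψ + η - S.fib (S.ε (S.J y + h)) i'), S.mem_box.2 ⟨s, hs, rfl, ?_⟩, ?_⟩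
    · rw [map_add, S.ρ_ι, add_zero, hy, h3]
    · rw [map_sub, h4, ← hφ]; simp [hψ]
    · refine Prod.ext ?_ ?_ <;> simp only [Prod.fst_add, Prod.snd_add] <;> abel
  · refine ⟨(y + S.lift s + S.ι h - S.lift (s + S.pos i - S.pos i'),
        S.fib (S.ε (S.J (y + S.lift s + S.ι h - S.lift (s + S.pos i - S.pos i')))) i'),
      ⟨i', ?_, rfl⟩,
      (S.lift (s + S.pos i - S.pos i'), φ + ψ + η -
        S.fib (S.ε (S.J (y + S.lift s + S.ι h - S.lift (s + S.pos i - S.pos i')))) i'),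
      S.mem_box.2 ⟨_, ?_, rfl, ?_⟩, ?_⟩
    · rw [map_sub, map_add, map_add, S.ρ_ι, S.ρ_lift, S.ρ_lift, hy]; abel
    · rw [map_sub, map_add, hs, h3]; simp
    · rw [map_sub, h4, ← hφ]; simp [hψ]
    · refine Prod.ext ?_ ?_ <;> simp only [Prod.fst_add, Prod.snd_add] <;> abel

/-- `A₀` tiles with `box kX kΦ`. Existence at `(x, φ)`: fix `p₀`, get `i` from `surj`, put
`x' = x - lift (ρ x - pos i)` and use `indep` to move to `p = ε (J x')`. Uniqueness: move both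
rows to `p₀` by `indep`, `inj` gives equal `pos`, hence equal positions, then `inj` again. -/
theorem exists_tile {Q₁ Q₂ : Type} [AddCommGroup Q₁] [AddCommGroup Q₂] {kX : X →+ Q₁}
    {kΦ : Φ →+ Q₂} (hk : S.IsKey kX kΦ) : ∃ F, IsTilingBy F S.A₀ :=
  ⟨_, S.tile_box hk⟩

/-- `InvBy A₀ (box wX wΦ) (ι h, η)` follows from the two `Cond`s (case 1: the row at `x + ι h`,
using `J_add`; case 2: the row at `x + lift s + ι h - lift (s + pos i - pos i')`), and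
`box wX wΦ ⊆ box kX kΦ`; so `Expr.invBy` applies. Soundness: apply the invariance to `r + 0`
(`lift 0 = 0`): `r' + (lift s', ψ) = r + (ι h, η)`. -/
theorem inv_expr {Q₁ Q₂ Q₃ Q₄ : Type} [AddCommGroup Q₁] [AddCommGroup Q₂] [AddCommGroup Q₃]
    [AddCommGroup Q₄] {kX : X →+ Q₁} {kΦ : Φ →+ Q₂} (hk : S.IsKey kX kΦ)
    {wX : X →+ Q₃} {wΦ : Φ →+ Q₄} (hX : ∀ x, wX x = 0 → kX x = 0)
    (hΦ : ∀ φ, wΦ φ = 0 → kΦ φ = 0) {h : ℤ × ℤ} {η : Φ} (h₁ : S.Cond wX wΦ h η)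
    (h₂ : S.Cond wX wΦ (-h) (-η)) : Expr S.A₀ (InvProp S.ρ S.ι wX wΦ h η) := by
  have hsub : S.box wX wΦ ⊆ S.box kX kΦ := fun r hr => by
    obtain ⟨s, hs, e1, hψ⟩ := S.mem_box.1 hr
    exact S.mem_box.2 ⟨s, hX s hs, e1, hΦ _ hψ⟩
  refine (Expr.invBy (g := (S.ι h, η)) (S.tile_box hk) hsub fun x => ⟨?_, ?_⟩).mono ?_
  · rintro ⟨a, ha, u, hu, rfl⟩
    obtain ⟨a', ha', u', hu', e⟩ := S.cond_move h₂ ha hu
    refine ⟨a', ha', u', hu', ?_⟩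
    rw [e, map_neg]; exact Prod.ext (by simp) (by simp)
  · rintro ⟨a, ha, u, hu, rfl⟩
    exact S.cond_move h₁ ha hu
  · intro A hA r hr
    obtain ⟨r', hr', ⟨t, ψ⟩, hu, e⟩ := (hA _).2 ⟨r, hr, 0, S.zero_mem_box _ _, rfl⟩
    obtain ⟨s, hs, e1, hψ⟩ := S.mem_box.1 hu
    dsimp only at e1 hψ
    subst e1
    have e2 : r'.1 + S.lift s = r.1 + S.ι h := by simpa using congrArg Prod.fst e
    have e3 : r'.2 + ψ = r.2 + η := by simpa using congrArg Prod.snd e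
    have e4 : S.ρ r'.1 + s = S.ρ r.1 := by
      have := congrArg S.ρ e2
      rwa [map_add, map_add, S.ρ_lift, S.ρ_ι, add_zero] at this
    refine ⟨r', hr', by rw [← e4, map_add, hs, add_zero], by rw [← e3, map_add wΦ, hψ, add_zero],
      fun e5 => ?_⟩
    rw [e5, add_eq_left] at e4
    rw [← e2, e4, S.lift_zero, add_zero]

/-- Express: tiling by `box kX kΦ`, and `inv_expr` with `wX = AddMonoidHom.id X`, `wΦ = kΦ`,
`η = 0`, `h ∈ {±(1,0), ±(0,1)}` (`Cond` holds by `indep`); induction gives `per` for all `h`.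
`ex`: tiling at `(lift x, φ)`. `uniq₂`: uniqueness at `r` itself. `uniq₁`: with
`s = ρ r.1 - ρ r'.1`, move `r'` by `per` to the position `r.1 - lift s` and use uniqueness
at the point `r`. -/
theorem key_expr {Q₁ Q₂ : Type} [AddCommGroup Q₁] [AddCommGroup Q₂] {kX : X →+ Q₁}
    {kΦ : Φ →+ Q₂} (hk : S.IsKey kX kΦ) : Expr S.A₀ (KeyProp S.ρ S.ι kX kΦ) := by
  have hc : ∀ h η, η = 0 → S.Cond (AddMonoidHom.id X) kΦ h η := by
    rintro h _ rfl j i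
    obtain ⟨i', h1, h2⟩ := hk.indep (S.ε j) (S.ε (j + h)) i
    exact Or.inl ⟨i', h1, by rw [h2, add_zero]⟩
  have hi : ∀ h, Expr S.A₀ (fun A => ∀ r ∈ A, ∃ r' ∈ A, r'.1 = r.1 + S.ι h ∧ kΦ r'.2 = kΦ r.2) :=
    fun h => (S.inv_expr hk (wX := AddMonoidHom.id X) (wΦ := kΦ)
      (fun x hx => by rw [AddMonoidHom.id_apply] at hx; rw [hx, map_zero]) (fun _ hφ => hφ)
      (hc h 0 rfl) (hc (-h) _ neg_zero)).mono fun A hA r hr => by
        obtain ⟨r', hr', h1, h2, h3⟩ := hA r hr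
        exact ⟨r', hr', h3 h1, by rw [h2, add_zero]⟩
  refine ((Expr.tile (S.tile_box hk)).and (((hi (1, 0)).and (hi (-(1, 0)))).and
    ((hi (0, 1)).and (hi (-(0, 1)))))).mono ?_
  rintro A ⟨hA, ⟨a1, a2⟩, a3, a4⟩
  let Q : ℤ × ℤ → Prop := fun h => ∀ r ∈ A, ∃ r' ∈ A, r'.1 = r.1 + S.ι h ∧ kΦ r'.2 = kΦ r.2
  have Q0 : Q 0 := fun r hr => ⟨r, hr, by simp, rfl⟩
  have Qadd : ∀ h h', Q h → Q h' → Q (h + h') := fun h h' q q' r hr => by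
    obtain ⟨r1, hr1, e1, e2⟩ := q r hr
    obtain ⟨r2, hr2, e3, e4⟩ := q' r1 hr1
    exact ⟨r2, hr2, by rw [e3, e1, map_add, add_assoc], e4.trans e2⟩
  have Qs : ∀ h, Q h → Q (-h) → ∀ k : ℤ, Q (k • h) := fun h q q' k => by
    induction k using Int.induction_on with
    | zero => rwa [zero_smul]
    | succ k ih => rw [add_smul, one_smul]; exact Qadd _ _ ih q
    | pred k ih => rw [sub_smul, one_smul, sub_eq_add_neg]; exact Qadd _ _ ih q'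
  have hper : ∀ h, Q h := fun h => by
    have := Qadd _ _ (Qs _ a1 a2 h.1) (Qs _ a3 a4 h.2)
    simpa using this
  have huniq : ∀ r ∈ A, ∀ r' ∈ A, ∀ s, kX s = 0 → r'.1 + S.lift s = r.1 → kΦ r.2 = kΦ r'.2 →
      r = r' := fun r hr r' hr' s hs e1 e2 =>
    (tiling_uniq hA hr (S.zero_mem_box kX kΦ) hr' (t' := (S.lift s, r.2 - r'.2))
      (S.mem_box.2 ⟨s, hs, rfl, by rw [map_sub, e2, sub_self]⟩)
      (Prod.ext (by simpa using e1.symm) (by simp))).1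
  refine ⟨fun x φ => ?_, fun r hr r' hr' e1 e2 => ?_, fun r hr r' hr' e1 e2 =>
    huniq r hr r' hr' 0 (map_zero _) (by rw [S.lift_zero, add_zero, e1]) e2,
    fun r hr h => hper h r hr⟩
  · obtain ⟨r, hr, ⟨t, ψ⟩, hu, e⟩ := tiling_ex hA (S.lift x, φ)
    obtain ⟨s, hs, e1, hψ⟩ := S.mem_box.1 hu
    dsimp only at e1 hψ
    subst e1
    have e2 : r.1 + S.lift s = S.lift x := congrArg Prod.fst e
    have e3 : r.2 + ψ = φ := congrArg Prod.snd e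
    refine ⟨r, hr, ?_, by rw [← e3, map_add, hψ, add_zero]⟩
    rw [← S.ρ_lift x, ← e2, map_add, map_add, S.ρ_lift, hs, add_zero]
  · obtain ⟨h, hh⟩ := (S.ker (r.1 - S.lift (S.ρ r.1 - S.ρ r'.1) - r'.1)).1 (by
      rw [map_sub, map_sub, S.ρ_lift]; abel)
    obtain ⟨r2, hr2, e3, e4⟩ := hper h r' hr'
    have := huniq r hr r2 hr2 (S.ρ r.1 - S.ρ r'.1) (by rw [map_sub, e1, sub_self])
      (by rw [e3, hh]; abel) (e2.trans e4.symm)
    rw [this, e3, map_add, S.ρ_ι, add_zero]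

end Setup

end Crest.Agent.R46
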