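import Crest.Agent.R46.Defs

/-! Row 46: a finite system in ℤ³ merges into one rigid tile.

Enumerate the system (nonempty, since `univ` is periodic) as `F : ZMod M → Finset _` (`M ≥ 1`, every
member hit; each `F m` is nonempty as `A₀` tiles with it). Put `L = 4M + 8`, `Q = [0,L)³`,
`col z = ∑ i, if z i ≠ 0 then (z (i+1) : ZMod M) else 0`, centre `c₀ = (2M+4, 2M+4, 2M+4)`,
holes `h k = c₀ - e k`, `ρ q = q + L • e k` if `q = h k`, else `q`; so `ρ(Q)` is a transversal
of `Lℤ³`. `T = {L • f + ρ q : q ∈ Q, f ∈ F (col q)}`.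
* `L • A₀` tiles with `T`.
* Let `A` tile with `T`; base points `p = a + L • f` (`a ∈ A`, `f ∈ F m`, "p hosts m").
  (Sep) `p` hosts `col q`, `p'` hosts `col q'`, `p + ρ q = p' + ρ q'` ⟹ `p = p'`.
  (*) if `0 < d i ≤ L-1` and `|d j| ≤ L-M-2` for the two `j ≠ i`, then for all colours `m, m'` there
  are non-holes `q, q' ∈ Q`, `q = q' + d`, `col q = m`, `col q' = m'`: take `q' i = 0`, and for
  `j ≠ i` take `q j ∈ [L-M, L-1]` if `d j ≥ 0`, `q j ∈ [1, M]` if `d j < 0`; then all coordinates of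
  `q` and the two other coordinates of `q'` are in `[1, L-1]`, `col q' = q' (i+2)`,
  `col q = ∑ q`, and windows of length `M` realise any residues. So two base points never differ
  by such a `d`.
  The point `p + h j` is covered: `= p' + ρ q'`. If `q'` is no hole then `|p - p'|∞ ≤ L-M-2`, so
  `p = p'` by (*), `q' = h j`, absurd. So `p' = p + h j - h k - L e k`; `k ≠ j` gives
  `p - p' = e j - e k + L e k`, excluded by (*) with `i = k`. Hence base points are closed under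
  `- L e j`. For base points `p, p'` subtract multiples to get `|p - p'|∞ ≤ L/2 ≤ L-M-2`, so
  equal: all base points, hence all `a ∈ A`, are congruent mod `L`.
* If `A ⊆ v + Lℤ³` tiles with `T` then `A' = {a | v + L • a ∈ A}` tiles with each `F m` (every
  colour is `col q` for some `q ∈ Q`), and a finite-index `H` preserving `A` gives the
  finite-index `H.comap (L • ·)` (or simply `H` itself contains `L • H`) preserving `A'`. -/

set_option autoImplicit false

namespace Crest.Agent.R46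

open Crest.CombinatoricsR.Tiling

namespace Merge

variable (M : ℤ)

/-- side length of the box -/
def L : ℤ := 4 * M + 8

/-- the colour of a point of the box -/
def col (q : Fin 3 → ℤ) : ℤ :=
  (if q 0 ≠ 0 then q 1 else 0) + (if q 1 ≠ 0 then q 2 else 0) + (if q 2 ≠ 0 then q 0 else 0)

/-- the holes -/
def hole (k : Fin 3) : Fin 3 → ℤ := fun l => if l = k then 2 * M + 3 else 2 * M + 4

/-- the displacement of the holes -/
def δ (q : Fin 3 → ℤ) : Fin 3 → ℤ := fun k => if q = hole M k then 1 else 0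

/-- the modified transversal -/
def ρ (q : Fin 3 → ℤ) : Fin 3 → ℤ := q + L M • δ M q

/-- membership in the box -/
def InQ (q : Fin 3 → ℤ) : Prop := ∀ i, 0 ≤ q i ∧ q i < L M

/-- the tile -/
noncomputable def tile (F : ℤ → Finset (Fin 3 → ℤ)) : Finset (Fin 3 → ℤ) :=
  (Fintype.piFinset fun _ => Finset.Ico 0 (L M)).biUnion fun q =>
    (F (col q)).image fun f => L M • f + ρ M q

variable {M}

theorem mem_tile {F : ℤ → Finset (Fin 3 → ℤ)} {t : Fin 3 → ℤ} :
    t ∈ tile M F ↔ ∃ q, InQ M q ∧ ∃ f ∈ F (col q), L M • f + ρ M q = t := by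
  simp only [tile, Finset.mem_biUnion, Fintype.mem_piFinset, Finset.mem_Ico, Finset.mem_image, InQ]

theorem ρ_of_not {q : Fin 3 → ℤ} (h : ∀ k, q ≠ hole M k) : ρ M q = q := by
  funext i
  simp [ρ, δ, h i]

theorem ρ_hole (k l : Fin 3) :
    ρ M (hole M k) l = hole M k l + if l = k then L M else 0 := by
  have : hole M k = hole M l ↔ l = k := by
    refine ⟨fun h => ?_, fun h => by rw [h]⟩
    by_contra hne
    have := congrFun h l
    simp only [hole, if_neg hne, if_true] at this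
    omega
  simp only [ρ, δ, this, Pi.add_apply, Pi.smul_apply, smul_eq_mul, mul_ite, mul_one, mul_zero]

theorem ρ_uniq (hM : 0 < M) {q q' n n' : Fin 3 → ℤ} (hq : InQ M q) (hq' : InQ M q')
    (h : L M • n + ρ M q = L M • n' + ρ M q') : q = q' ∧ n = n' := by
  have hL : 0 < L M := by unfold L; omega
  have e : q = q' := by
    funext i
    have h1 := congrFun h i
    simp only [ρ, Pi.add_apply, Pi.smul_apply, smul_eq_mul] at h1
    have h2 : L M ∣ q i - q' i := ⟨n' i + δ M q' i - n i - δ M q i, by linarith⟩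
    have h3 := Int.eq_zero_of_abs_lt_dvd h2 (by
      have := hq i
      have := hq' i
      rw [abs_lt]; omega)
    omega
  subst e
  exact ⟨rfl, smul_right_injective _ hL.ne' (add_right_cancel h)⟩

theorem ρ_ex (hM : 0 < M) (x : Fin 3 → ℤ) : ∃ n q, InQ M q ∧ L M • n + ρ M q = x := by
  have hL : 0 < L M := by unfold L; omega
  refine ⟨fun i => x i / L M - δ M (fun i => x i % L M) i, fun i => x i % L M,
    fun i => ⟨Int.emod_nonneg _ hL.ne', Int.emod_lt_of_pos _ hL⟩, funext fun i => ?_⟩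
  simp only [ρ, Pi.add_apply, Pi.smul_apply, smul_eq_mul]
  have := Int.mul_ediv_add_emod (x i) (L M)
  linarith

theorem window (hM : 0 < M) (d t : ℤ) (hd : |d| ≤ L M - M - 2) :
    ∃ y, 1 ≤ y ∧ y < L M ∧ 1 ≤ y - d ∧ y - d < L M ∧ (y ≤ M ∨ 3 * M + 8 ≤ y) ∧ M ∣ y - t := by
  rw [abs_le] at hd
  unfold L at *
  have key : ∀ lo, ∃ y, lo ≤ y ∧ y < lo + M ∧ M ∣ y - t := fun lo => by
    refine ⟨lo + (t - lo) % M, ?_, ?_, -((t - lo) / M), ?_⟩
    · have := Int.emod_nonneg (t - lo) hM.ne'; omega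
    · have := Int.emod_lt_of_pos (t - lo) hM; omega
    · have := Int.mul_ediv_add_emod (t - lo) M; linarith
  rcases le_or_gt 0 d with h | h
  · obtain ⟨y, h1, h2, h3⟩ := key (3 * M + 8)
    exact ⟨y, by omega, by omega, by omega, by omega, by omega, h3⟩
  · obtain ⟨y, h1, h2, h3⟩ := key 1
    exact ⟨y, by omega, by omega, by omega, by omega, by omega, h3⟩

theorem not_hole (hM : 0 < M) {q : Fin 3 → ℤ} (i : Fin 3) (h : q i ≤ M ∨ 3 * M + 8 ≤ q i)
    (k : Fin 3) : q ≠ hole M k := by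
  rintro rfl
  simp only [hole] at h
  split_ifs at h <;> omega

theorem star (hM : 0 < M) (d : Fin 3 → ℤ) (i : Fin 3) (h0 : 0 < d i) (h1 : d i < L M)
    (hj : ∀ j, j ≠ i → |d j| ≤ L M - M - 2) (m m' : ℤ) :
    ∃ q q', InQ M q ∧ InQ M q' ∧ ρ M q = ρ M q' + d ∧ M ∣ col q - m ∧ M ∣ col q' - m' := by
  have hL : 0 < L M := by unfold L; omega
  obtain ⟨n1, n2, n3, cs⟩ := (by decide : ∀ i : Fin 3, i + 1 ≠ i ∧ i + 2 ≠ i ∧ i + 2 ≠ i + 1 ∧
    ∀ l : Fin 3, l = i ∨ l = i + 1 ∨ l = i + 2) i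
  obtain ⟨z, z1, z2, z3, z4, z5, z6⟩ := window hM (d (i + 2)) (m' + d (i + 2)) (hj _ n2)
  obtain ⟨y, y1, y2, y3, y4, y5, y6⟩ := window hM (d (i + 1)) (m - d i - z) (hj _ n1)
  let q : Fin 3 → ℤ := fun l => if l = i then d i else if l = i + 1 then y else z
  have q0 : q i = d i := if_pos rfl
  have q1 : q (i + 1) = y := (if_neg n1).trans (if_pos rfl)
  have q2 : q (i + 2) = z := (if_neg n2).trans (if_neg n3)
  have cl : ∀ r : Fin 3 → ℤ, col r = (if r i ≠ 0 then r (i + 1) else 0) +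
      (if r (i + 1) ≠ 0 then r (i + 2) else 0) + (if r (i + 2) ≠ 0 then r i else 0) := by
    intro r
    unfold col
    fin_cases i
    · rfl
    · show _ = (if r 1 ≠ 0 then r 2 else 0) + (if r 2 ≠ 0 then r 0 else 0) +
        (if r 0 ≠ 0 then r 1 else 0)
      ring
    · show _ = (if r 2 ≠ 0 then r 0 else 0) + (if r 0 ≠ 0 then r 1 else 0) +
        (if r 1 ≠ 0 then r 2 else 0)
      ring
  refine ⟨q, q - d, fun l => ?_, fun l => ?_, ?_, ?_, ?_⟩
  · rcases cs l with rfl | rfl | rfl <;> omega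
  · rcases cs l with rfl | rfl | rfl <;> simp only [Pi.sub_apply] <;> omega
  · rw [ρ_of_not (not_hole hM (i + 1) (by omega)),
      ρ_of_not (not_hole hM i (by simp only [Pi.sub_apply]; omega)), sub_add_cancel]
  · rw [cl, q0, q1, q2, if_pos (by omega), if_pos (by omega), if_pos (by omega)]
    convert y6 using 1
    ring
  · rw [cl]
    simp only [Pi.sub_apply]
    rw [q0, q1, q2, if_neg (by omega), if_pos (by omega), if_pos (by omega)]
    convert z6 using 1
    ring

variable {F : ℤ → Finset (Fin 3 → ℤ)} {A : Set (Fin 3 → ℤ)}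

theorem tiling_smul (hM : 0 < M) (hA : ∀ m, IsTilingBy (F m) A) :
    IsTilingBy (tile M F) ((fun a => L M • a) '' A) := by
  intro x
  obtain ⟨n, q, hq, rfl⟩ := ρ_ex hM x
  obtain ⟨⟨a, f⟩, ⟨ha, hf, rfl⟩, hu⟩ := hA (col q) n
  refine ⟨(L M • a, L M • f + ρ M q), ⟨⟨a, ha, rfl⟩, mem_tile.2 ⟨q, hq, f, hf, rfl⟩, by
    simp only [smul_add, add_assoc]⟩, ?_⟩
  rintro ⟨_, t⟩ ⟨⟨a', ha', rfl⟩, ht, e⟩
  obtain ⟨q', hq', f', hf', rfl⟩ := mem_tile.1 ht
  simp only at e
  rw [← add_assoc, ← smul_add] at e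
  obtain ⟨rfl, e'⟩ := ρ_uniq hM hq' hq e
  obtain ⟨rfl, rfl⟩ := Prod.ext_iff.1 (hu (a', f') ⟨ha', hf', e'⟩)
  rfl

variable (M F A) in
/-- base points -/
def Base (p : Fin 3 → ℤ) : Prop := ∃ m, ∃ a ∈ A, ∃ f ∈ F m, a + L M • f = p

theorem sep (hM : 0 < M) (hF : ∀ m m', M ∣ m - m' → F m = F m') (hA : IsTilingBy (tile M F) A)
    {p d : Fin 3 → ℤ} (hp : Base M F A p) (hp' : Base M F A (p + d)) (i : Fin 3) (h0 : 0 < d i)
    (h1 : d i < L M) (hj : ∀ j, j ≠ i → |d j| ≤ L M - M - 2) : False := by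
  obtain ⟨m, a, ha, f, hf, rfl⟩ := hp
  obtain ⟨m', a', ha', f', hf', e⟩ := hp'
  obtain ⟨q, q', hq, hq', e', c, c'⟩ := star hM d i h0 h1 hj m m'
  rw [← hF _ _ c] at hf
  rw [← hF _ _ c'] at hf'
  have := (hA (a + (L M • f + ρ M q))).unique (y₁ := (a, L M • f + ρ M q))
    (y₂ := (a', L M • f' + ρ M q')) ⟨ha, mem_tile.2 ⟨q, hq, f, hf, rfl⟩, rfl⟩
    ⟨ha', mem_tile.2 ⟨q', hq', f', hf', rfl⟩, by
      simp only
      rw [← add_assoc, e, e']
      abel⟩
  obtain ⟨rfl, -⟩ := ρ_uniq hM hq hq' (Prod.ext_iff.1 this).2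
  have := congrFun e' i
  simp only [Pi.add_apply] at this
  omega

theorem eq_of_close (hM : 0 < M) (hF : ∀ m m', M ∣ m - m' → F m = F m')
    (hA : IsTilingBy (tile M F) A) {p p' : Fin 3 → ℤ} (hp : Base M F A p) (hp' : Base M F A p')
    (h : ∀ i, |p' i - p i| ≤ L M - M - 2) : p = p' := by
  funext i
  have hi := abs_le.1 (h i)
  rcases lt_trichotomy (p i) (p' i) with h' | h' | h'
  · exact (sep hM hF hA (d := p' - p) hp (by rwa [add_sub_cancel]) i (by simpa using h')
      (by simp only [Pi.sub_apply]; omega) fun j _ => h j).elim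
  · exact h'
  · exact (sep hM hF hA (d := p - p') hp' (by rwa [add_sub_cancel]) i (by simpa using h')
      (by simp only [Pi.sub_apply]; omega) fun j _ => (abs_sub_comm _ _).trans_le (h j)).elim

theorem base_sub (hM : 0 < M) (hF : ∀ m m', M ∣ m - m' → F m = F m')
    (hA : IsTilingBy (tile M F) A) {p : Fin 3 → ℤ} (hp : Base M F A p) (j : Fin 3) :
    Base M F A (p - Pi.single j (L M)) := by
  obtain ⟨⟨a, t⟩, ⟨ha, ht, e⟩, -⟩ := hA (p + hole M j)
  obtain ⟨q, hq, f, hf, rfl⟩ := mem_tile.1 ht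
  have hb : Base M F A (a + L M • f) := ⟨_, a, ha, f, hf, rfl⟩
  simp only at e
  rw [← add_assoc] at e
  generalize a + L M • f = p' at e hb
  by_cases hh : ∀ k, q ≠ hole M k
  · rw [ρ_of_not hh] at e
    obtain rfl := eq_of_close hM hF hA hp hb fun i => by
      have h1 := congrFun e i
      have h2 := hq i
      simp only [Pi.add_apply, hole] at h1
      unfold L at *
      rw [abs_le]
      split_ifs at h1 <;> omega
    exact absurd (add_left_cancel e) (hh j)
  · push Not at hh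
    obtain ⟨k, rfl⟩ := hh
    have e' : ∀ l, p' l + (hole M k l + if l = k then L M else 0) = p l + hole M j l := fun l => by
      rw [← ρ_hole]; exact congrFun e l
    by_cases hk : k = j
    · subst hk
      convert hb using 1
      funext l
      have := e' l
      simp only [Pi.sub_apply, Pi.single_apply]
      omega
    · refine (sep hM hF hA (d := p - p') hb (by rwa [add_sub_cancel]) k ?_ ?_ fun l hl => ?_).elim
      · have := e' k
        simp only [hole, if_true, if_neg hk, L] at this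
        simp only [Pi.sub_apply]
        omega
      · have := e' k
        simp only [hole, if_true, if_neg hk] at this
        simp only [Pi.sub_apply]
        omega
      · have := e' l
        simp only [hole, if_neg hl] at this
        simp only [Pi.sub_apply, L, abs_le]
        split_ifs at this <;> omega

theorem base_sub' (hM : 0 < M) (hF : ∀ m m', M ∣ m - m' → F m = F m')
    (hA : IsTilingBy (tile M F) A) {p : Fin 3 → ℤ} (hp : Base M F A p) (u : Fin 3 → ℕ) :
    Base M F A (fun i => p i - L M * u i) := by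
  have key : ∀ (j : Fin 3) (n : ℕ) {p : Fin 3 → ℤ}, Base M F A p →
      Base M F A (p - Pi.single j (L M * n)) := by
    intro j n
    induction n with
    | zero => intro p hp; simpa using hp
    | succ n ih =>
      intro p hp
      convert base_sub hM hF hA (ih hp) j using 1
      rw [sub_sub, ← Pi.single_add]
      push_cast
      rw [mul_add, mul_one]
  convert key 2 (u 2) (key 1 (u 1) (key 0 (u 0) hp)) using 1
  funext i
  fin_cases i <;> simp

theorem base_congr (hM : 0 < M) (hF : ∀ m m', M ∣ m - m' → F m = F m')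
    (hA : IsTilingBy (tile M F) A) {p p' : Fin 3 → ℤ} (hp : Base M F A p) (hp' : Base M F A p')
    (i : Fin 3) : L M ∣ p i - p' i := by
  have hL : 0 < L M := by unfold L; omega
  let n : Fin 3 → ℤ := fun i => (p i - p' i + (2 * M + 4)) / L M
  have hn : ∀ i, ((n i).toNat : ℤ) - (-n i).toNat = n i := fun i => Int.toNat_sub_toNat_neg _
  have := eq_of_close hM hF hA (base_sub' hM hF hA hp fun i => (n i).toNat)
    (base_sub' hM hF hA hp' fun i => (-n i).toNat) fun i => by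
      have h1 := Int.mul_ediv_add_emod (p i - p' i + (2 * M + 4)) (L M)
      have h2 := Int.emod_nonneg (p i - p' i + (2 * M + 4)) hL.ne'
      have h3 := Int.emod_lt_of_pos (p i - p' i + (2 * M + 4)) hL
      have h4 : L M * (n i).toNat - L M * (-n i).toNat = L M * n i := by rw [← mul_sub, hn]
      have h5 : L M = 4 * M + 8 := rfl
      simp only [n] at h4 ⊢
      rw [abs_le]
      constructor <;> linarith
  refine ⟨n i, ?_⟩
  have h1 := congrFun this i
  rw [← hn i]
  linarith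

theorem tiling_desc (hM : 0 < M) (hF : ∀ m m', M ∣ m - m' → F m = F m')
    (hA : IsTilingBy (tile M F) A) {v : Fin 3 → ℤ} (hv : ∀ a ∈ A, ∀ i, L M ∣ a i - v i) (m : ℤ) :
    IsTilingBy (F m) {a | v + L M • a ∈ A} := by
  have hL : 0 < L M := by unfold L; omega
  obtain ⟨q, -, hq, -, -, c, -⟩ := star hM (Pi.single 0 1) 0 (by simp) (by simp [L]; omega)
    (fun j hj => by simp [hj, L]; omega) m m
  rw [← hF _ _ c]
  intro x
  obtain ⟨⟨a, t⟩, ⟨ha, ht, e⟩, hu⟩ := hA (v + L M • x + ρ M q)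
  obtain ⟨q', hq', f, hf, rfl⟩ := mem_tile.1 ht
  choose b hb using hv a ha
  obtain rfl : a = v + L M • b := funext fun i => by
    simp only [Pi.add_apply, Pi.smul_apply, smul_eq_mul]; linarith [hb i]
  have e' : L M • (b + f) + ρ M q' = L M • x + ρ M q := by
    apply add_left_cancel (a := v)
    rw [← add_assoc v (L M • x), ← e, smul_add]
    simp only
    abel
  obtain ⟨rfl, rfl⟩ := ρ_uniq hM hq' hq e'
  refine ⟨(b, f), ⟨ha, hf, rfl⟩, ?_⟩
  rintro ⟨b', f'⟩ ⟨hb', hf', e''⟩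
  simp only at e''
  have := hu (v + L M • b', L M • f' + ρ M q') ⟨hb', mem_tile.2 ⟨q', hq', f', hf', rfl⟩, by
    rw [← e'', smul_add]
    simp only
    abel⟩
  obtain ⟨h1, h2⟩ := Prod.ext_iff.1 this
  exact Prod.ext (smul_right_injective _ hL.ne' (add_left_cancel h1))
    (smul_right_injective _ hL.ne' (add_right_cancel h2))

end Merge

open Merge in
theorem merge {A₀ : Set (Fin 3 → ℤ)} (h : Expr A₀ (fun A => ¬ IsFullyPeriodic A)) :
    ∃ (T : Finset (Fin 3 → ℤ)) (L : ℤ), 2 ≤ L ∧ T.Nonempty ∧ (∃ A, IsTilingBy T A) ∧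
      ∀ A, IsTilingBy T A → ¬ IsFullyPeriodic A ∧ ∀ a ∈ A, ∀ a' ∈ A, ∀ i, L ∣ a i - a' i := by
  obtain ⟨𝓕, h0, hP⟩ := h
  have hc : 0 < 𝓕.card := by
    rw [Finset.card_pos, Finset.nonempty_iff_ne_empty]
    rintro rfl
    exact hP Set.univ (by simp) ⟨⊤, inferInstance, fun _ _ _ _ => trivial⟩
  have hM : (0 : ℤ) < 𝓕.card := by exact_mod_cast hc
  have hlt : ∀ m : ℤ, (m % 𝓕.card).toNat < 𝓕.card := fun m => by
    have := Int.emod_lt_of_pos m hM
    have := Int.emod_nonneg m hM.ne'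
    omega
  let F : ℤ → Finset (Fin 3 → ℤ) := fun m => (𝓕.equivFin.symm ⟨_, hlt m⟩).1
  have hF : ∀ m m', (𝓕.card : ℤ) ∣ m - m' → F m = F m' := fun m m' h => by
    simp only [F, (Int.emod_eq_emod_iff_emod_sub_eq_zero.2 (Int.emod_eq_zero_of_dvd h))]
  have hmem : ∀ m, F m ∈ 𝓕 := fun m => (𝓕.equivFin.symm _).2
  have hsurj : ∀ S ∈ 𝓕, ∃ m, F m = S := fun S hS => ⟨(𝓕.equivFin ⟨S, hS⟩ : ℕ), by
    have : (((𝓕.equivFin ⟨S, hS⟩ : ℕ) : ℤ) % 𝓕.card).toNat = 𝓕.equivFin ⟨S, hS⟩ := by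
      rw [Int.emod_eq_of_lt (by omega) (by exact_mod_cast (𝓕.equivFin ⟨S, hS⟩).2)]
      rfl
    simp only [F, this, Fin.eta, Equiv.symm_apply_apply]⟩
  have ht := tiling_smul hM fun m => h0 _ (hmem m)
  refine ⟨tile 𝓕.card F, L 𝓕.card, by unfold L; omega, ?_, ⟨_, ht⟩, fun A hA => ?_⟩
  · obtain ⟨p, hp, -⟩ := ht 0
    exact ⟨_, hp.2.1⟩
  have hd : ∀ a ∈ A, ∀ a' ∈ A, ∀ i, L 𝓕.card ∣ a i - a' i := fun a ha a' ha' i => by
    obtain ⟨⟨_, f⟩, ⟨-, hf, -⟩, -⟩ := h0 _ (hmem 0) 0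
    have := base_congr hM hF hA ⟨0, a, ha, f, hf, rfl⟩ ⟨0, a', ha', f, hf, rfl⟩ i
    simpa using this
  refine ⟨?_, hd⟩
  rintro ⟨H, hH, hper⟩
  obtain ⟨⟨v, _⟩, ⟨hv, -⟩, -⟩ := hA 0
  refine hP {a | v + L 𝓕.card • a ∈ A} (fun S hS => ?_) ⟨H, hH, fun g hg a ha => ?_⟩
  · obtain ⟨m, rfl⟩ := hsurj S hS
    exact tiling_desc hM hF hA (fun a ha => hd a ha v hv) m
  · have := hper _ (H.zsmul_mem hg (L 𝓕.card)) _ ha
    show v + _ • (g + a) ∈ A
    rwa [smul_add, add_left_comm]

end Crest.Agent.R46
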