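import Crest.Agent.R46.Defs

/-! Row 46: the Euclidean half for a rigid tile.

* Existence: `B` = real cast of a tiling set `A`; if no coordinate of `x` is an integer (a.e.,
  `Measure.ae_eval_ne`, countably many hyperplanes) then `x - b ∈ Ω ↔ ⌊x⌋ - b ∈ T`.
* Let `B` tile a.e. `B` is countable: the open cubes `b + t₀ + (0,1)³` are pairwise disjoint (an
  open null set is empty), `Set.PairwiseDisjoint.countable_of_isOpen`. Call `x` generic if every
  `x + n` (`n ∈ ℤ³`) is covered by exactly one `b` and no `x i - b i` is an integer; a.e. `x` is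
  generic. For generic `x`, `A x = {fun i => -⌊x i - b i⌋ : b ∈ B}` tiles ℤ³ with `T`. If
  `b i - b' i ∉ ℤ` then `⌊x i - b i⌋ - ⌊x i - b' i⌋` takes two consecutive values on nonempty open
  sets of `x`, which contain generic points; both are divisible by `L ≥ 2`, absurd. `B ≠ ∅`, so a
  lattice preserving `B` consists of integer vectors; the subgroup of `n ∈ ℤ³` whose cast is in
  the lattice contains `D ℤ³` (`D` the nonzero integer determinant, adjugate), has finite index
  and preserves `A x`. -/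

set_option autoImplicit false

namespace Crest.Agent.R46

open Crest.CombinatoricsR.Tiling

open MeasureTheory

theorem mem_cube_iff_floor {T : Finset (Fin 3 → ℤ)} {y : Fin 3 → ℝ}
    (hy : ∀ i (m : ℤ), y i ≠ m) : y ∈ cubeThickening T ↔ (fun i => ⌊y i⌋) ∈ T := by
  constructor
  · rintro ⟨z, hz, h⟩
    have : (fun i => ⌊y i⌋) = z := by
      funext i
      rw [Int.floor_eq_iff]
      refine ⟨(h i).1, lt_of_le_of_ne (h i).2 ?_⟩
      have := hy i (z i + 1)
      push_cast at this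
      exact this
    rwa [this]
  · intro h
    exact ⟨_, h, fun i => ⟨Int.floor_le _, (Int.lt_floor_add_one _).le⟩⟩

theorem ae_coord_ne (i : Fin 3) (c : ℝ) : ∀ᵐ x : Fin 3 → ℝ, x i ≠ c :=
  Measure.ae_eval_ne (fun _ : Fin 3 => (volume : Measure ℝ)) i c

theorem ae_exists_mem_open {p : (Fin 3 → ℝ) → Prop} (hp : ∀ᵐ x : Fin 3 → ℝ, p x)
    {U : Set (Fin 3 → ℝ)} (hU : IsOpen U) (hne : U.Nonempty) : ∃ x ∈ U, p x := by
  obtain ⟨x, hx, hxU⟩ := (Measure.dense_of_ae (μ := volume) hp).exists_mem_open hU hne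
  exact ⟨x, hxU, hx⟩

theorem countable_of_aeTiling {T : Finset (Fin 3 → ℤ)} (hT : T.Nonempty) {B : Set (Fin 3 → ℝ)}
    (hB : IsAETilingBy (cubeThickening T) B) : B.Countable := by
  obtain ⟨t, ht⟩ := hT
  set U : (Fin 3 → ℝ) → Set (Fin 3 → ℝ) :=
    fun b => Set.univ.pi fun i => Set.Ioo (b i + t i) (b i + t i + 1) with hU
  have hUo : ∀ b, IsOpen (U b) := fun b =>
    isOpen_set_pi Set.finite_univ fun i _ => isOpen_Ioo
  have hUc : ∀ b x, x ∈ U b → x - b ∈ cubeThickening T := by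
    intro b x hx
    refine ⟨t, ht, fun i => ?_⟩
    have := hx i trivial
    simp only [Pi.sub_apply]
    constructor <;> linarith [this.1, this.2]
  refine Set.PairwiseDisjoint.countable_of_isOpen (s := U) ?_ (fun b _ => hUo b) fun b _ => ?_
  · intro b hb b' hb' hne
    rw [Function.onFun, Set.disjoint_iff_inter_eq_empty]
    by_contra hc
    obtain ⟨x, hx, b₀, -, hu⟩ := ae_exists_mem_open hB ((hUo b).inter (hUo b'))
      (Set.nonempty_iff_ne_empty.2 hc)
    exact hne ((hu b ⟨hb, hUc b x hx.1⟩).trans (hu b' ⟨hb', hUc b' x hx.2⟩).symm)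
  · refine ⟨fun i => b i + t i + 1 / 2, fun i _ => ?_⟩
    constructor <;> linarith

/-- generic points for an almost-everywhere tiling -/
def Generic (T : Finset (Fin 3 → ℤ)) (B : Set (Fin 3 → ℝ)) (x : Fin 3 → ℝ) : Prop :=
  (∀ n : Fin 3 → ℤ, ∃! b, b ∈ B ∧ x + (fun i => (n i : ℝ)) - b ∈ cubeThickening T) ∧
    ∀ b ∈ B, ∀ i (m : ℤ), x i ≠ b i + m

theorem ae_generic {T : Finset (Fin 3 → ℤ)} (hT : T.Nonempty) {B : Set (Fin 3 → ℝ)}
    (hB : IsAETilingBy (cubeThickening T) B) : ∀ᵐ x : Fin 3 → ℝ, Generic T B x := by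
  refine Filter.Eventually.and (ae_all_iff.2 fun n => ?_) ?_
  · exact (measurePreserving_add_right volume (fun i => (n i : ℝ))).quasiMeasurePreserving.ae hB
  · refine (ae_ball_iff (countable_of_aeTiling hT hB)).2 fun b _ => ?_
    exact ae_all_iff.2 fun i => ae_all_iff.2 fun m => ae_coord_ne i _

/-- the integer tiling read off at a generic point -/
def readOff (B : Set (Fin 3 → ℝ)) (x : Fin 3 → ℝ) : Set (Fin 3 → ℤ) :=
  {a | ∃ b ∈ B, a = fun i => -⌊x i - b i⌋}

theorem Generic.isTilingBy {T : Finset (Fin 3 → ℤ)} {B : Set (Fin 3 → ℝ)} {x : Fin 3 → ℝ}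
    (hx : Generic T B x) : IsTilingBy T (readOff B x) := by
  have key : ∀ (n : Fin 3 → ℤ), ∀ b ∈ B,
      (x + (fun i => (n i : ℝ)) - b ∈ cubeThickening T ↔ (fun i => n i + ⌊x i - b i⌋) ∈ T) := by
    intro n b hb
    rw [mem_cube_iff_floor]
    · have : (fun i => ⌊(x + (fun i => (n i : ℝ)) - b) i⌋) = fun i => n i + ⌊x i - b i⌋ := by
        funext i
        simp only [Pi.sub_apply, Pi.add_apply]
        rw [show x i + (n i : ℝ) - b i = (n i : ℝ) + (x i - b i) by ring, Int.floor_intCast_add]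
      rw [this]
    · intro i m hm
      apply hx.2 b hb i (m - n i)
      simp only [Pi.sub_apply, Pi.add_apply] at hm
      push_cast
      linarith
  intro n
  obtain ⟨b, ⟨hb, hbT⟩, hu⟩ := hx.1 n
  refine ⟨(fun i => -⌊x i - b i⌋, fun i => n i + ⌊x i - b i⌋),
    ⟨⟨b, hb, rfl⟩, (key n b hb).1 hbT, ?_⟩, ?_⟩
  · funext i; simp
  · rintro ⟨a, t⟩ ⟨⟨b', hb', ha⟩, ht, hsum⟩
    simp only at ha ht hsum
    have ht' : t = fun i => n i + ⌊x i - b' i⌋ := by
      funext i
      have := congrFun hsum i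
      simp only [ha, Pi.add_apply] at this
      linarith
    have hbb : b' = b := hu b' ⟨hb', (key n b' hb').2 (ht' ▸ ht)⟩
    rw [ha, ht', hbb]

/-- the integer points of a lattice spanned by integer vectors have finite index -/
theorem exists_smul_mem_span (e : Module.Basis (Fin 3) ℝ (Fin 3 → ℝ))
    (M : Matrix (Fin 3) (Fin 3) ℤ) (hM : ∀ j i, e j i = M j i) :
    ∃ d : ℤ, d ≠ 0 ∧ ∀ n : Fin 3 → ℤ,
      (fun i => ((d * n i : ℤ) : ℝ)) ∈ Submodule.span ℤ (Set.range ⇑e) := by
  refine ⟨M.det, ?_, fun n => ?_⟩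
  · intro h0
    have h1 : LinearIndependent ℝ (M.map (Int.castRingHom ℝ)).row := by
      have : (M.map (Int.castRingHom ℝ)).row = ⇑e := by
        funext j i; simp [Matrix.row, hM]
      rw [this]; exact e.linearIndependent
    rw [Matrix.linearIndependent_rows_iff_isUnit, Matrix.isUnit_iff_isUnit_det] at h1
    have h2 := (Int.castRingHom ℝ).map_det M
    rw [h0, map_zero] at h2
    change (0 : ℝ) = (M.map (Int.castRingHom ℝ)).det at h2
    rw [← h2] at h1
    exact not_isUnit_zero h1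
  · set c : Fin 3 → ℤ := Matrix.vecMul n M.adjugate with hc
    have h1 : Matrix.vecMul c M = M.det • n := by
      rw [hc, Matrix.vecMul_vecMul, Matrix.adjugate_mul, Matrix.vecMul_smul, Matrix.vecMul_one]
    have h2 : (fun i => ((M.det * n i : ℤ) : ℝ)) = ∑ j, c j • e j := by
      funext i
      have := congrFun h1 i
      simp only [Matrix.vecMul, dotProduct, Pi.smul_apply, smul_eq_mul] at this
      rw [← this]
      simp [hM]
    rw [h2]
    exact Submodule.sum_mem _ fun j _ =>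
      Submodule.smul_mem _ _ (Submodule.subset_span ⟨j, rfl⟩)

theorem real_exists {T : Finset (Fin 3 → ℤ)} {A : Set (Fin 3 → ℤ)} (h : IsTilingBy T A) :
    ∃ B : Set (Fin 3 → ℝ), IsAETilingBy (cubeThickening T) B := by
  refine ⟨(fun a : Fin 3 → ℤ => fun i => (a i : ℝ)) '' A, ?_⟩
  have hae : ∀ᵐ x : Fin 3 → ℝ, ∀ i (m : ℤ), x i ≠ m :=
    ae_all_iff.2 fun i => ae_all_iff.2 fun m => ae_coord_ne i _
  filter_upwards [hae] with x hx
  have key : ∀ a : Fin 3 → ℤ,
      (x - (fun i => (a i : ℝ)) ∈ cubeThickening T ↔ (fun i => ⌊x i⌋) - a ∈ T) := by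
    intro a
    rw [mem_cube_iff_floor]
    · have : (fun i => ⌊(x - (fun i => (a i : ℝ))) i⌋) = (fun i => ⌊x i⌋) - a := by
        funext i
        simp only [Pi.sub_apply]
        exact Int.floor_sub_intCast _ _
      rw [this]
    · intro i m hm
      apply hx i (m + a i)
      simp only [Pi.sub_apply] at hm
      push_cast
      linarith
  obtain ⟨⟨a, t⟩, ⟨ha, ht, hsum⟩, hu⟩ := h fun i => ⌊x i⌋
  simp only at ha ht hsum
  refine ⟨_, ⟨⟨a, ha, rfl⟩, (key a).2 ?_⟩, ?_⟩
  · rw [← hsum, add_sub_cancel_left]; exact ht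
  · rintro _ ⟨⟨a', ha', rfl⟩, h'⟩
    have := hu (a', (fun i => ⌊x i⌋) - a') ⟨ha', (key a').1 h', by simp⟩
    have h1 : a' = a := (Prod.ext_iff.1 this).1
    rw [h1]

theorem real_aperiodic {T : Finset (Fin 3 → ℤ)} {L : ℤ} (hL : 2 ≤ L) (hT : T.Nonempty)
    (h : ∀ A, IsTilingBy T A →
      ¬ IsFullyPeriodic A ∧ ∀ a ∈ A, ∀ a' ∈ A, ∀ i, L ∣ a i - a' i)
    (B : Set (Fin 3 → ℝ)) (hB : IsAETilingBy (cubeThickening T) B) : ¬ IsLatticePeriodic B := by
  have hgen := ae_generic hT hB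
  -- differences of translation vectors are integral
  have hint : ∀ b ∈ B, ∀ b' ∈ B, ∀ i, ∃ m : ℤ, b i - b' i = m := by
    intro b hb b' hb' i
    by_contra hc
    push Not at hc
    set k : ℤ := ⌊b i - b' i⌋ with hk
    have hk1 : (k : ℝ) < b i - b' i := lt_of_le_of_ne (Int.floor_le _) (hc k).symm
    have hk2 : b i - b' i < k + 1 := Int.lt_floor_add_one _
    have hop : ∀ u v : ℝ, u < v → ∃ x : Fin 3 → ℝ, (u < x i ∧ x i < v) ∧ Generic T B x := by
      intro u v huv
      refine ae_exists_mem_open hgen (U := {x | u < x i ∧ x i < v}) ?_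
        ⟨fun _ => (u + v) / 2, by constructor <;> linarith⟩
      exact (isOpen_lt continuous_const (continuous_apply i)).inter
        (isOpen_lt (continuous_apply i) continuous_const)
    have hdiv : ∀ x, Generic T B x → L ∣ -⌊x i - b i⌋ - -⌊x i - b' i⌋ := fun x hx =>
      (h _ hx.isTilingBy).2 _ ⟨b, hb, rfl⟩ _ ⟨b', hb', rfl⟩ i
    obtain ⟨x, ⟨hx1, hx2⟩, hx⟩ := hop (b i) (b' i + k + 1) (by linarith)
    obtain ⟨y, ⟨hy1, hy2⟩, hy⟩ := hop (b' i + k + 1) (b i + 1) (by linarith)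
    have e1 : ⌊x i - b i⌋ = 0 := by
      rw [Int.floor_eq_iff]; push_cast; constructor <;> linarith
    have e2 : ⌊x i - b' i⌋ = k := by
      rw [Int.floor_eq_iff]; constructor <;> linarith
    have e3 : ⌊y i - b i⌋ = 0 := by
      rw [Int.floor_eq_iff]; push_cast; constructor <;> linarith
    have e4 : ⌊y i - b' i⌋ = k + 1 := by
      rw [Int.floor_eq_iff]; push_cast; constructor <;> linarith
    have d1 := hdiv x hx
    have d2 := hdiv y hy
    rw [e1, e2] at d1
    rw [e3, e4] at d2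
    have d3 : L ∣ 1 := by
      have := dvd_sub d2 d1
      rwa [show -0 - -(k + 1) - (-0 - -k) = (1 : ℤ) by ring] at this
    have := Int.le_of_dvd one_pos d3
    omega
  obtain ⟨x, hx⟩ := hgen.exists
  obtain ⟨b₀, ⟨hb₀, -⟩, -⟩ := hx.1 0
  rintro ⟨e, he⟩
  have hM : ∀ j i, ∃ m : ℤ, e j i = m := by
    intro j i
    obtain ⟨m, hm⟩ := hint _ (he (e j) (Submodule.subset_span ⟨j, rfl⟩) b₀ hb₀) b₀ hb₀ i
    exact ⟨m, by simpa using hm⟩
  choose M hM using hM
  obtain ⟨d, hd, hdn⟩ := exists_smul_mem_span e (Matrix.of M) hM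
  let φ : (Fin 3 → ℤ) →+ (Fin 3 → ℝ) :=
    { toFun := fun n i => (n i : ℝ)
      map_zero' := by funext i; simp
      map_add' := fun n n' => by funext i; simp }
  let H : AddSubgroup (Fin 3 → ℤ) :=
    (Submodule.span ℤ (Set.range ⇑e)).toAddSubgroup.comap φ
  refine (h _ hx.isTilingBy).1 ⟨H, ?_, ?_⟩
  · have hK : (AddSubgroup.pi Set.univ
        fun _ : Fin 3 => AddSubgroup.zmultiples d).FiniteIndex := by
      constructor
      rw [AddSubgroup.index_pi]
      simp [Int.index_zmultiples, hd]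
    refine AddSubgroup.finiteIndex_of_le (H := AddSubgroup.pi Set.univ
        fun _ : Fin 3 => AddSubgroup.zmultiples d) fun n hn => ?_
    have hn' : ∀ i, ∃ m : ℤ, n i = d * m := fun i => by
      obtain ⟨m, hm⟩ := AddSubgroup.mem_zmultiples_iff.1 (hn i trivial)
      exact ⟨m, by rw [← hm, smul_eq_mul, mul_comm]⟩
    choose m hm using hn'
    have := hdn m
    change (fun i => (n i : ℝ)) ∈ Submodule.span ℤ (Set.range ⇑e)
    simpa only [hm] using this
  · rintro n hn _ ⟨b, hb, rfl⟩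
    refine ⟨_, he _ hn b hb, ?_⟩
    funext i
    simp only [Pi.add_apply]
    rw [show x i - (φ n i + b i) = x i - b i - (n i : ℝ) from sub_add_eq_sub_sub_swap _ _ _,
      Int.floor_sub_intCast]
    ring

end Crest.Agent.R46
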