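import Crest.Agent.R46.Rows

/-! Row 46: the intended rows satisfy all keys and invariance conditions. -/

set_option autoImplicit false
set_option linter.unusedSectionVars false

namespace Crest.Agent.R46

variable {V : Type}

/-- proper colourings. -/
def Proper (E : V → V → Prop) := {p : V → ZMod 3 // ∀ u w, E u w → p u ≠ p w}

/-- the orientation bit of an edge in a row. -/
def sOf (σ : ZMod 7) (y : ZMod 2) (δ : ZMod 3) : ZMod 2 :=
  if σ = 0 then y else if sgn y * δ = 1 then 0 else 1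

set_option synthInstance.maxSize 2048 in
theorem sym_nxt : ∀ (σ : ZMod 7) (y : ZMod 2) (e c c' : ZMod 3), c ≠ c' →
    sym σ y e c' = nxt σ (sym σ y e c) (sOf σ y (c' - c)) := by decide +kernel

theorem locA_sOf : ∀ (σ : ZMod 7) (y : ZMod 2) (δ : ZMod 3), locA σ (sOf σ y δ) = locA σ y := by
  decide +kernel

theorem locC_sym : ∀ (σ : ZMod 7) (y : ZMod 2) (e c : ZMod 3),
    locC σ (sym σ y e c) = locC σ e := by decide +kernel

set_option synthInstance.maxSize 2048 in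
theorem sym_inj₁ : ∀ (σ : ZMod 7) (y : ZMod 2) (e e' c : ZMod 3),
    sym σ y e c = sym σ y e' c → e = e' := by decide +kernel

set_option synthInstance.maxSize 2048 in
theorem sym_inj₂ : ∀ (σ : ZMod 7) (y y' : ZMod 2) (δ : ZMod 3), δ ≠ 0 →
    sOf σ y δ = sOf σ y' δ → y = y' := by decide +kernel

set_option synthInstance.maxSize 2048 in
theorem exists_resym : ∀ (y : ZMod 2) (e c d c' d' : ZMod 3), c ≠ d → c' ≠ d' →
    ∃ y' e', e' + sgn y' * c' = e + sgn y * c ∧ e' + sgn y' * d' = e + sgn y * d := by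
  decide +kernel

theorem sgn_add_one : ∀ y : ZMod 2, sgn (y + 1) = -sgn y := by decide

section

variable [Fintype V] {ℓ : V → ℕ} (sg : ∀ v, SegStr (ZMod (ℓ v))) (ty : V → Bool)

theorem rpos_cluster {t : ZMod 7} {ξ : ∀ v, ZMod (ℓ v)} (h : sig (rth sg t ξ) ≠ 0)
    (y y' : ZMod 2) (e e' : ZMod 3) : rpos sg (y', e', t, ξ) = rpos sg (y, e, t, ξ) := by
  simp [rpos, rg, locA, locB, locC, h]

theorem rfib_spread {i : Ph ℓ} (h : sig (rth sg i.2.2.1 i.2.2.2) = 0) (p p' : V → ZMod 3) :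
    rfib sg ty p' i = rfib sg ty p i := by
  simp [rfib, sym, h]

variable [∀ v, NeZero (ℓ v)] {E : V → V → Prop} (S : Setup (Xp ℓ) (Ph ℓ) (Ph ℓ) (Proper E))
  (hpos : S.pos = rpos sg) (hfib : ∀ p, S.fib p = rfib sg ty p.1)

include hpos hfib

theorem isKey₀ : S.IsKey ((mask ℓ False False True (fun _ => True)).comp (xs₀ ℓ))
    (mask ℓ (¬ False) (¬ False) (¬ True) (fun _ => ¬ True)) := by
  refine isKey_of_inj S _ _ _ _ _ ?_ ?_
  · rintro p ⟨y, e, t, ξ⟩ ⟨y', e', t', ξ'⟩ h1 h2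
    rw [hpos, mask_eq_iff] at h1
    rw [hfib, mask_eq_iff] at h2
    simp only [rpos, rfib, xs₀_apply, add_sub_cancel, forall_const, not_false_eq_true] at h1 h2
    rw [h2.1, h2.2.1, h1.2.2.1, funext h1.2.2.2]
  · intro p p' i
    refine ⟨i, rfl, ?_⟩
    rw [hfib, hfib, mask_eq_iff]
    simp [rfib]

theorem isKey₁ : S.IsKey ((mask ℓ True True False (fun _ => True)).comp (xs₁ ℓ))
    (mask ℓ (¬ True) (¬ True) (¬ False) (fun _ => ¬ True)) := by
  refine isKey_of_inj S _ _ _ _ _ ?_ ?_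
  · rintro p ⟨y, e, t, ξ⟩ ⟨y', e', t', ξ'⟩ h1 h2
    rw [hpos, mask_eq_iff] at h1
    rw [hfib, mask_eq_iff] at h2
    simp only [rpos, rfib, xs₁_apply, forall_const, not_false_eq_true] at h1 h2
    obtain rfl : ξ = ξ' := funext h1.2.2.2
    obtain ⟨h3, rfl, rfl⟩ := local₃ _ _ _ _ _ _ h1.1 h1.2.1 h2.2.2.1
    rw [sig_rth_inj sg h3]
  · intro p p' i
    refine ⟨i, rfl, ?_⟩
    rw [hfib, hfib, mask_eq_iff]
    simp [rfib]

theorem isKey₂ : S.IsKey ((mask ℓ True True False (fun _ => True)).comp (xs₂ ℓ))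
    (mask ℓ (¬ True) (¬ True) (¬ False) (fun _ => ¬ True)) := by
  refine isKey_of_inj S _ _ _ _ _ ?_ ?_
  · rintro p ⟨y, e, t, ξ⟩ ⟨y', e', t', ξ'⟩ h1 h2
    rw [hpos, mask_eq_iff] at h1
    rw [hfib, mask_eq_iff] at h2
    simp only [rpos, rfib, xs₂_apply, forall_const, not_false_eq_true] at h1 h2
    obtain rfl : ξ = ξ' := funext h1.2.2.2
    obtain ⟨h3, rfl, rfl⟩ := local₄ _ _ _ _ _ _ h1.1 h1.2.1 h2.2.2.1
    rw [sig_rth_inj sg h3]
  · intro p p' i
    refine ⟨i, rfl, ?_⟩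
    rw [hfib, hfib, mask_eq_iff]
    simp [rfib]

theorem isKey_vertex (u : V) :
    S.IsKey ((mask ℓ False True True (fun v => ¬ v = u)).comp (xs₀ ℓ))
      (mask ℓ (¬ False) (¬ True) (¬ True) (fun v => ¬ ¬ v = u)) := by
  classical
  refine isKey_of_inj S _ _ _ _ _ ?_ ?_
  · rintro p ⟨y, e, t, ξ⟩ ⟨y', e', t', ξ'⟩ h1 h2
    rw [hpos, mask_eq_iff] at h1
    rw [hfib, mask_eq_iff] at h2
    simp only [rpos, rfib, xs₀_apply, add_sub_cancel, forall_const, not_false_eq_true] at h1 h2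
    obtain ⟨-, hc, rfl, hξ⟩ := h1
    obtain ⟨rfl, -, -, hz⟩ := h2
    have hz := hz u (by simp)
    have hk : (sg u).kind (ξ u) = (sg u).kind (ξ' u) := by
      have := congrArg (sg u).kind hz
      rwa [(sg u).kind_act, (sg u).kind_act] at this
    have ht := congrArg (sg u).th hz
    rw [(sg u).th_act, (sg u).th_act] at ht
    have hr := rth_one sg u t hξ
    rw [← hk] at ht hz
    obtain ⟨h3, h4⟩ := local₁ (kind := (sg u).kind (ξ u)) (ty := ty u) (θ := rth sg t ξ)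
      (θ' := rth sg t ξ') (f := sym (sig (rth sg t ξ)) y e (p.1 u))
      (f' := sym (sig (rth sg t ξ')) y e' (p.1 u)) (by rw [locC_sym, locC_sym, hc])
      (by linear_combination (exp := 1) hr + ht)
    rw [← h4, ← h3] at hz
    have hu := (sg u).act_inj _ _ _ hz
    rw [← h3] at h4
    obtain rfl := sym_inj₁ _ _ _ _ _ h4
    obtain rfl : ξ = ξ' := funext fun v => by
      by_cases hv : v = u
      · rw [hv]; exact hu
      · exact hξ v hv
    rfl
  · rintro p p' ⟨y, e, t, ξ⟩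
    by_cases hσ : sig (rth sg t ξ) = 0
    · exact ⟨(y, e, t, ξ), rfl, by
        rw [hfib, hfib, rfib_spread sg ty (i := (y, e, t, ξ)) hσ p.1 p'.1]⟩
    · refine ⟨(y, e + sgn y * (p.1 u - p'.1 u), t, ξ), 
      by rw [hpos]; exact rpos_cluster sg hσ _ _ _ _, ?_⟩
      rw [hfib, hfib, mask_eq_iff]
      refine ⟨fun _ => rfl, by simp, by simp, fun v hv => ?_⟩
      obtain rfl : v = u := not_not.1 hv
      simp only [rfib, sym, hσ, if_false]
      congr 2
      ring

theorem isKey_edge (hE : ∀ u w, E u w → ty u = false ∧ ty w = true) {u w : V} (huw : E u w) :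
    S.IsKey ((mask ℓ True True True (fun v => ¬ (v = u ∨ v = w))).comp (xs₀ ℓ))
      (mask ℓ (¬ True) (¬ True) (¬ True) (fun v => ¬ ¬ (v = u ∨ v = w))) := by
  classical
  obtain ⟨hu, hw⟩ := hE u w huw
  have hne : u ≠ w := by rintro rfl; rw [hu] at hw; cases hw
  refine isKey_of_inj S _ _ _ _ _ ?_ ?_
  · rintro p ⟨y, e, t, ξ⟩ ⟨y', e', t', ξ'⟩ h1 h2
    rw [hpos, mask_eq_iff] at h1
    rw [hfib, mask_eq_iff] at h2
    simp only [rpos, rfib, xs₀_apply, add_sub_cancel, forall_const] at h1 h2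
    obtain ⟨ha, hc, rfl, hξ⟩ := h1
    obtain ⟨-, -, -, hz⟩ := h2
    have hzu := hz u (by simp)
    have hzw := hz w (by simp)
    have hp := p.2 u w huw
    have hku : (sg u).kind (ξ u) = (sg u).kind (ξ' u) := by
      have := congrArg (sg u).kind hzu
      rwa [(sg u).kind_act, (sg u).kind_act] at this
    have hkw : (sg w).kind (ξ w) = (sg w).kind (ξ' w) := by
      have := congrArg (sg w).kind hzw
      rwa [(sg w).kind_act, (sg w).kind_act] at this
    have htu := congrArg (sg u).th hzu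
    have htw := congrArg (sg w).th hzw
    rw [(sg u).th_act, (sg u).th_act] at htu
    rw [(sg w).th_act, (sg w).th_act] at htw
    have hr := rth_two sg hne t hξ
    rw [← hku, hu] at htu hzu
    rw [← hkw, hw, sym_nxt _ y e _ _ hp, sym_nxt _ y' e' _ _ hp] at htw hzw
    obtain ⟨h3, h4, h5⟩ := local₂ (k₀ := (sg u).kind (ξ u)) (k₁ := (sg w).kind (ξ w))
      (θ := rth sg t ξ) (θ' := rth sg t ξ') (f := sym (sig (rth sg t ξ)) y e (p.1 u))
      (f' := sym (sig (rth sg t ξ')) y' e' (p.1 u))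
      (s := sOf (sig (rth sg t ξ)) y (p.1 w - p.1 u))
      (s' := sOf (sig (rth sg t ξ')) y' (p.1 w - p.1 u))
      (by rw [locA_sOf, locA_sOf, ha]) (by rw [locC_sym, locC_sym, hc])
      (by linear_combination (exp := 1) hr + htu + htw)
    rw [← h4, ← h3] at hzu
    rw [← h5, ← h4, ← h3] at hzw
    have hu' := (sg u).act_inj _ _ _ hzu
    have hw' := (sg w).act_inj _ _ _ hzw
    rw [← h3] at h4 h5
    obtain rfl := sym_inj₂ _ _ _ _ (sub_ne_zero.2 hp.symm) h5
    obtain rfl := sym_inj₁ _ _ _ _ _ h4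
    obtain rfl : ξ = ξ' := funext fun v => by
      by_cases hv : v = u
      · rw [hv]; exact hu'
      · by_cases hv' : v = w
        · rw [hv']; exact hw'
        · exact hξ v (by tauto)
    rfl
  · rintro p p' ⟨y, e, t, ξ⟩
    by_cases hσ : sig (rth sg t ξ) = 0
    · exact ⟨(y, e, t, ξ), rfl, by
        rw [hfib, hfib, rfib_spread sg ty (i := (y, e, t, ξ)) hσ p.1 p'.1]⟩
    · obtain ⟨y', e', h1, h2⟩ := exists_resym y e _ _ _ _ (p.2 u w huw) (p'.2 u w huw)
      refine ⟨(y', e', t, ξ), 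
      by rw [hpos]; exact rpos_cluster sg hσ _ _ _ _, ?_⟩
      rw [hfib, hfib, mask_eq_iff]
      refine ⟨by simp, by simp, by simp, fun v hv => ?_⟩
      rcases not_not.1 hv with rfl | rfl
      · simp only [rfib, sym, hσ, if_false, h1]
      · simp only [rfib, sym, hσ, if_false, h2]

theorem cond_vertex (u : V) (h : ℤ × ℤ) (hh : h = 0) (η : Ph ℓ) (hη : η.1 = 1)
    (hη' : η.2.2.2 u = 0) :
    S.Cond ((mask ℓ False True True (fun _ => True)).comp (xs₀ ℓ))
      (mask ℓ True False False (fun v => v = u)) h η := by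
  rintro j ⟨y, e, t, ξ⟩
  subst hh
  by_cases hσ : sig (rth sg t ξ) = 0
  · refine Or.inr ⟨(y + 1, e, t, ξ), ?_, fun p => ?_⟩
    · rw [hpos, AddMonoidHom.comp_apply, AddMonoidHom.comp_apply, mask_eq_iff]
      simp [rpos]
    · rw [hfib, hfib, mask_eq_iff]
      refine ⟨fun _ => by simp [rfib, hη], by simp, by simp, ?_⟩
      rintro v rfl
      simp [rfib, sym, hσ, hη']
  · refine Or.inl ⟨(y + 1, e + 2 * sgn y * (S.ε j).1 u, t, ξ), 
      by rw [hpos]; exact rpos_cluster sg hσ _ _ _ _, ?_⟩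
    rw [hfib, hfib, mask_eq_iff]
    refine ⟨fun _ => by simp [rfib, hη], by simp, by simp, ?_⟩
    rintro v rfl
    simp only [rfib, sym, hσ, if_false, add_zero, Prod.snd_add, Pi.add_apply, hη', sgn_add_one]
    congr 2
    ring

theorem cond₁ (h : ℤ × ℤ) (η : Ph ℓ) :
    S.Cond ((mask ℓ True True True (fun _ => True)).comp (xs₁ ℓ))
      (mask ℓ False False True (fun _ => False)) h η := by
  intro j i
  obtain ⟨i', h1, h2⟩ := (isKey₁ sg ty S hpos hfib).surj (S.ε j) (S.pos i) (S.fib (S.ε j) i + η)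
  refine Or.inr ⟨i', ?_, fun p => ?_⟩
  · rw [hpos, AddMonoidHom.comp_apply, AddMonoidHom.comp_apply, mask_eq_iff] at h1 ⊢
    obtain ⟨y, e, t, ξ⟩ := i
    obtain ⟨y', e', t', ξ'⟩ := i'
    simp only [rpos, xs₁_apply, forall_const] at h1 ⊢
    obtain rfl : ξ' = ξ := funext h1.2.2.2
    refine ⟨h1.1, h1.2.1, ?_, fun _ => rfl⟩
    simp only [rg, h1.1, h1.2.1, rth_fst sg t' t]
  · rw [hfib, mask_eq_iff] at h2
    rw [hfib, hfib, mask_eq_iff]
    exact ⟨by simp, by simp, fun _ => h2.2.2.1 (by simp), by simp⟩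

theorem cond₂ (h : ℤ × ℤ) (η : Ph ℓ) :
    S.Cond ((mask ℓ True True True (fun _ => True)).comp (xs₂ ℓ))
      (mask ℓ False False True (fun _ => False)) h η := by
  intro j i
  obtain ⟨i', h1, h2⟩ := (isKey₂ sg ty S hpos hfib).surj (S.ε j) (S.pos i) (S.fib (S.ε j) i + η)
  refine Or.inr ⟨i', ?_, fun p => ?_⟩
  · rw [hpos, AddMonoidHom.comp_apply, AddMonoidHom.comp_apply, mask_eq_iff] at h1 ⊢
    obtain ⟨y, e, t, ξ⟩ := i
    obtain ⟨y', e', t', ξ'⟩ := i'
    simp only [rpos, xs₂_apply, forall_const] at h1 ⊢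
    obtain rfl : ξ' = ξ := funext h1.2.2.2
    refine ⟨h1.1, h1.2.1, ?_, fun _ => rfl⟩
    have a1 := local₅ (rth sg t ξ') y e
    have a2 := local₅ (rth sg t' ξ') y' e'
    rw [h1.1, h1.2.1, rth_fst sg t' t] at a2
    rw [rth_thd] at a1 a2
    simp only [rg, h1.2.1, rth_fst sg t' t]
    linear_combination a2 - a1
  · rw [hfib, mask_eq_iff] at h2
    rw [hfib, hfib, mask_eq_iff]
    exact ⟨by simp, by simp, fun _ => h2.2.2.1 (by simp), by simp⟩

theorem cond_inv (u : V) (h : ℤ × ℤ) (s : Bool) (η : Ph ℓ) (hη : η.1 = if s then 1 else 0)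
    (hη₂ : η.2.1 = 0) (hη' : η.2.2.2 u = 0)
    (hε : ∀ j, (S.ε (j + h)).1 u = if s then -(S.ε j).1 u else (S.ε j).1 u) :
    S.Cond ((mask ℓ False False True (fun _ => True)).comp (xs₀ ℓ))
      (mask ℓ True True False (fun v => v = u)) h η := by
  rintro j ⟨y, e, t, ξ⟩
  by_cases hσ : sig (rth sg t ξ) = 0
  · refine Or.inr ⟨(y + η.1, e, t, ξ), ?_, fun p => ?_⟩
    · rw [hpos, AddMonoidHom.comp_apply, AddMonoidHom.comp_apply, mask_eq_iff]
      simp [rpos]
    · rw [hfib, hfib, mask_eq_iff]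
      refine ⟨fun _ => by simp [rfib], fun _ => by simp [rfib, hη₂], by simp, ?_⟩
      rintro v rfl
      simp [rfib, sym, hσ, hη']
  · refine Or.inl ⟨(y + η.1, e, t, ξ), 
      by rw [hpos]; exact rpos_cluster sg hσ _ _ _ _, ?_⟩
    rw [hfib, hfib, mask_eq_iff]
    refine ⟨fun _ => by simp [rfib], fun _ => by simp [rfib, hη₂], by simp, ?_⟩
    rintro v rfl
    simp only [rfib, sym, hσ, if_false, add_zero, Prod.snd_add, Pi.add_apply, hη', hη, hε]
    congr 2
    cases s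
    · simp
    · simp [sgn_add_one]

end

end Crest.Agent.R46
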