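import Crest.Agent.R46.Local

/-! Row 46: attribute groups, masks and the rows of the intended solution. -/

set_option autoImplicit false

namespace Crest.Agent.R46

variable {V : Type}

/-- fibre attributes `(y, e, z, (z v))`; also the index set `(y, e, t, (ξ v))` of the rows. -/
abbrev Ph (ℓ : V → ℕ) := ZMod 2 × ZMod 3 × ZMod 7 × (∀ v, ZMod (ℓ v))

/-- position attributes `((a, a'), c, (g₁, g₂), (ξ v))`. -/
abbrev Xp (ℓ : V → ℕ) := (ZMod 2 × ZMod 2) × ZMod 3 × (ZMod 7 × ZMod 7) × (∀ v, ZMod (ℓ v))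

open Classical in
/-- keep the selected components. -/
noncomputable def mask (ℓ : V → ℕ) (b₂ b₃ b₇ : Prop) (U : V → Prop) : Ph ℓ →+ Ph ℓ where
  toFun φ := (if b₂ then φ.1 else 0, if b₃ then φ.2.1 else 0, if b₇ then φ.2.2.1 else 0,
    fun v => if U v then φ.2.2.2 v else 0)
  map_zero' := by
    refine Prod.ext ?_ (Prod.ext ?_ (Prod.ext ?_ ?_))
    · simp
    · simp
    · simp
    · funext v; simp
  map_add' x y := by
    refine Prod.ext ?_ (Prod.ext ?_ (Prod.ext ?_ ?_))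
    · by_cases h : b₂ <;> simp [h]
    · by_cases h : b₃ <;> simp [h]
    · by_cases h : b₇ <;> simp [h]
    · funext v; by_cases h : U v <;> simp [h]

theorem mask_eq_iff {ℓ : V → ℕ} {b₂ b₃ b₇ : Prop} {U : V → Prop} {φ φ' : Ph ℓ} :
    mask ℓ b₂ b₃ b₇ U φ = mask ℓ b₂ b₃ b₇ U φ' ↔ (b₂ → φ.1 = φ'.1) ∧ (b₃ → φ.2.1 = φ'.2.1) ∧
      (b₇ → φ.2.2.1 = φ'.2.2.1) ∧ ∀ v, U v → φ.2.2.2 v = φ'.2.2.2 v := by
  simp only [mask, AddMonoidHom.coe_mk, ZeroHom.coe_mk, Prod.mk.injEq, funext_iff]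
  refine and_congr ?_ (and_congr ?_ (and_congr ?_ (forall_congr' fun v => ?_)))
  · by_cases h : b₂ <;> simp [h]
  · by_cases h : b₃ <;> simp [h]
  · by_cases h : b₇ <;> simp [h]
  · by_cases h : U v <;> simp [h]

theorem mask_eq_zero_iff {ℓ : V → ℕ} {b₂ b₃ b₇ : Prop} {U : V → Prop} {φ : Ph ℓ} :
    mask ℓ b₂ b₃ b₇ U φ = 0 ↔ (b₂ → φ.1 = 0) ∧ (b₃ → φ.2.1 = 0) ∧
      (b₇ → φ.2.2.1 = 0) ∧ ∀ v, U v → φ.2.2.2 v = 0 := by
  rw [← map_zero (mask ℓ b₂ b₃ b₇ U), mask_eq_iff]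
  rfl

theorem mask_add_compl {ℓ : V → ℕ} {b₂ b₃ b₇ : Prop} {U : V → Prop} {p q p' q' : Ph ℓ}
    (h : mask ℓ b₂ b₃ b₇ U p + mask ℓ (¬ b₂) (¬ b₃) (¬ b₇) (fun v => ¬ U v) q =
      mask ℓ b₂ b₃ b₇ U p' + mask ℓ (¬ b₂) (¬ b₃) (¬ b₇) (fun v => ¬ U v) q') :
    mask ℓ b₂ b₃ b₇ U p = mask ℓ b₂ b₃ b₇ U p' ∧
      mask ℓ (¬ b₂) (¬ b₃) (¬ b₇) (fun v => ¬ U v) q =
        mask ℓ (¬ b₂) (¬ b₃) (¬ b₇) (fun v => ¬ U v) q' := by
  have h1 := congrArg Prod.fst h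
  have h2 := congrArg (fun x => x.2.1) h
  have h3 := congrArg (fun x => x.2.2.1) h
  have h4 := fun v => congrArg (fun x => x.2.2.2 v) h
  simp only [mask, AddMonoidHom.coe_mk, ZeroHom.coe_mk, Prod.fst_add, Prod.snd_add,
    Pi.add_apply] at h1 h2 h3 h4
  rw [mask_eq_iff, mask_eq_iff]
  refine ⟨⟨fun hb => by simpa [hb] using h1, fun hb => by simpa [hb] using h2,
    fun hb => by simpa [hb] using h3, fun v hb => by simpa [hb] using h4 v⟩,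
    ⟨fun hb => by simpa [hb] using h1, fun hb => by simpa [hb] using h2,
    fun hb => by simpa [hb] using h3, fun v hb => by simpa [hb] using h4 v⟩⟩

/-- `(a, c, g₁ + g₂, ξ)`. -/
def xs₀ (ℓ : V → ℕ) : Xp ℓ →+ Ph ℓ where
  toFun x := (x.1.1, x.2.1, x.2.2.1.1 + x.2.2.1.2, x.2.2.2)
  map_zero' := by simp
  map_add' x y := by simp [add_add_add_comm]

/-- `(a, c, g₁, ξ)`. -/
def xs₁ (ℓ : V → ℕ) : Xp ℓ →+ Ph ℓ where
  toFun x := (x.1.1, x.2.1, x.2.2.1.1, x.2.2.2)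
  map_zero' := by simp
  map_add' x y := by simp

/-- `(a', c, g₂, ξ)`. -/
def xs₂ (ℓ : V → ℕ) : Xp ℓ →+ Ph ℓ where
  toFun x := (x.1.2, x.2.1, x.2.2.1.2, x.2.2.2)
  map_zero' := by simp
  map_add' x y := by simp

@[simp] theorem xs₀_apply (ℓ : V → ℕ) (x : Xp ℓ) :
    xs₀ ℓ x = (x.1.1, x.2.1, x.2.2.1.1 + x.2.2.1.2, x.2.2.2) := rfl

@[simp] theorem xs₁_apply (ℓ : V → ℕ) (x : Xp ℓ) :
    xs₁ ℓ x = (x.1.1, x.2.1, x.2.2.1.1, x.2.2.2) := rfl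

@[simp] theorem xs₂_apply (ℓ : V → ℕ) (x : Xp ℓ) :
    xs₂ ℓ x = (x.1.2, x.2.1, x.2.2.1.2, x.2.2.2) := rfl

/-- injectivity and independence give a key (surjectivity by counting). -/
theorem isKey_of_inj [Finite V] {ℓ : V → ℕ} [∀ v, NeZero (ℓ v)] {P : Type}
    (S : Setup (Xp ℓ) (Ph ℓ) (Ph ℓ) P) (xs : Xp ℓ →+ Ph ℓ) (b₂ b₃ b₇ : Prop) (U : V → Prop)
    (hinj : ∀ p i i', mask ℓ b₂ b₃ b₇ U (xs (S.pos i)) = mask ℓ b₂ b₃ b₇ U (xs (S.pos i')) →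
      mask ℓ (¬ b₂) (¬ b₃) (¬ b₇) (fun v => ¬ U v) (S.fib p i) =
        mask ℓ (¬ b₂) (¬ b₃) (¬ b₇) (fun v => ¬ U v) (S.fib p i') → i = i')
    (hind : ∀ p p' i, ∃ i', S.pos i' = S.pos i ∧
      mask ℓ (¬ b₂) (¬ b₃) (¬ b₇) (fun v => ¬ U v) (S.fib p' i') =
        mask ℓ (¬ b₂) (¬ b₃) (¬ b₇) (fun v => ¬ U v) (S.fib p i)) :
    S.IsKey ((mask ℓ b₂ b₃ b₇ U).comp xs) (mask ℓ (¬ b₂) (¬ b₃) (¬ b₇) (fun v => ¬ U v)) where
  inj := hinj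
  indep := hind
  surj p x φ := by
    have hi : Function.Injective (fun i => mask ℓ b₂ b₃ b₇ U (xs (S.pos i)) +
        mask ℓ (¬ b₂) (¬ b₃) (¬ b₇) (fun v => ¬ U v) (S.fib p i)) := by
      intro i i' h
      exact hinj p i i' (mask_add_compl h).1 (mask_add_compl h).2
    obtain ⟨i, hi⟩ := Finite.injective_iff_surjective.1 hi (mask ℓ b₂ b₃ b₇ U (xs x) +
        mask ℓ (¬ b₂) (¬ b₃) (¬ b₇) (fun v => ¬ U v) φ)
    exact ⟨i, (mask_add_compl hi).1, (mask_add_compl hi).2⟩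

section rows

variable [Fintype V] {ℓ : V → ℕ} (sg : ∀ v, SegStr (ZMod (ℓ v))) (ty : V → Bool)

/-- block parameter of a row. -/
def rth (t : ZMod 7) (ξ : ∀ v, ZMod (ℓ v)) : Th := ∑ v, (sg v).th (ξ v) - (0, 0, t)

/-- first coordinate modulo 7 of a row. -/
def rg (i : Ph ℓ) : ZMod 7 := 4 * minv (rth sg i.2.2.1 i.2.2.2).1 *
  unc (locA (sig (rth sg i.2.2.1 i.2.2.2)) i.1) (locC (sig (rth sg i.2.2.1 i.2.2.2)) i.2.1)

/-- position class of a row. -/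
def rpos (i : Ph ℓ) : Xp ℓ :=
  ((locA (sig (rth sg i.2.2.1 i.2.2.2)) i.1, locB (sig (rth sg i.2.2.1 i.2.2.2)) i.1),
    locC (sig (rth sg i.2.2.1 i.2.2.2)) i.2.1, (rg sg i, i.2.2.1 - rg sg i), i.2.2.2)

/-- symbol of a vertex of colour `c` in a row. -/
def sym (σ : ZMod 7) (y : ZMod 2) (e c : ZMod 3) : ZMod 3 := if σ = 0 then e else e + sgn y * c

/-- fibre value of a row. -/
def rfib (p : V → ZMod 3) (i : Ph ℓ) : Ph ℓ :=
  (i.1, i.2.1, locZ (sig (rth sg i.2.2.1 i.2.2.2)) i.1 i.2.1, fun v => (sg v).act (i.2.2.2 v)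
    (disp ((sg v).kind (i.2.2.2 v)) (ty v) (rth sg i.2.2.1 i.2.2.2)
      (sym (sig (rth sg i.2.2.1 i.2.2.2)) i.1 i.2.1 (p v))))

theorem rth_fst (t t' : ZMod 7) (ξ : ∀ v, ZMod (ℓ v)) : (rth sg t ξ).1 = (rth sg t' ξ).1 := by
  simp [rth]

theorem rth_thd (t : ZMod 7) (ξ : ∀ v, ZMod (ℓ v)) :
    (rth sg t ξ).2.2 = (∑ v, (sg v).th (ξ v)).2.2 - t := by
  simp [rth]

theorem sig_rth_inj {t t' : ZMod 7} {ξ : ∀ v, ZMod (ℓ v)}
    (h : sig (rth sg t ξ) = sig (rth sg t' ξ)) : t = t' := by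
  unfold sig at h
  rw [rth_fst sg t t'] at h
  have := local₆ _ _ _ h
  rw [rth_thd, rth_thd] at this
  linear_combination this

theorem rth_one [DecidableEq V] (u : V) (t : ZMod 7) {ξ ξ' : ∀ v, ZMod (ℓ v)}
    (h : ∀ v, ¬ v = u → ξ v = ξ' v) :
    rth sg t ξ - (sg u).th (ξ u) = rth sg t ξ' - (sg u).th (ξ' u) := by
  unfold rth
  rw [← Finset.add_sum_erase _ _ (Finset.mem_univ u), ← Finset.add_sum_erase _ _ (Finset.mem_univ u),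
    Finset.sum_congr rfl (fun v hv => by rw [h v (Finset.ne_of_mem_erase hv)])]
  abel

theorem rth_two [DecidableEq V] {u w : V} (huw : u ≠ w) (t : ZMod 7) {ξ ξ' : ∀ v, ZMod (ℓ v)}
    (h : ∀ v, ¬ (v = u ∨ v = w) → ξ v = ξ' v) :
    rth sg t ξ - (sg u).th (ξ u) - (sg w).th (ξ w) =
      rth sg t ξ' - (sg u).th (ξ' u) - (sg w).th (ξ' w) := by
  have h1 := rth_one sg u t (ξ := ξ) (ξ' := Function.update ξ u (ξ' u))
    (fun v hv => by rw [Function.update_of_ne hv])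
  have h2 := rth_one sg w t (ξ := Function.update ξ u (ξ' u)) (ξ' := ξ') (fun v hv => by
    by_cases hu : v = u
    · subst hu; simp
    · rw [Function.update_of_ne hu]; exact h v (by tauto))
  rw [Function.update_self] at h1
  rw [Function.update_of_ne huw.symm] at h2
  rw [h1]
  linear_combination (exp := 1) h2

end rows

end Crest.Agent.R46
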