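import Crest.Agent.R46.Rows

/-! Row 46: a set of rows satisfying all keys and invariances yields a weak colouring solution. -/

set_option autoImplicit false

namespace Crest.Agent.R46

variable {V : Type}

/-- from the value tables on the full clusters to permutations. -/
theorem not_per_of_tables {T : V → Type} {E : V → V → Prop} {Inv : Finset (V × (ℤ × ℤ) × Bool)}
    (hap : ∀ π, PermSol E Inv π → ¬ Per π) (Z : ℤ × ℤ → ∀ u, ZMod 2 → ZMod 3 → T u)
    (hinj : ∀ j u y e e', Z j u y e = Z j u y e' → e = e')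
    (hex : ∀ j u e, ∃ e', Z j u 1 e' = Z j u 0 e)
    (hedge : ∀ j u w, E u w → ∀ e e', Z j u 0 e = Z j u 1 e' → Z j w 0 e = Z j w 1 e' → False)
    (hinv : ∀ u h s, (u, h, s) ∈ Inv → ∀ j y e,
      Z (j + h) u (y + if s then 1 else 0) e = Z j u y e) : ¬ Per Z := by
  choose f hf using hex
  have fi : ∀ j u, Function.Injective (f j u) := fun j u e e' h =>
    hinj j u 0 e e' (by rw [← hf, ← hf, h])
  let π : ℤ × ℤ → V → Equiv.Perm (ZMod 3) := fun j u =>
    Equiv.ofBijective (f j u) (Finite.injective_iff_bijective.1 (fi j u))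
  have hπ : ∀ j u e, Z j u 1 (π j u e) = Z j u 0 e := hf
  have h11 : (1 + 1 : ZMod 2) = 0 := by decide
  rintro ⟨k, hk, hper⟩
  refine hap π ⟨fun j u w huw e h => ?_, fun u h s hs j => ?_, fun u hu j => ?_⟩
    ⟨k, hk, fun j h => ?_⟩
  · exact hedge j u w huw e (π j u e) (hπ j u e).symm (by rw [h]; exact (hπ j w e).symm)
  · have h0 := hinv u h s hs j 0
    have h1 := hinv u h s hs j 1
    cases s
    · simp only [Bool.false_eq_true, if_false, add_zero] at h0 h1 ⊢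
      ext e
      exact hinj (j + h) u 1 _ _ (by rw [hπ, h0, h1, hπ])
    · simp only [if_true, zero_add, h11] at h0 h1 ⊢
      rw [eq_inv_iff_mul_eq_one]
      ext e
      exact hinj (j + h) u 1 _ _ (by
        rw [Equiv.Perm.mul_apply, hπ, h1, hπ, Equiv.Perm.one_apply, h0])
  · have h0 := hinv u 0 true hu j 0
    simp only [if_true, zero_add, add_zero] at h0
    ext e
    exact hinj j u 1 _ _ (by rw [hπ, Equiv.Perm.one_apply, h0])
  · funext u
    ext e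
    exact hinj j u 1 _ _ (by rw [hπ, ← hper j h, hπ])

section

variable {ℓ : V → ℕ} {ρ : ℤ × ℤ →+ Xp ℓ} {ι : ℤ × ℤ →+ ℤ × ℤ} {A : Set ((ℤ × ℤ) × Ph ℓ)}

/-- functional dependency from a key and an invariance. -/
theorem fun_dep (xs : Xp ℓ →+ Ph ℓ)
    (hK : KeyProp ρ ι ((mask ℓ True True False (fun _ => True)).comp xs)
      (mask ℓ (¬ True) (¬ True) (¬ False) (fun _ => ¬ True)) A)
    (hW : InvProp ρ ι ((mask ℓ True True True (fun _ => True)).comp xs)
      (mask ℓ False False True (fun _ => False)) 0 (0, 0, 1, 0) A)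
    {r r' : (ℤ × ℤ) × Ph ℓ} (hr : r ∈ A) (hr' : r' ∈ A) (h₁ : (xs (ρ r.1)).1 = (xs (ρ r'.1)).1)
    (h₂ : (xs (ρ r.1)).2.1 = (xs (ρ r'.1)).2.1) (h₃ : (xs (ρ r.1)).2.2.2 = (xs (ρ r'.1)).2.2.2) :
    (xs (ρ r.1)).2.2.1 = (xs (ρ r'.1)).2.2.1 := by
  have it : ∀ n : ℕ, ∃ q ∈ A, xs (ρ q.1) = xs (ρ r.1) ∧ q.2.2.2.1 = r.2.2.2.1 + n := by
    intro n
    induction n with
    | zero => exact ⟨r, hr, rfl, by simp⟩
    | succ n ih =>
      obtain ⟨q, hq, h1, h2⟩ := ih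
      obtain ⟨q', hq', h3, h4, -⟩ := hW q hq
      rw [AddMonoidHom.comp_apply, AddMonoidHom.comp_apply, mask_eq_iff] at h3
      rw [mask_eq_iff] at h4
      refine ⟨q', hq', ?_, ?_⟩
      · rw [← h1]
        exact Prod.ext (h3.1 trivial) (Prod.ext (h3.2.1 trivial) (Prod.ext (h3.2.2.1 trivial)
          (funext fun v => h3.2.2.2 v trivial)))
      · rw [h4.2.2.1 trivial]
        simp only [Prod.snd_add, Prod.fst_add, h2]
        push_cast
        ring
  obtain ⟨q, hq, h1, h2⟩ := it (r'.2.2.2.1 - r.2.2.2.1).val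
  have h3 := hK.uniq₁ q hq r' hr' (by
    rw [AddMonoidHom.comp_apply, AddMonoidHom.comp_apply, mask_eq_iff, h1]
    exact ⟨fun _ => h₁, fun _ => h₂, False.elim, fun v _ => congrFun h₃ v⟩) (by
    rw [mask_eq_iff]
    refine ⟨by simp, by simp, fun _ => ?_, by simp⟩
    rw [h2]
    simp)
  rw [← h1, h3]

/-- pigeonhole: some residue `t` has all its rows in one position class. -/
theorem exists_cluster
    (hK₁ : KeyProp ρ ι ((mask ℓ True True False (fun _ => True)).comp (xs₁ ℓ))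
      (mask ℓ (¬ True) (¬ True) (¬ False) (fun _ => ¬ True)) A)
    (hK₂ : KeyProp ρ ι ((mask ℓ True True False (fun _ => True)).comp (xs₂ ℓ))
      (mask ℓ (¬ True) (¬ True) (¬ False) (fun _ => ¬ True)) A)
    (hW₁ : InvProp ρ ι ((mask ℓ True True True (fun _ => True)).comp (xs₁ ℓ))
      (mask ℓ False False True (fun _ => False)) 0 (0, 0, 1, 0) A)
    (hW₂ : InvProp ρ ι ((mask ℓ True True True (fun _ => True)).comp (xs₂ ℓ))
      (mask ℓ False False True (fun _ => False)) 0 (0, 0, 1, 0) A) :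
    ∃ t : ZMod 7, ∀ r ∈ A, ∀ r' ∈ A, (xs₀ ℓ (ρ r.1)).2.2 = (t, 0) →
      (xs₀ ℓ (ρ r'.1)).2.2 = (t, 0) → ρ r.1 = ρ r'.1 := by
  have key : ∀ r ∈ A, ∀ r' ∈ A, (ρ r.1).1 = (ρ r'.1).1 → (ρ r.1).2.1 = (ρ r'.1).2.1 →
      (ρ r.1).2.2.2 = (ρ r'.1).2.2.2 → ρ r.1 = ρ r'.1 := by
    intro r hr r' hr' h1 h2 h3
    have a1 := fun_dep (xs₁ ℓ) hK₁ hW₁ hr hr' (Prod.ext_iff.1 h1).1 h2 h3
    have a2 := fun_dep (xs₂ ℓ) hK₂ hW₂ hr hr' (Prod.ext_iff.1 h1).2 h2 h3
    exact Prod.ext h1 (Prod.ext h2 (Prod.ext (Prod.ext a1 a2) h3))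
  by_contra hcon
  push Not at hcon
  choose r hr r' hr' h1 h2 h3 using hcon
  let q : ZMod 7 × Bool → (ℤ × ℤ) × Ph ℓ := fun p => if p.2 then r p.1 else r' p.1
  have hq : ∀ p, q p ∈ A ∧ (xs₀ ℓ (ρ (q p).1)).2.2 = (p.1, 0) := by
    rintro ⟨t, b⟩
    cases b
    · exact ⟨hr' t, h2 t⟩
    · exact ⟨hr t, h1 t⟩
  have hi : Function.Injective (fun p => ((ρ (q p).1).1, (ρ (q p).1).2.1)) := by
    intro p p' h
    have e1 := (hq p).2
    have e2 := (hq p').2
    have e3 := key _ (hq p).1 _ (hq p').1 (Prod.ext_iff.1 h).1 (Prod.ext_iff.1 h).2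
      ((congrArg Prod.snd e1).trans (congrArg Prod.snd e2).symm)
    rw [e3, e2] at e1
    obtain ⟨t, b⟩ := p
    obtain ⟨t', b'⟩ := p'
    obtain rfl : t' = t := congrArg Prod.fst e1
    cases b <;> cases b'
    · rfl
    · exact absurd e3.symm (h3 t')
    · exact absurd e3 (h3 t')
    · rfl
  have := Fintype.card_le_of_injective _ hi
  simp at this

theorem sound {E : V → V → Prop} {Inv : Finset (V × (ℤ × ℤ) × Bool)}
    (hap : ∀ π, PermSol E Inv π → ¬ Per π) (hker : ∀ x, ρ x = 0 ↔ ∃ h, ι h = x)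
    (hK₀ : KeyProp ρ ι ((mask ℓ False False True (fun _ => True)).comp (xs₀ ℓ))
      (mask ℓ (¬ False) (¬ False) (¬ True) (fun _ => ¬ True)) A)
    (hK₁ : KeyProp ρ ι ((mask ℓ True True False (fun _ => True)).comp (xs₁ ℓ))
      (mask ℓ (¬ True) (¬ True) (¬ False) (fun _ => ¬ True)) A)
    (hK₂ : KeyProp ρ ι ((mask ℓ True True False (fun _ => True)).comp (xs₂ ℓ))
      (mask ℓ (¬ True) (¬ True) (¬ False) (fun _ => ¬ True)) A)
    (hKu : ∀ u, KeyProp ρ ι ((mask ℓ False True True (fun v => ¬ v = u)).comp (xs₀ ℓ))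
      (mask ℓ (¬ False) (¬ True) (¬ True) (fun v => ¬ ¬ v = u)) A)
    (hKe : ∀ u w, E u w →
      KeyProp ρ ι ((mask ℓ True True True (fun v => ¬ (v = u ∨ v = w))).comp (xs₀ ℓ))
        (mask ℓ (¬ True) (¬ True) (¬ True) (fun v => ¬ ¬ (v = u ∨ v = w))) A)
    (hW₁ : InvProp ρ ι ((mask ℓ True True True (fun _ => True)).comp (xs₁ ℓ))
      (mask ℓ False False True (fun _ => False)) 0 (0, 0, 1, 0) A)
    (hW₂ : InvProp ρ ι ((mask ℓ True True True (fun _ => True)).comp (xs₂ ℓ))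
      (mask ℓ False False True (fun _ => False)) 0 (0, 0, 1, 0) A)
    (hWu : ∀ u, InvProp ρ ι ((mask ℓ False True True (fun _ => True)).comp (xs₀ ℓ))
      (mask ℓ True False False (fun v => v = u)) 0 (1, 0, 0, 0) A)
    (hWv : ∀ u h s, (u, h, s) ∈ Inv →
      InvProp ρ ι ((mask ℓ False False True (fun _ => True)).comp (xs₀ ℓ))
        (mask ℓ True True False (fun v => v = u)) h (if s then 1 else 0, 0, 0, 0) A) :
    ¬ PerSet A := by
  obtain ⟨t, ht⟩ := exists_cluster hK₁ hK₂ hW₁ hW₂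
  have hρι : ∀ h, ρ (ι h) = 0 := fun h => (hker _).2 ⟨h, rfl⟩
  have ex0 : ∀ y e, ∃ r ∈ A, (xs₀ ℓ (ρ r.1)).2.2 = (t, 0) ∧ r.2.1 = y ∧ r.2.2.1 = e := by
    intro y e
    obtain ⟨r, hr, h1, h2⟩ := hK₀.ex (0, 0, (t, 0), 0) (y, e, 0, 0)
    rw [AddMonoidHom.comp_apply, AddMonoidHom.comp_apply, mask_eq_iff] at h1
    rw [mask_eq_iff] at h2
    refine ⟨r, hr, Prod.ext ?_ (funext fun v => h1.2.2.2 v trivial), h2.1 (by simp),
      h2.2.1 (by simp)⟩
    simpa using h1.2.2.1 trivial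
  obtain ⟨r₀, hr₀, h₀, -⟩ := ex0 0 0
  have exR : ∀ j y e, ∃ φ : Ph ℓ, (r₀.1 + ι j, φ) ∈ A ∧ φ.1 = y ∧ φ.2.1 = e := by
    intro j y e
    obtain ⟨r, hr, h1, h2, h3⟩ := ex0 y e
    obtain ⟨h, hh⟩ := (hker (r₀.1 - r.1)).1 (by rw [map_sub, ht r₀ hr₀ r hr h₀ h1, sub_self])
    obtain ⟨r', hr', h4, h5⟩ := hK₀.per r hr (h + j)
    rw [mask_eq_iff] at h5
    refine ⟨r'.2, ?_, (h5.1 (by simp)).trans h2, (h5.2.1 (by simp)).trans h3⟩
    have : r₀.1 + ι j = r'.1 := by rw [h4, map_add, hh]; abel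
    rw [this]
    exact hr'
  choose R hR hRy hRe using exR
  have uR : ∀ j φ, (r₀.1 + ι j, φ) ∈ A → φ = R j φ.1 φ.2.1 := by
    intro j φ hφ
    have := hK₀.uniq₂ _ hφ _ (hR j φ.1 φ.2.1) rfl (by
      rw [mask_eq_iff]
      exact ⟨fun _ => (hRy _ _ _).symm, fun _ => (hRe _ _ _).symm, by simp, by simp⟩)
    exact congrArg Prod.snd this
  have back : ∀ j (r' : (ℤ × ℤ) × Ph ℓ), r' ∈ A →
      (xs₀ ℓ (ρ r'.1)).2.2.1 = (xs₀ ℓ (ρ (r₀.1 + ι j))).2.2.1 →
      (∀ v, (xs₀ ℓ (ρ r'.1)).2.2.2 v = (xs₀ ℓ (ρ (r₀.1 + ι j))).2.2.2 v) →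
      ρ r'.1 = ρ (r₀.1 + ι j) := by
    intro j r' hr' h1 h2
    rw [map_add, hρι, add_zero] at h1 h2 ⊢
    refine ht r' hr' r₀ hr₀ ?_ h₀
    rw [← h₀]
    exact Prod.ext h1 (funext h2)
  rintro ⟨k, hk, hper⟩
  refine not_per_of_tables hap (fun j u y e => (R j y e).2.2.2 u) ?_ ?_ ?_ ?_ ⟨k, hk, ?_⟩
  · intro j u y e e' h
    have := (hKu u).uniq₂ _ (hR j y e) _ (hR j y e') rfl (by
      rw [mask_eq_iff]
      refine ⟨fun _ => by simp only [hRy], by simp, by simp, fun v hv => ?_⟩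
      obtain rfl : v = u := not_not.1 hv
      exact h)
    have h3 := congrArg (fun r => r.2.2.1) this
    simpa only [hRe] using h3
  · intro j u e
    obtain ⟨r', hr', h1, h2, h3⟩ := hWu u _ (hR j 0 e)
    rw [AddMonoidHom.comp_apply, AddMonoidHom.comp_apply, mask_eq_iff] at h1
    rw [mask_eq_iff] at h2
    have h4 := h3 (back j r' hr' (h1.2.2.1 trivial) (fun v => h1.2.2.2 v trivial))
    rw [map_zero, add_zero] at h4
    have h5 := uR j r'.2 (by rw [← show r'.1 = r₀.1 + ι j from h4]; exact hr')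
    have h6 : r'.2.1 = 1 := by simpa [hRy] using h2.1 trivial
    refine ⟨r'.2.2.1, ?_⟩
    rw [← h6, ← h5]
    simpa using h2.2.2.2 u rfl
  · intro j u w huw e e' h1 h2
    have := (hKe u w huw).uniq₂ _ (hR j 0 e) _ (hR j 1 e') rfl (by
      rw [mask_eq_iff]
      refine ⟨by simp, by simp, by simp, fun v hv => ?_⟩
      rcases not_not.1 hv with rfl | rfl
      · exact h1
      · exact h2)
    have h3 := congrArg (fun r => r.2.1) this
    simp only [hRy] at h3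
    exact absurd h3 (by decide)
  · intro u h s hs j y e
    obtain ⟨r', hr', h1, h2, h3⟩ := hWv u h s hs _ (hR j y e)
    rw [AddMonoidHom.comp_apply, AddMonoidHom.comp_apply, mask_eq_iff] at h1
    rw [mask_eq_iff] at h2
    have h4 := h3 (back j r' hr' (h1.2.2.1 trivial) (fun v => h1.2.2.2 v trivial))
    have h5 := uR (j + h) r'.2 (by
      rw [map_add, ← add_assoc, ← show r'.1 = r₀.1 + ι j + ι h from h4]; exact hr')
    have h6 : r'.2.1 = y + if s then 1 else 0 := by simpa [hRy] using h2.1 trivial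
    have h7 : r'.2.2.1 = e := by simpa [hRe] using h2.2.1 trivial
    rw [← h6, ← h7, ← h5, h7]
    simpa using h2.2.2.2 u rfl
  · intro j h
    funext u y e
    have h1 := hper _ (hR j y e) (ι h)
    have h2 := uR (j + k • h) (R j y e) (by
      rw [map_add, map_zsmul, ← add_assoc]; exact h1)
    rw [hRy, hRe] at h2
    simp only [← h2]

end

end Crest.Agent.R46
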