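import Crest.Agent.R46.SudokuCore

/-! Row 46: the Sudoku as a Boolean puzzle with 34 variables: two bits for each of the 16 columns
(decoded to `ZMod 4` by a bijection), and clocks `κ, κ'`. A point `j = (a,b)` is the line
`m = a n + b`. Invariances: the bits of column `n` under `(1,-n)`; `κ` flips under `(1,0)` and is
invariant under `(0,1)`; `κ'` flips under `(0,1)`. `Ω`: the decoded word is flat or a ruler, and if
`κ` then it is a level 0 ruler whose centre is odd iff `κ'`. Existence from `exists_good` with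
`κ = [a odd]`, `κ' = [b odd]`. Conversely put `v n m` = decoded column `n` at `(0,m)`; then the word
at `(a,b)` is `n ↦ v n (a n + b)`; choose `A ∈ {0,1}` with `κ (a,b) = [a - A odd]`; for such slopes
we need the centre parity to be `b + C` with one constant `C`: to get this for free we also make
`κ'` invariant under `(2,0)`. Then `(n,m) ↦ v n (m + A n + C)` is `Good`, and a period `k` of `β`
is a period of it in `m`. -/

set_option autoImplicit false

namespace Crest.Agent.R46

/-- iterating an invariance or flip. -/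
theorem sud_iter {f : ℤ × ℤ → Bool} {h : ℤ × ℤ} {s : Bool} (H : ∀ j, f (j + h) = xor (f j) s)
    (a : ℤ) (j : ℤ × ℤ) : f (j + a • h) = xor (f j) (s && decide (a % 2 = 1)) := by
  induction a using Int.induction_on with
  | zero => simp
  | succ n ih =>
    rw [add_smul, one_smul, ← add_assoc, H, ih]
    rcases Int.emod_two_eq_zero_or_one (n : ℤ) with h0 | h0
    · have h1 : ((n : ℤ) + 1) % 2 = 1 := by omega
      cases f j <;> cases s <;> simp [h0, h1]
    · have h1 : ((n : ℤ) + 1) % 2 = 0 := by omega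
      cases f j <;> cases s <;> simp [h0, h1]
  | pred n ih =>
    have e := H (j + (-(n : ℤ) - 1) • h)
    rw [add_assoc, show (-(n : ℤ) - 1) • h + h = (-(n : ℤ)) • h by
      rw [sub_smul, one_smul, sub_add_cancel], ih] at e
    rcases Int.emod_two_eq_zero_or_one (-(n : ℤ)) with h0 | h0
    · have h1 : (-(n : ℤ) - 1) % 2 = 1 := by omega
      rw [h0] at e
      rw [h1]
      revert e
      cases f (j + (-(n : ℤ) - 1) • h) <;> cases f j <;> cases s <;> simp
    · have h1 : (-(n : ℤ) - 1) % 2 = 0 := by omega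
      rw [h0] at e
      rw [h1]
      revert e
      cases f (j + (-(n : ℤ) - 1) • h) <;> cases f j <;> cases s <;> simp

/-- the variables: two bits for each column, and two clocks. -/
abbrev SudV : Type := (Fin 16 × Bool) ⊕ Bool

/-- two bits to a residue. -/
def sudDec (x y : Bool) : ZMod 4 := (if x then 1 else 0) + (if y then 2 else 0)

/-- a residue to two bits. -/
def sudEnc (z : ZMod 4) (t : Bool) : Bool :=
  if t then decide (z = 2 ∨ z = 3) else decide (z = 1 ∨ z = 3)

theorem sudDec_enc (z : ZMod 4) : sudDec (sudEnc z false) (sudEnc z true) = z := by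
  revert z
  decide

/-- the column with number `n`. -/
def sudCol (n : ℤ) : Fin 16 := ⟨n.toNat % 16, Nat.mod_lt _ (by norm_num)⟩

theorem sudCol_val {n : ℤ} (h0 : 0 ≤ n) (h1 : n < 16) : (((sudCol n : Fin 16) : ℕ) : ℤ) = n := by
  simp only [sudCol]
  omega

/-- the decoded word. -/
def sudWord (y : SudV → Bool) (n : ℤ) : ZMod 4 :=
  sudDec (y (Sum.inl (sudCol n, false))) (y (Sum.inl (sudCol n, true)))

/-- the pointwise relation. -/
def sudΩ : Set (SudV → Bool) :=
  {y | (Flat (sudWord y) ∨ ∃ k c, Ruler k c (sudWord y)) ∧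
    (y (Sum.inr false) = true →
      ∃ c : ℤ, (c % 2 = 1 ↔ y (Sum.inr true) = true) ∧ Ruler 0 c (sudWord y))}

/-- the invariances. -/
def sudInv : Finset (SudV × (ℤ × ℤ) × Bool) :=
  (Finset.univ.image fun p : Fin 16 × Bool =>
      ((Sum.inl p : SudV), ((1 : ℤ), -((p.1 : ℕ) : ℤ)), false)) ∪
    {(Sum.inr false, (1, 0), true), (Sum.inr false, (0, 1), false),
      (Sum.inr true, (0, 1), true), (Sum.inr true, (2, 0), false)}

/-- solution of the puzzle on the variables `SudV`. -/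
def SudSol (β : ℤ × ℤ → SudV → Bool) : Prop :=
  (∀ j, β j ∈ sudΩ) ∧ ∀ x h s, (x, h, s) ∈ sudInv → ∀ j, β (j + h) x = xor (β j x) s

theorem sud_flat_congr {w w' : ℤ → ZMod 4} (h : ∀ n, 0 ≤ n → n < 16 → w n = w' n) (H : Flat w) :
    Flat w' := by
  obtain ⟨k, hk⟩ := H
  exact ⟨k, fun n h0 h1 => (h n h0 h1).symm.trans (hk n h0 h1)⟩

theorem sud_ruler_congr {w w' : ℤ → ZMod 4} (h : ∀ n, 0 ≤ n → n < 16 → w n = w' n) {k : ZMod 4}
    {c : ℤ} (H : Ruler k c w) : Ruler k c w' :=
  ⟨H.1, H.2.1, fun n h0 h1 hn => (h n h0 h1).symm.trans (H.2.2 n h0 h1 hn)⟩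

theorem sud_exists : ∃ β, SudSol β := by
  obtain ⟨v, hv⟩ := exists_good
  let β : ℤ × ℤ → SudV → Bool := fun j x =>
    match x with
    | Sum.inl p => sudEnc (v ((p.1 : ℕ) : ℤ) (j.1 * ((p.1 : ℕ) : ℤ) + j.2)) p.2
    | Sum.inr false => decide (j.1 % 2 = 1)
    | Sum.inr true => decide (j.2 % 2 = 1)
  have hw : ∀ j : ℤ × ℤ, ∀ n : ℤ, 0 ≤ n → n < 16 → v n (j.1 * n + j.2) = sudWord (β j) n := by
    intro j n h0 h1
    simp only [sudWord, β, sudDec_enc, sudCol_val h0 h1]
  refine ⟨β, fun j => ⟨?_, fun hκ => ?_⟩, ?_⟩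
  · rcases hv.1 j.1 j.2 with H | ⟨k, c, H⟩
    · exact Or.inl (sud_flat_congr (hw j) H)
    · exact Or.inr ⟨k, c, sud_ruler_congr (hw j) H⟩
  · have ha : j.1 % 2 = 1 := by simpa [β] using hκ
    obtain ⟨c, hc, H⟩ := hv.2 j.1 j.2 ha
    refine ⟨c, ?_, sud_ruler_congr (hw j) H⟩
    simp [β, hc]
  · intro x h s hx j
    simp only [sudInv, Finset.mem_union, Finset.mem_image, Finset.mem_univ, true_and,
      Finset.mem_insert, Finset.mem_singleton, Prod.mk.injEq] at hx
    rcases hx with ⟨p, rfl, rfl, rfl⟩ | ⟨rfl, rfl, rfl⟩ | ⟨rfl, rfl, rfl⟩ | ⟨rfl, rfl, rfl⟩ |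
      ⟨rfl, rfl, rfl⟩
    · simp only [β, Prod.fst_add, Prod.snd_add, Bool.xor_false]
      congr 2
      ring
    · simp only [β, Prod.fst_add]
      rcases Int.emod_two_eq_zero_or_one j.1 with h0 | h0
      · have h1 : (j.1 + 1) % 2 = 1 := by omega
        simp [h0, h1]
      · have h1 : (j.1 + 1) % 2 = 0 := by omega
        simp [h0, h1]
    · simp [β]
    · simp only [β, Prod.snd_add]
      rcases Int.emod_two_eq_zero_or_one j.2 with h0 | h0
      · have h1 : (j.2 + 1) % 2 = 1 := by omega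
        simp [h0, h1]
      · have h1 : (j.2 + 1) % 2 = 0 := by omega
        simp [h0, h1]
    · simp [β]

theorem sud_not_per {β : ℤ × ℤ → SudV → Bool} (hβ : SudSol β) : ¬ Per β := by
  rintro ⟨k, hk, hper⟩
  obtain ⟨hΩ, hInv⟩ := hβ
  -- the bits
  have hbit : ∀ (p : Fin 16 × Bool) (a b : ℤ),
      β (a, b) (Sum.inl p) = β (0, a * ((p.1 : ℕ) : ℤ) + b) (Sum.inl p) := by
    intro p a b
    have H := sud_iter (f := fun j => β j (Sum.inl p)) (h := ((1 : ℤ), -((p.1 : ℕ) : ℤ)))
      (s := false) (hInv _ _ _ (by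
        simp only [sudInv, Finset.mem_union, Finset.mem_image, Finset.mem_univ, true_and]
        exact Or.inl ⟨p, rfl⟩)) a (0, a * ((p.1 : ℕ) : ℤ) + b)
    simp only [Bool.false_and, Bool.xor_false] at H
    rw [← H]
    congr 1
    ext <;> simp
  have hword : ∀ a b n : ℤ, 0 ≤ n → n < 16 →
      sudWord (β (a, b)) n = sudWord (β (0, a * n + b)) n := by
    intro a b n h0 h1
    simp only [sudWord]
    rw [hbit _ a b, hbit (sudCol n, true) a b]
    simp only [sudCol_val h0 h1]
  -- the first clock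
  have hκ1 := sud_iter (f := fun j => β j (Sum.inr false)) (h := ((1 : ℤ), (0 : ℤ))) (s := true)
    (hInv _ _ _ (by simp [sudInv]))
  have hκ2 := sud_iter (f := fun j => β j (Sum.inr false)) (h := ((0 : ℤ), (1 : ℤ))) (s := false)
    (hInv _ _ _ (by simp [sudInv]))
  have hκ : ∀ a b : ℤ, β (a, b) (Sum.inr false) =
      xor (β (0, 0) (Sum.inr false)) (decide (a % 2 = 1)) := by
    intro a b
    have e1 := hκ1 a (0, 0)
    have e2 := hκ2 b (a, 0)
    simp only [Bool.false_and, Bool.xor_false, Bool.true_and, Prod.smul_mk, smul_eq_mul, mul_one,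
      mul_zero, Prod.mk_add_mk, zero_add, add_zero] at e1 e2
    rw [e2, e1]
  obtain ⟨A, hA⟩ : ∃ A : ℤ, ∀ a b : ℤ, a % 2 = 1 → β (a + A, b) (Sum.inr false) = true := by
    cases h0 : β (0, 0) (Sum.inr false)
    · refine ⟨0, fun a b ha => ?_⟩
      rw [hκ, h0]
      simp [ha]
    · refine ⟨1, fun a b ha => ?_⟩
      have h1 : (a + 1) % 2 = 0 := by omega
      rw [hκ, h0]
      simp [h1]
  -- the second clock
  have hκ3 := sud_iter (f := fun j => β j (Sum.inr true)) (h := ((0 : ℤ), (1 : ℤ))) (s := true)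
    (hInv _ _ _ (by simp [sudInv]))
  have hκ4 := sud_iter (f := fun j => β j (Sum.inr true)) (h := ((2 : ℤ), (0 : ℤ))) (s := false)
    (hInv _ _ _ (by simp [sudInv]))
  have hκ' : ∀ a b : ℤ, a % 2 = 1 → β (a + A, b) (Sum.inr true) =
      xor (β (1 + A, 0) (Sum.inr true)) (decide (b % 2 = 1)) := by
    intro a b ha
    have e1 := hκ4 (a / 2) (1 + A, 0)
    have e2 := hκ3 b (a + A, 0)
    simp only [Bool.false_and, Bool.xor_false, Bool.true_and, Prod.smul_mk, smul_eq_mul, mul_one,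
      mul_zero, Prod.mk_add_mk, zero_add, add_zero] at e1 e2
    rw [e2, ← e1, show 1 + A + a / 2 * 2 = a + A by omega]
  obtain ⟨C, hC⟩ : ∃ C : ℤ, ∀ a b : ℤ, a % 2 = 1 →
      (β (a + A, b + C) (Sum.inr true) = true ↔ b % 2 = 1) := by
    cases h0 : β (1 + A, 0) (Sum.inr true)
    · refine ⟨0, fun a b ha => ?_⟩
      rw [hκ' _ _ ha, h0]
      simp
    · refine ⟨1, fun a b ha => ?_⟩
      rw [hκ' _ _ ha, h0]
      rcases Int.emod_two_eq_zero_or_one b with hb | hb
      · have h1 : (b + 1) % 2 = 1 := by omega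
        simp [hb, h1]
      · have h1 : (b + 1) % 2 = 0 := by omega
        simp [hb, h1]
  -- the good array
  let v : ℤ → ℤ → ZMod 4 := fun n m => sudWord (β (0, m + A * n + C)) n
  have hline : ∀ a b n : ℤ, 0 ≤ n → n < 16 →
      sudWord (β (a + A, b + C)) n = v n (a * n + b) := by
    intro a b n h0 h1
    rw [hword _ _ n h0 h1]
    simp only [v]
    congr 3
    ring
  have hgood : Good v := by
    refine ⟨fun a b => ?_, fun a b ha => ?_⟩
    · rcases (hΩ (a + A, b + C)).1 with H | ⟨k, c, H⟩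
      · exact Or.inl (sud_flat_congr (hline a b) H)
      · exact Or.inr ⟨k, c, sud_ruler_congr (hline a b) H⟩
    · obtain ⟨c, hc, H⟩ := (hΩ (a + A, b + C)).2 (hA a _ ha)
      refine ⟨c, ?_, sud_ruler_congr (hline a b) H⟩
      rw [hC a b ha] at hc
      omega
  refine good_not_periodic hgood k hk fun n m _ _ => ?_
  have e := hper (0, m + A * n + C) (0, 1)
  simp only [v]
  rw [← e]
  congr 2
  ext
  · simp
  · simp only [Prod.smul_mk, smul_eq_mul, mul_one, Prod.mk_add_mk]
    ring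

theorem exists_boolSys : ∃ (n : ℕ) (Ω : Set (Fin n → Bool))
    (Inv : Finset (Fin n × (ℤ × ℤ) × Bool)),
    (∃ β, BoolSol Ω Inv β) ∧ ∀ β, BoolSol Ω Inv β → ¬ Per β := by
  let e : SudV ≃ Fin (Fintype.card SudV) := Fintype.equivFin SudV
  refine ⟨Fintype.card SudV, {y | y ∘ e ∈ sudΩ},
    sudInv.image fun t => (e t.1, t.2), ?_, ?_⟩
  · obtain ⟨β, hΩ, hInv⟩ := sud_exists
    refine ⟨fun j => β j ∘ e.symm, fun j => ?_, ?_⟩
    · have : (β j ∘ e.symm) ∘ e = β j := by
        ext x
        simp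
      simpa only [Set.mem_ofPred_eq, this] using hΩ j
    · intro x h s hx j
      obtain ⟨⟨x', h', s'⟩, ht, he⟩ := Finset.mem_image.1 hx
      simp only [Prod.mk.injEq] at he
      obtain ⟨rfl, rfl, rfl⟩ := he
      simpa using hInv _ _ _ ht j
  · rintro β ⟨hΩ, hInv⟩ ⟨k, hk, hper⟩
    refine sud_not_per (β := fun j => β j ∘ e) ⟨fun j => hΩ j, fun x h s hx j => ?_⟩
      ⟨k, hk, fun j h => by simp only [hper]⟩
    exact hInv (e x) h s (Finset.mem_image.2 ⟨(x, h, s), hx, rfl⟩) j

end Crest.Agent.R46
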