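import Crest.Agent.R46.Defs

/-! Row 46: the 2-adic "ruler" Sudoku on 16 columns, core combinatorics.

`nu d` is the 2-adic valuation cut off at 3. A word `w` (only `0 ≤ n < 16` matters) is flat, or a
ruler of level `k` and centre `c ∈ [0,16)`: `w n = k + nu (n - c)` for `n ≠ c`.

Descent (`good_step`). Let `u n m = v n (2m) - 1`. (U1) all lines of `u` are flat or rulers.
(U2) for `j ∈ {0,1}`, odd `α`, any `β`, the points `(j+2k, αk+β)`, `0 ≤ k < 8`, come from the odd
slope line `(α, 2β - αj)` of `v`, so there is `kc ∈ [0,8)` with `u = nu (k - kc)` (values 0,1,2) for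
`k ≠ kc`. (A) the parity of `kc` depends only on `j` and `β mod 2`: otherwise pick adjacent columns
`k, k' = k ± 1` inside one of the pairs (0,1),(2,3),(4,5) with nonzero values on the two lines; the
half-line through both points has odd slope and two adjacent nonzero values, impossible. Call it
`φ j β`; `u (j+2k) m = 0` whenever `k ≢ φ j (m - k)` mod 2. (B) `φ j 0 ≠ φ j 1`: otherwise `u = 0` on
every second column of class `j`; a flat or ruler word vanishing at the four `n` of one class mod 4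
vanishes on the whole class mod 2 or equals `-1` on the other class mod 2; through any point of
class `j` passes a line meeting a zero in the other class (column `k' ≢ φ (j+1) 0`, all
`m ≡ k'`), so `u = 0` on class `j`, contradicting (U2). So `u (j+2k) m = 0` if `m + C j` is odd; shear
by `A = C 0 + C 1`, `C = C 0` to get `u' n m = 0` for odd `m` (U1, U2 persist). (C) an odd slope line
`(a,b)` of `u'` vanishes for `n ≢ b`; a ruler must have centre `≡ b` and level 0. It is not flat 0: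
else with `j ≡ b` each point `P k` of the line in class `j` is the centre of every odd half-line
through it (even `m`, value 0, while the neighbours have odd `m`), so using `k = k'' ± 2` and slope
`2a ± 1` we get `u' = 1` on class `j` of the line `(a, b+2)`, which is 0 on the other class:
neither flat nor a ruler. -/

set_option autoImplicit false

namespace Crest.Agent.R46

/-- 2-adic valuation cut off at 3. -/
def nu (d : ℤ) : ZMod 4 := if d % 2 ≠ 0 then 0 else if d % 4 ≠ 0 then 1 else if d % 8 ≠ 0 then 2 else 3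

def Flat (w : ℤ → ZMod 4) : Prop := ∃ k, ∀ n, 0 ≤ n → n < 16 → w n = k

def Ruler (k : ZMod 4) (c : ℤ) (w : ℤ → ZMod 4) : Prop :=
  0 ≤ c ∧ c < 16 ∧ ∀ n, 0 ≤ n → n < 16 → n ≠ c → w n = k + nu (n - c)

/-- every line is flat or a ruler. -/
def Rule (v : ℤ → ℤ → ZMod 4) : Prop :=
  ∀ a b : ℤ, Flat (fun n => v n (a * n + b)) ∨ ∃ k c, Ruler k c (fun n => v n (a * n + b))

/-- moreover odd slope lines are level 0 rulers whose centre has the parity of the intercept. -/
def Good (v : ℤ → ℤ → ZMod 4) : Prop :=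
  Rule v ∧ ∀ a b : ℤ, a % 2 = 1 → ∃ c, c % 2 = b % 2 ∧ Ruler 0 c (fun n => v n (a * n + b))

namespace Sud

lemma nu_odd {d : ℤ} (h : d % 2 = 1) : nu d = 0 := if_pos (by omega)

lemma nu_two {d : ℤ} (h : d % 4 = 2) : nu d = 1 := by
  rw [nu, if_neg (by omega), if_pos (by omega)]

lemma nu_four {d : ℤ} (h : d % 8 = 4) : nu d = 2 := by
  rw [nu, if_neg (by omega), if_neg (by omega), if_pos (by omega)]

lemma nu_eight {d : ℤ} (h : d % 8 = 0) : nu d = 3 := by
  rw [nu, if_neg (by omega), if_neg (by omega), if_neg (by omega)]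

lemma nu_ne {d : ℤ} (h : d % 2 = 0) : nu d ≠ 0 := by
  rw [nu, if_neg (by omega)]
  split_ifs <;> decide

lemma par {a : ℤ} (h : a % 2 = 1) (n : ℤ) : (a * n) % 2 = n % 2 := by
  rw [Int.mul_emod, h, one_mul, Int.emod_emod]

/-- odd slope lines of a half array are level 0 rulers -/
def HR (H : ℤ → ℤ → ZMod 4) : Prop :=
  ∀ α β : ℤ, α % 2 = 1 → ∃ c, 0 ≤ c ∧ c < 8 ∧
    ∀ k, 0 ≤ k → k < 8 → k ≠ c → H k (α * k + β) = nu (k - c)

lemma HR.adj {H : ℤ → ℤ → ZMod 4} (hH : HR H) {k m m' : ℤ} (h0 : 0 ≤ k) (h8 : k + 1 < 8)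
    (hm : (m' - m) % 2 = 1) : H k m = 0 ∨ H (k + 1) m' = 0 := by
  obtain ⟨c, -, -, hc⟩ := hH (m' - m) (m - (m' - m) * k) hm
  by_cases h : (k - c) % 2 = 1
  · have := hc k h0 (by omega) (by omega)
    rw [nu_odd h, show (m' - m) * k + (m - (m' - m) * k) = m by ring] at this
    exact Or.inl this
  · have := hc (k + 1) (by omega) h8 (by omega)
    rw [nu_odd (by omega), show (m' - m) * (k + 1) + (m - (m' - m) * k) = m' by ring] at this
    exact Or.inr this

lemma HR.phi {H : ℤ → ℤ → ZMod 4} (hH : HR H) (β : ℤ) : ∃ φ : ℤ, ∀ k m, 0 ≤ k → k < 8 →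
    (m - k - β) % 2 = 0 → (k - φ) % 2 = 1 → H k m = 0 := by
  obtain ⟨c, c0, c8, hc⟩ := hH 1 β rfl
  refine ⟨c, fun k m k0 k8 hm hk => ?_⟩
  obtain ⟨c', c0', c8', hc'⟩ := hH 1 (m - k) rfl
  by_cases h : (k - c') % 2 = 1
  · have := hc' k k0 k8 (by omega)
    rwa [nu_odd h, show 1 * k + (m - k) = m by ring] at this
  exfalso
  obtain ⟨p, hp⟩ : ∃ p : ℤ, 0 ≤ p ∧ p ≤ 4 ∧ p % 2 = 0 ∧ p + c % 2 ≠ c ∧ p + c' % 2 ≠ c' := by
    by_cases h0 : c % 2 ≠ c ∧ c' % 2 ≠ c'
    · exact ⟨0, by omega⟩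
    by_cases h2 : 2 + c % 2 ≠ c ∧ 2 + c' % 2 ≠ c'
    · exact ⟨2, by omega⟩
    exact ⟨4, by omega⟩
  have a1 := hc (p + c % 2) (by omega) (by omega) (by omega)
  have a2 := hc' (p + c' % 2) (by omega) (by omega) (by omega)
  have b1 := a1 ▸ nu_ne (d := p + c % 2 - c) (by omega)
  have b2 := a2 ▸ nu_ne (d := p + c' % 2 - c') (by omega)
  by_cases hc2 : c % 2 = 0
  · rw [hc2, add_zero] at b1
    rw [show c' % 2 = 1 by omega] at b2
    exact (hH.adj (by omega) (by omega) (by omega)).elim b1 b2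
  · rw [show c % 2 = 1 by omega] at b1
    rw [show c' % 2 = 0 by omega, add_zero] at b2
    exact (hH.adj (by omega) (by omega) (by omega)).elim b2 b1

lemma word4 {w : ℤ → ZMod 4} (hw : Flat w ∨ ∃ k c, Ruler k c w) {r n n' : ℤ}
    (hr : ∀ n, 0 ≤ n → n < 16 → (n - r) % 4 = 0 → w n = 0) (h0' : 0 ≤ n') (h16' : n' < 16)
    (hn' : (n' - r) % 2 = 1) (hz : w n' = 0) (h0 : 0 ≤ n) (h16 : n < 16) (hn : (n - r) % 2 = 0) :
    w n = 0 := by
  rcases hw with ⟨k, hk⟩ | ⟨k, c, -, -, hc⟩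
  · rw [hk n h0 h16, ← hk n' h0' h16', hz]
  by_cases h : (c - r) % 2 = 1
  · have a1 := hc (r % 4) (by omega) (by omega) (by omega)
    rw [hr _ (by omega) (by omega) (by omega), nu_odd (by omega)] at a1
    rw [hc n h0 h16 (by omega), nu_odd (by omega), ← a1]
  exfalso
  have a1 := hc n' h0' h16' (by omega)
  rw [hz, nu_odd (by omega), add_zero] at a1
  subst a1
  obtain ⟨p, hp⟩ : ∃ p : ℤ, 0 ≤ p ∧ p < 16 ∧ (p - r) % 4 = 0 ∧ p ≠ c := by
    by_cases h0 : r % 4 = c
    · exact ⟨r % 4 + 4, by omega⟩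
    · exact ⟨r % 4, by omega⟩
  have a2 := hc p hp.1 hp.2.1 hp.2.2.2
  rw [hr p hp.1 hp.2.1 hp.2.2.1, zero_add] at a2
  exact nu_ne (by omega) a2.symm

lemma stepB {u : ℤ → ℤ → ZMod 4} (hu : Rule u) {j j' : ℤ} (hj : 0 ≤ j) (hj' : 0 ≤ j')
    (hjj : j + j' = 1) (hH : HR fun k => u (j + 2 * k)) (hH' : HR fun k => u (j' + 2 * k)) :
    ∃ C : ℤ, ∀ k m, 0 ≤ k → k < 8 → (m + C) % 2 = 1 → u (j + 2 * k) m = 0 := by
  obtain ⟨φ₀, h₀⟩ := hH.phi 0
  obtain ⟨φ₁, h₁⟩ := hH.phi 1
  by_cases hφ : (φ₀ - φ₁) % 2 = 1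
  · refine ⟨φ₀, fun k m k0 k8 hm => ?_⟩
    by_cases h : (m - k) % 2 = 0
    · exact h₀ k m k0 k8 (by omega) (by omega)
    · exact h₁ k m k0 k8 (by omega) (by omega)
  exfalso
  have hz : ∀ n m, 0 ≤ n → n < 16 → (n - (j + 2 * φ₀ + 2)) % 4 = 0 → u n m = 0 := by
    intro n m n0 n16 hn
    obtain ⟨k, rfl⟩ : ∃ k, n = j + 2 * k := ⟨(n - j) / 2, by omega⟩
    by_cases h : (m - k) % 2 = 0
    · exact h₀ k m (by omega) (by omega) (by omega) (by omega)
    · exact h₁ k m (by omega) (by omega) (by omega) (by omega)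
  obtain ⟨φ', h'⟩ := hH'.phi 0
  have hall : ∀ k m, 0 ≤ k → k < 8 → u (j + 2 * k) m = 0 := by
    intro k m k0 k8
    by_cases h : (m - (φ' + 1)) % 2 = 0
    · have := word4 (hu 0 m) (r := j + 2 * φ₀ + 2) (n := j + 2 * k) (n' := j' + 2 * ((φ' + 1) % 2))
        (fun n a b c => hz n _ a b c) (by omega) (by omega) (by omega)
        (h' _ _ (by omega) (by omega) (by omega) (by omega)) (by omega) (by omega) (by omega)
      simpa using this
    · have := word4 (hu 1 (m - (j + 2 * k))) (r := j + 2 * φ₀ + 2) (n := j + 2 * k)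
        (n' := j' + 2 * ((φ' + 1) % 2))
        (fun n a b c => hz n _ a b c) (by omega) (by omega) (by omega)
        (h' _ _ (by omega) (by omega) (by omega) (by omega)) (by omega) (by omega) (by omega)
      simpa using this
  obtain ⟨c, c0, c8, hc⟩ := hH 1 0 rfl
  have := hc ((c + 2) % 8) (by omega) (by omega) (by omega)
  exact nu_ne (by omega) (this.symm.trans (hall _ _ (by omega) (by omega)))

lemma HR.centre {H : ℤ → ℤ → ZMod 4} (hH : HR H)
    (hz : ∀ k m, 0 ≤ k → k < 8 → m % 2 = 1 → H k m = 0) {k m α k' : ℤ} (k0 : 0 ≤ k) (k8 : k < 8)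
    (hm : m % 2 = 0) (h0 : H k m = 0) (hα : α % 2 = 1) (k0' : 0 ≤ k') (k8' : k' < 8)
    (hk : k' ≠ k) : H k' (m + α * (k' - k)) = nu (k' - k) := by
  obtain ⟨c, c0, c8, hc⟩ := hH α (m - α * k) hα
  simp only [show ∀ x, α * x + (m - α * k) = m + α * (x - k) from fun x => by ring] at hc
  obtain rfl : k = c := by
    by_contra hkc
    have a1 := hc k k0 k8 hkc
    rw [sub_self, mul_zero, add_zero, h0] at a1
    have a2 : (k - c) % 2 = 1 := by
      by_contra h
      exact nu_ne (by omega) a1.symm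
    have a3 := hc ((c + 2) % 8) (by omega) (by omega) (by omega)
    have a4 := par hα ((c + 2) % 8 - k)
    rw [hz _ _ (by omega) (by omega) (by omega)] at a3
    exact nu_ne (by omega) a3.symm
  exact hc k' k0' k8' hk

lemma rulerC {w : ℤ → ZMod 4} {b c : ℤ} {κ : ZMod 4} (hw : Ruler κ c w)
    (hz : ∀ n, 0 ≤ n → n < 16 → (n + b) % 2 = 1 → w n = 0) : κ = 0 ∧ c % 2 = b % 2 := by
  obtain ⟨c0, c16, hc⟩ := hw
  have h : c % 2 = b % 2 := by
    by_contra h
    have a1 := hc ((c + 2) % 16) (by omega) (by omega) (by omega)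
    have a2 := hc ((c + 4) % 16) (by omega) (by omega) (by omega)
    rw [hz _ (by omega) (by omega) (by omega), nu_two (by omega)] at a1
    rw [hz _ (by omega) (by omega) (by omega), nu_four (by omega)] at a2
    exact absurd (add_left_cancel (a1.symm.trans a2)) (by decide)
  have a1 := hc ((c + 1) % 16) (by omega) (by omega) (by omega)
  rw [hz _ (by omega) (by omega) (by omega), nu_odd (by omega), add_zero] at a1
  exact ⟨a1.symm, h⟩

lemma stepC {u : ℤ → ℤ → ZMod 4} (hu : Rule u)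
    (hH : ∀ j, 0 ≤ j → j < 2 → HR fun k => u (j + 2 * k))
    (hz : ∀ n m, 0 ≤ n → n < 16 → m % 2 = 1 → u n m = 0) : Good u := by
  refine ⟨hu, fun a b ha => ?_⟩
  have hl : ∀ b n, 0 ≤ n → n < 16 → (n + b) % 2 = 1 → u n (a * n + b) = 0 := fun b n n0 n16 h =>
    hz n _ n0 n16 (by have := par ha n; omega)
  rcases hu a b with ⟨κ, hκ⟩ | ⟨κ, c, hc⟩
  swap
  · obtain ⟨rfl, h⟩ := rulerC hc (hl b)
    exact ⟨c, h, hc⟩
  exfalso
  obtain rfl : 0 = κ := by
    rw [← hκ ((b + 1) % 2) (by omega) (by omega)]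
    exact (hl b _ (by omega) (by omega) (by omega)).symm
  have h1 : ∀ n, 0 ≤ n → n < 16 → (n + b) % 2 = 0 → u n (a * n + (b + 2)) = 1 := by
    intro n n0 n16 hn
    obtain ⟨k, rfl⟩ : ∃ k, n = b % 2 + 2 * k := ⟨n / 2, by omega⟩
    have hc := fun k' α (k0 : 0 ≤ k') (k8 : k' < 8) =>
      (hH (b % 2) (by omega) (by omega)).centre (α := α) (k := k') (k' := k)
        (m := a * (b % 2 + 2 * k') + b)
        (fun k m k0 k8 hm => hz _ m (by omega) (by omega) hm) k0 k8
        (by have := par ha (b % 2 + 2 * k'); omega) (hκ _ (by omega) (by omega))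
    by_cases hk : 2 ≤ k
    · have := hc (k - 2) (2 * a + 1) (by omega) (by omega) (by omega) (by omega) (by omega)
        (by omega)
      rw [nu_two (by omega)] at this
      rw [← this]
      congr 1
      ring
    · have := hc (k + 2) (2 * a - 1) (by omega) (by omega) (by omega) (by omega) (by omega)
        (by omega)
      rw [nu_two (by omega)] at this
      rw [← this]
      congr 1
      ring
  rcases hu a (b + 2) with ⟨κ, hκ'⟩ | ⟨κ, c, hc⟩
  · have a1 := hκ' (b % 2) (by omega) (by omega)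
    have a2 := hκ' ((b + 1) % 2) (by omega) (by omega)
    dsimp only at a1 a2
    rw [h1 _ (by omega) (by omega) (by omega)] at a1
    rw [hl _ _ (by omega) (by omega) (by omega)] at a2
    exact absurd (a1.trans a2.symm) (by decide)
  · obtain ⟨rfl, h⟩ := rulerC hc (hl (b + 2))
    obtain ⟨c0, c16, hc⟩ := hc
    have a1 := hc ((c + 4) % 16) (by omega) (by omega) (by omega)
    dsimp only at a1
    rw [h1 _ (by omega) (by omega) (by omega), nu_four (by omega)] at a1
    exact absurd a1 (by decide)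

lemma rule_step {v : ℤ → ℤ → ZMod 4} (h : Rule v) (A C : ℤ) :
    Rule fun n m => v n (2 * (m + A * n + C)) - 1 := by
  intro a b
  have e : ∀ n, 2 * (a * n + b + A * n + C) = 2 * (a + A) * n + 2 * (b + C) := fun n => by ring
  simp only [e]
  rcases h (2 * (a + A)) (2 * (b + C)) with ⟨κ, hκ⟩ | ⟨κ, c, c0, c16, hc⟩
  · exact Or.inl ⟨κ - 1, fun n n0 n16 => congrArg (· - 1) (hκ n n0 n16)⟩
  · refine Or.inr ⟨κ - 1, c, c0, c16, fun n n0 n16 hn => ?_⟩
    exact (congrArg (· - 1) (hc n n0 n16 hn)).trans (by ring)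

lemma hr_step {v : ℤ → ℤ → ZMod 4} (h : Good v) (A C j : ℤ) (j0 : 0 ≤ j) (j2 : j < 2) :
    HR fun k m => v (j + 2 * k) (2 * (m + A * (j + 2 * k) + C)) - 1 := by
  intro α β hα
  obtain ⟨c, hc, c0, c16, hr⟩ := h.2 (α + 2 * A) (2 * (β + A * j + C) - (α + 2 * A) * j) (by omega)
  have hp := par (a := α + 2 * A) (by omega) j
  obtain ⟨c', rfl⟩ : ∃ c', c = j + 2 * c' := ⟨c / 2, by omega⟩
  refine ⟨c', by omega, by omega, fun k k0 k8 hk => ?_⟩
  have a1 := hr (j + 2 * k) (by omega) (by omega) (by omega)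
  dsimp only at a1 ⊢
  rw [show 2 * (α * k + β + A * (j + 2 * k) + C) = (α + 2 * A) * (j + 2 * k) +
    (2 * (β + A * j + C) - (α + 2 * A) * j) by ring, a1, zero_add]
  by_cases h1 : (k - c') % 2 = 1
  · rw [nu_two (by omega), nu_odd h1, sub_self]
  by_cases h2 : (k - c') % 4 = 2
  · rw [nu_four (by omega), nu_two h2]
    decide
  · rw [nu_eight (by omega), nu_four (by omega)]
    decide

/-- 2-adic valuation modulo 4 -/
def val (m : ℤ) : ZMod 4 := (padicValInt 2 m : ℕ)

lemma val_odd {m : ℤ} (h : m % 2 = 1) : val m = 0 := by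
  rw [val, padicValInt.eq_zero_of_not_dvd (by omega), Nat.cast_zero]

lemma val_two_mul {m : ℤ} (h : m ≠ 0) : val (2 * m) = val m + 1 := by
  have : padicValInt 2 2 = 1 := padicValInt.self (p := 2) (by norm_num)
  rw [val, padicValInt.mul two_ne_zero h, this, Nat.cast_add, Nat.cast_one, add_comm, val]

lemma val_eq_nu {m : ℤ} (h : m % 16 ≠ 0) : val m = nu m := by
  by_cases h1 : m % 2 = 1
  · rw [val_odd h1, nu_odd h1]
  obtain ⟨x, rfl⟩ : ∃ x, m = 2 * x := ⟨m / 2, by omega⟩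
  rw [val_two_mul (by omega)]
  by_cases h2 : x % 2 = 1
  · rw [val_odd h2, nu_two (by omega), zero_add]
  obtain ⟨y, rfl⟩ : ∃ y, x = 2 * y := ⟨x / 2, by omega⟩
  rw [val_two_mul (by omega)]
  by_cases h3 : y % 2 = 1
  · rw [val_odd h3, nu_four (by omega)]
    decide
  obtain ⟨z, rfl⟩ : ∃ z, y = 2 * z := ⟨y / 2, by omega⟩
  rw [val_two_mul (by omega), val_odd (by omega), nu_eight (by omega)]
  decide

lemma odd_line {a : ℤ} (ha : a % 2 = 1) (b : ℤ) : ∃ c, c % 2 = b % 2 ∧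
    Ruler 0 c (fun n => val (a * n + b)) ∧ ∀ n, 0 ≤ n → n < 16 → n ≠ c → a * n + b ≠ 0 := by
  have hco : IsCoprime a 2 := ⟨1, -(a / 2), by omega⟩
  obtain ⟨x, y, hxy⟩ := hco.pow_right (n := 4)
  obtain ⟨c, t, c0, c16, hc⟩ : ∃ c t : ℤ, 0 ≤ c ∧ c < 16 ∧ a * c + b = 16 * t :=
    ⟨(-b * x) % 16, b * y - a * (-b * x / 16), by omega, by omega, by
      rw [Int.emod_def]; linear_combination (-b) * hxy⟩
  have key : ∀ n, 0 ≤ n → n < 16 → n ≠ c → (a * n + b) % 16 ≠ 0 ∧ nu (a * n + b) = nu (n - c) := by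
    intro n n0 n16 hn
    rw [show a * n + b = a * (n - c) + 16 * t by linear_combination hc]
    have h1 : -16 < n - c := by omega
    have h2 : n - c < 16 := by omega
    have h3 : n - c ≠ 0 := by omega
    generalize n - c = d at h1 h2 h3
    interval_cases d <;> first
      | exact (h3 rfl).elim
      | exact ⟨by omega, (nu_odd (by omega)).trans (nu_odd (by omega)).symm⟩
      | exact ⟨by omega, (nu_two (by omega)).trans (nu_two (by omega)).symm⟩
      | exact ⟨by omega, (nu_four (by omega)).trans (nu_four (by omega)).symm⟩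
      | exact ⟨by omega, (nu_eight (by omega)).trans (nu_eight (by omega)).symm⟩
  refine ⟨c, by have := par ha c; omega, ⟨c0, c16, fun n n0 n16 hn => ?_⟩, fun n n0 n16 hn h => ?_⟩
  · obtain ⟨h1, h2⟩ := key n n0 n16 hn
    rw [zero_add, ← h2, ← val_eq_nu h1]
  · exact (key n n0 n16 hn).1 (by rw [h]; rfl)

lemma any_line (N : ℕ) : ∀ a b : ℤ, a.natAbs = N → a ≠ 0 →
    (Flat (fun n => val (a * n + b)) ∧ ∀ n, 0 ≤ n → n < 16 → a * n + b ≠ 0) ∨
    ∃ k c, Ruler k c (fun n => val (a * n + b)) ∧ ∀ n, 0 ≤ n → n < 16 → n ≠ c → a * n + b ≠ 0 := by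
  induction N using Nat.strong_induction_on with
  | _ N ih =>
    intro a b hN ha0
    by_cases ha : a % 2 = 1
    · obtain ⟨c, -, h⟩ := odd_line ha b
      exact Or.inr ⟨0, c, h⟩
    obtain ⟨a, rfl⟩ : ∃ x, a = 2 * x := ⟨a / 2, by omega⟩
    by_cases hb : b % 2 = 1
    · have : ∀ n, (2 * a * n + b) % 2 = 1 := fun n => by rw [mul_assoc]; omega
      exact Or.inl ⟨⟨0, fun n _ _ => val_odd (this n)⟩, fun n _ _ h => by
        have := this n
        omega⟩
    obtain ⟨b, rfl⟩ : ∃ x, b = 2 * x := ⟨b / 2, by omega⟩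
    simp only [show ∀ n, 2 * a * n + 2 * b = 2 * (a * n + b) from fun n => by ring]
    rcases ih a.natAbs (by omega) a b rfl (by omega) with ⟨⟨k, hk⟩, h⟩ | ⟨k, c, ⟨c0, c16, hc⟩, h⟩
    · refine Or.inl ⟨⟨k + 1, fun n n0 n16 => ?_⟩, fun n n0 n16 =>
        mul_ne_zero two_ne_zero (h n n0 n16)⟩
      exact (val_two_mul (h n n0 n16)).trans (congrArg (· + 1) (hk n n0 n16))
    · refine Or.inr ⟨k + 1, c, ⟨c0, c16, fun n n0 n16 hn => ?_⟩, fun n n0 n16 hn =>
        mul_ne_zero two_ne_zero (h n n0 n16 hn)⟩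
      exact (val_two_mul (h n n0 n16 hn)).trans
        ((congrArg (· + 1) (hc n n0 n16 hn)).trans (add_right_comm _ _ _))

end Sud

open Sud

theorem good_step {v : ℤ → ℤ → ZMod 4} (h : Good v) :
    ∃ A C : ℤ, Good (fun n m => v n (2 * (m + A * n + C)) - 1) := by
  obtain ⟨C₀, h₀⟩ := stepB (rule_step h.1 0 0) (j := 0) (j' := 1) le_rfl zero_le_one rfl
    (hr_step h 0 0 0 le_rfl two_pos) (hr_step h 0 0 1 zero_le_one one_lt_two)
  obtain ⟨C₁, h₁⟩ := stepB (rule_step h.1 0 0) (j := 1) (j' := 0) zero_le_one le_rfl rfl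
    (hr_step h 0 0 1 zero_le_one one_lt_two) (hr_step h 0 0 0 le_rfl two_pos)
  simp only [zero_mul, add_zero] at h₀ h₁
  refine ⟨C₀ + C₁, C₀, stepC (rule_step h.1 _ _) (hr_step h _ _) fun n m n0 n16 hm => ?_⟩
  by_cases hn : n % 2 = 0
  · obtain ⟨k, rfl⟩ : ∃ k, n = 0 + 2 * k := ⟨n / 2, by omega⟩
    refine h₀ k _ (by omega) (by omega) ?_
    rw [show (C₀ + C₁) * (0 + 2 * k) = 2 * ((C₀ + C₁) * k) by ring]
    omega
  · obtain ⟨k, rfl⟩ : ∃ k, n = 1 + 2 * k := ⟨n / 2, by omega⟩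
    refine h₁ k _ (by omega) (by omega) ?_
    rw [show (C₀ + C₁) * (1 + 2 * k) = C₀ + C₁ + 2 * ((C₀ + C₁) * k) by ring]
    omega

/-- Induction on the period: `v n m = 0` for odd `m`, and on the line `(1,0)` some point with even
`m` has value 1, so the period is even; `good_step` halves it. -/
theorem good_not_periodic {v : ℤ → ℤ → ZMod 4} (h : Good v) (M : ℤ) (hM : 0 < M) :
    ¬ ∀ n m, 0 ≤ n → n < 16 → v n (m + M) = v n m := by
  obtain ⟨N, rfl⟩ := Int.eq_ofNat_of_zero_le hM.le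
  induction N using Nat.strong_induction_on generalizing v with
  | _ N ih =>
    intro hp
    by_cases hN : N % 2 = 0
    · obtain ⟨N', rfl⟩ : ∃ x, N = 2 * x := ⟨N / 2, by omega⟩
      obtain ⟨A, C, hg⟩ := good_step h
      refine ih N' (by omega) hg (by omega) fun n m n0 n16 => ?_
      rw [← hp n (2 * (m + A * n + C)) n0 n16]
      congr 2
      push_cast
      ring
    · obtain ⟨c, hc, c0, c16, hr⟩ := h.2 1 0 rfl
      have a1 := hr ((c + 2) % 16) (by omega) (by omega) (by omega)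
      obtain ⟨c', hc', c0', c16', hr'⟩ := h.2 1 N rfl
      have a2 := hr' ((c + 2) % 16) (by omega) (by omega) (by omega)
      dsimp only at a1 a2
      rw [add_zero, nu_two (by omega)] at a1
      rw [hp _ _ (by omega) (by omega), a1, nu_odd (by omega)] at a2
      exact absurd a2 (by decide)

/-- The 2-adic valuation mod 4 (value 0 at 0) is good: for `a ≠ 0` induct on `|a|` with the
strengthened claim "flat with all `a n + b ≠ 0`, or ruler with `a n + b ≠ 0` off the centre". -/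
theorem exists_good : ∃ v, Good v := by
  refine ⟨fun _ m => val m, fun a b => ?_, fun a b ha => ?_⟩
  · by_cases ha : a = 0
    · exact Or.inl ⟨val b, fun n _ _ => by simp [ha]⟩
    · exact (any_line _ a b rfl ha).imp And.left fun ⟨k, c, h, _⟩ => ⟨k, c, h⟩
  · obtain ⟨c, h1, h2, -⟩ := odd_line ha b
    exact ⟨c, h1, h2⟩

end Crest.Agent.R46
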