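import Crest.Agent.R46.Keys
import Crest.Agent.R46.RowKeys
import Crest.Agent.R46.Sound

/-! Row 46: the table model; from a colouring puzzle to a system of tiles in ℤ³. -/

set_option autoImplicit false

namespace Crest.Agent.R46

open Crest.CombinatoricsR.Tiling

theorem exists_moduli (V : Type) [Fintype V] : ∃ ℓ : V → ℕ, Function.Injective ℓ ∧
    ∀ v, (ℓ v).Prime ∧ 7 < ℓ v ∧ ℓ v % 12 = 7 := by
  have hinf := (Nat.infinite_setOfPred_prime_and_modEq (q := 12) (a := 7) (by norm_num)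
    (by norm_num)).sdiff (Set.finite_Iic 7)
  let f := hinf.natEmbedding
  refine ⟨fun v => (f (Fintype.equivFin V v) : ℕ), fun v w h => ?_, fun v => ?_⟩
  · exact (Fintype.equivFin V).injective (Fin.ext (f.injective (Subtype.ext h)))
  · obtain ⟨⟨h1, h2⟩, h3⟩ := (f (Fintype.equivFin V v)).2
    exact ⟨h1, not_le.1 h3, h2⟩

variable {V : Type}

/-- reduction of an integer modulo all moduli. -/
def redPh (ℓ : V → ℕ) : ℤ →+ Ph ℓ where
  toFun z := (z, z, z, fun _ => z)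
  map_zero' := by ext <;> simp
  map_add' x y := by ext <;> simp

/-- reduction of a position. -/
def redXp (ℓ : V → ℕ) : ℤ × ℤ →+ Xp ℓ where
  toFun x := ((x.1, x.2), x.1, (x.1, x.2), fun _ => x.1)
  map_zero' := by ext <;> simp
  map_add' x y := by ext <;> simp

/-- parametrisation of the period lattice. -/
def perLat (N : ℤ) : ℤ × ℤ →+ ℤ × ℤ where
  toFun j := (N * j.1, 14 * j.2)
  map_zero' := by simp
  map_add' x y := by simp [mul_add]

/-- the quotient map ℤ³ → ℤ² × Φ. -/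
def proj3 (ℓ : V → ℕ) : (Fin 3 → ℤ) →+ (ℤ × ℤ) × Ph ℓ where
  toFun x := ((x 0, x 1), redPh ℓ (x 2))
  map_zero' := by simp
  map_add' x y := by simp

section

variable [Fintype V] {ℓ : V → ℕ} (hi : Function.Injective ℓ)
  (hℓ : ∀ v, (ℓ v).Prime ∧ 7 < ℓ v ∧ ℓ v % 12 = 7)

include hi hℓ

theorem redPh_eq_zero (z : ℤ) : redPh ℓ z = 0 ↔ ((42 * ∏ v, ℓ v : ℕ) : ℤ) ∣ z := by
  have h0 : redPh ℓ z = 0 ↔ ((2 : ℕ) : ℤ) ∣ z ∧ ((3 : ℕ) : ℤ) ∣ z ∧ ((7 : ℕ) : ℤ) ∣ z ∧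
      ∀ v, (ℓ v : ℤ) ∣ z := by
    simp only [← ZMod.intCast_zmod_eq_zero_iff_dvd]
    simp [redPh, Prod.ext_iff, funext_iff]
  rw [h0]
  push_cast
  constructor
  · rintro ⟨h2, h3, h7, hv⟩
    refine IsCoprime.mul_dvd (IsCoprime.prod_right fun v _ => ?_) (by omega)
      (Fintype.prod_dvd_of_coprime (fun v w hvw => ?_) hv)
    · have : Nat.Coprime 42 (ℓ v) := by
        rw [Nat.coprime_comm, (hℓ v).1.coprime_iff_not_dvd]
        intro h
        have h1 := Nat.le_of_dvd (by norm_num) h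
        have h2 := (hℓ v).2.1
        have h3 := (hℓ v).2.2
        generalize ℓ v = n at *
        interval_cases n <;> omega
      exact_mod_cast Nat.isCoprime_iff_coprime.2 this
    · exact Nat.isCoprime_iff_coprime.2
        ((Nat.coprime_primes (hℓ v).1 (hℓ w).1).2 fun h => hvw (hi h))
  · intro h
    have h42 : (42 : ℤ) ∣ z := (dvd_mul_right _ _).trans h
    exact ⟨by omega, by omega, by omega, fun v =>
      ((Finset.dvd_prod_of_mem _ (Finset.mem_univ v)).mul_left _).trans h⟩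

theorem redPh_surj : Function.Surjective (redPh ℓ) := by
  classical
  have : ∀ v, NeZero (ℓ v) := fun v => ⟨(hℓ v).1.ne_zero⟩
  have h1 : Function.Injective (fun n : Fin (42 * ∏ v, ℓ v) => redPh ℓ (n : ℕ)) := by
    intro a b h
    have h2 : redPh ℓ ((a : ℕ) - (b : ℕ)) = 0 := by rw [map_sub]; exact sub_eq_zero.2 h
    rw [redPh_eq_zero hi hℓ] at h2
    have h3 := Int.eq_zero_of_abs_lt_dvd h2 (by
      have := a.2
      have := b.2
      rw [abs_lt]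
      constructor <;> omega)
    exact Fin.ext (by omega)
  have h2 := ((Fintype.bijective_iff_injective_and_card _).2 ⟨h1, by
    simp [Fintype.card_pi]; ring⟩).2
  intro φ
  obtain ⟨n, hn⟩ := h2 φ
  exact ⟨_, hn⟩

theorem redXp_surj : Function.Surjective (redXp ℓ) := by
  rintro ⟨⟨a, a'⟩, c, ⟨g, g'⟩, ξ⟩
  obtain ⟨x, hx⟩ := redPh_surj hi hℓ (a, c, g, ξ)
  obtain ⟨x', hx'⟩ := redPh_surj hi hℓ (a', 0, g', 0)
  simp only [redPh, AddMonoidHom.coe_mk, ZeroHom.coe_mk, Prod.mk.injEq] at hx hx'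
  refine ⟨(x, x'), ?_⟩
  simp only [redXp, AddMonoidHom.coe_mk, ZeroHom.coe_mk, Prod.mk.injEq]
  exact ⟨⟨hx.1, hx'.1⟩, hx.2.1, ⟨hx.2.2.1, hx'.2.2.1⟩, hx.2.2.2⟩

theorem redXp_ker (x : ℤ × ℤ) :
    redXp ℓ x = 0 ↔ ∃ h, perLat ((42 * ∏ v, ℓ v : ℕ) : ℤ) h = x := by
  have h0 : redXp ℓ x = 0 ↔ redPh ℓ x.1 = 0 ∧ ((2 : ℕ) : ℤ) ∣ x.2 ∧ ((7 : ℕ) : ℤ) ∣ x.2 := by
    simp only [← ZMod.intCast_zmod_eq_zero_iff_dvd]
    simp only [redPh, redXp, Prod.ext_iff, AddMonoidHom.coe_mk, ZeroHom.coe_mk, Prod.fst_zero,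
      Prod.snd_zero]
    tauto
  rw [h0, redPh_eq_zero hi hℓ]
  constructor
  · rintro ⟨⟨j, hj⟩, h2, h7⟩
    obtain ⟨j', hj'⟩ : (14 : ℤ) ∣ x.2 := by omega
    exact ⟨(j, j'), Prod.ext hj.symm hj'.symm⟩
  · rintro ⟨h, rfl⟩
    simp only [perLat, AddMonoidHom.coe_mk, ZeroHom.coe_mk]
    exact ⟨dvd_mul_right _ _, by omega, by omega⟩

omit hi in
theorem perLat_inj : Function.Injective (perLat ((42 * ∏ v, ℓ v : ℕ) : ℤ)) := by
  have h0 : ((42 * ∏ v, ℓ v : ℕ) : ℤ) ≠ 0 := by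
    exact_mod_cast mul_ne_zero (by norm_num) (Finset.prod_ne_zero_iff.2 fun v _ => (hℓ v).1.ne_zero)
  intro a b h
  simp only [perLat, AddMonoidHom.coe_mk, ZeroHom.coe_mk, Prod.mk.injEq] at h
  exact Prod.ext (mul_left_cancel₀ h0 h.1) (by omega)

end

theorem system_of_colour {V : Type} [Fintype V] (ty : V → Bool) (E : V → V → Prop)
    (Inv : Finset (V × (ℤ × ℤ) × Bool)) (hE : ∀ u w, E u w → ty u = false ∧ ty w = true)
    (hex : ∃ ε, ColSol E Inv ε) (hap : ∀ π, PermSol E Inv π → ¬ Per π) :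
    ∃ A₀ : Set (Fin 3 → ℤ), Expr A₀ (fun A => ¬ IsFullyPeriodic A) := by
  obtain ⟨ℓ, hi, hℓ⟩ := exists_moduli V
  have : ∀ v, NeZero (ℓ v) := fun v => ⟨(hℓ v).1.ne_zero⟩
  have sg : ∀ v, SegStr (ZMod (ℓ v)) := fun v =>
    (exists_segStr (ℓ v) (ℓ v / 12) (by have := (hℓ v).2.2; omega)).some
  obtain ⟨ε, hε, hε'⟩ := hex
  let S : Setup (Xp ℓ) (Ph ℓ) (Ph ℓ) (Proper E) :=
    { ρ := redXp ℓ
      ι := perLat ((42 * ∏ v, ℓ v : ℕ) : ℤ)
      ρ_surj := redXp_surj hi hℓ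
      ι_inj := perLat_inj hℓ
      ker := redXp_ker hi hℓ
      pos := rpos sg
      fib := fun p => rfib sg ty p.1
      ε := fun j => ⟨ε j, hε j⟩ }
  have hpos : S.pos = rpos sg := rfl
  have hfib : ∀ p, S.fib p = rfib sg ty p.1 := fun _ => rfl
  have hSε : ∀ j, (S.ε j).1 = ε j := fun _ => rfl
  have k₀ := isKey₀ sg ty S hpos hfib
  have k₁ := isKey₁ sg ty S hpos hfib
  have k₂ := isKey₂ sg ty S hpos hfib
  have ku := isKey_vertex sg ty S hpos hfib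
  have e₀ := S.key_expr k₀
  have e₁ := S.key_expr k₁
  have e₂ := S.key_expr k₂
  have eu := Expr.forall_finite fun u => S.key_expr (ku u)
  have ee := Expr.forall_finite fun p : {p : V × V // E p.1 p.2} =>
    S.key_expr (isKey_edge sg ty S hpos hfib hE p.2)
  have w₁ := S.inv_expr k₁ (by simp +contextual [mask_eq_zero_iff])
    (by simp +contextual [mask_eq_zero_iff]) (cond₁ sg ty S hpos hfib 0 (0, 0, 1, 0))
    (cond₁ sg ty S hpos hfib _ _)
  have w₂ := S.inv_expr k₂ (by simp +contextual [mask_eq_zero_iff])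
    (by simp +contextual [mask_eq_zero_iff]) (cond₂ sg ty S hpos hfib 0 (0, 0, 1, 0))
    (cond₂ sg ty S hpos hfib _ _)
  have wu := Expr.forall_finite fun u => S.inv_expr (ku u)
    (by simp +contextual [mask_eq_zero_iff]) (by simp +contextual [mask_eq_zero_iff])
    (cond_vertex sg ty S hpos hfib u 0 rfl (1, 0, 0, 0) rfl rfl)
    (cond_vertex sg ty S hpos hfib u _ neg_zero _ (ZMod.neg_eq_self_mod_two _) (by simp))
  have wv := Expr.forall_finite fun p : {p // p ∈ Inv} => S.inv_expr k₀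
    (by simp +contextual [mask_eq_zero_iff]) (by simp +contextual [mask_eq_zero_iff])
    (cond_inv sg ty S hpos hfib p.1.1 p.1.2.1 p.1.2.2 (if p.1.2.2 then 1 else 0, 0, 0, 0)
      rfl rfl rfl (fun j => hε' _ _ _ p.2 j))
    (cond_inv sg ty S hpos hfib p.1.1 _ p.1.2.2 _ (ZMod.neg_eq_self_mod_two _) (by simp) (by simp)
      (fun j => by
        have := hε' _ _ _ p.2 (j + -p.1.2.1)
        rw [neg_add_cancel_right] at this
        rw [hSε, hSε, this]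
        cases p.1.2.2 <;> simp))
  have all : Expr S.A₀ (fun A => ¬ PerSet A) :=
    ((((e₀.and e₁).and (e₂.and eu)).and ((ee.and w₁).and (w₂.and wu))).and wv).mono
      fun A ⟨⟨⟨⟨a0, a1⟩, a2, au⟩, ⟨ae, b1⟩, b2, bu⟩, bv⟩ =>
        sound hap S.ker a0 a1 a2 au (fun u w h => ae ⟨(u, w), h⟩) b1 b2 bu
          (fun u h s hs => bv ⟨(u, h, s), hs⟩)
  obtain ⟨F₀, hF₀⟩ := S.exists_tile k₀
  have hsurj : Function.Surjective (proj3 ℓ) := by
    rintro ⟨⟨a, b⟩, φ⟩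
    obtain ⟨z, rfl⟩ := redPh_surj hi hℓ φ
    exact ⟨![a, b, z], rfl⟩
  have hker : ∀ x, proj3 ℓ x = 0 ↔
      ∃ k : ℤ, x = k • (![0, 0, ((42 * ∏ v, ℓ v : ℕ) : ℤ)] : Fin 3 → ℤ) := by
    intro x
    simp only [proj3, AddMonoidHom.coe_mk, ZeroHom.coe_mk, Prod.mk_eq_zero, redPh_eq_zero hi hℓ]
    constructor
    · rintro ⟨⟨h0, h1⟩, k, hk⟩
      refine ⟨k, funext fun i => ?_⟩
      fin_cases i
      · simpa using h0
      · simpa using h1
      · simpa [mul_comm] using hk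
    · rintro ⟨k, rfl⟩
      simp
  refine ⟨_, (Expr.lift (proj3 ℓ) hsurj _ hker hF₀ all).mono fun A hA ⟨H, hH, hHA⟩ => hA ?_⟩
  refine ⟨H.index, by exact_mod_cast Nat.pos_of_ne_zero hH.index_ne_zero, ?_⟩
  rintro _ ⟨a, ha, rfl⟩ h
  refine ⟨_, hHA _ (H.nsmul_index_mem ![h.1, h.2, 0]) a ha, ?_⟩
  have hg : proj3 ℓ ![h.1, h.2, 0] = (h, 0) := Prod.ext rfl (map_zero (redPh ℓ))
  rw [map_add, map_nsmul, hg]
  simp [Prod.ext_iff, add_comm]

end Crest.Agent.R46
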